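import Mathlib

namespace Vale.Agent.P243

open Finset

/-- Index set of the vertical tiles. -/
noncomputable def tilesV (N : ℕ) : Finset (ℤ × ℤ) :=
  ((Icc (-((N : ℤ) ^ 2 + 3 * N)) ((N : ℤ) ^ 2 + 3 * N)) ×ˢ (Icc (-((N : ℤ) + 3)) ((N : ℤ) + 3))).filter
    (fun z => |z.1| + N * |z.2| ≤ (N : ℤ) ^ 2 + 3 * N)

/-- Index set of the horizontal strips. -/
noncomputable def stripsH (N : ℕ) : Finset (ℤ × ℤ) :=
  (Ico (-((N : ℤ) ^ 2)) ((N : ℤ) ^ 2)) ×ˢ (Icc (-((N : ℤ) + 2)) ((N : ℤ) + 2))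

theorem sum_Icc_succ (f : ℤ → ℝ) (K : ℕ) :
    ∑ n ∈ Icc (-((K : ℤ) + 1)) ((K : ℤ) + 1), f n =
      ∑ n ∈ Icc (-(K : ℤ)) (K : ℤ), f n + f (K + 1) + f (-(K + 1)) := by
  have h : Icc (-((K : ℤ) + 1)) ((K : ℤ) + 1) =
      insert ((K : ℤ) + 1) (insert (-((K : ℤ) + 1)) (Icc (-(K : ℤ)) (K : ℤ))) := by
    ext x
    simp only [mem_Icc, mem_insert]
    omega
  rw [h, sum_insert, sum_insert]
  · ring
  · simp only [mem_Icc]; omega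
  · simp only [mem_Icc, mem_insert]; omega

theorem sum_abs (K : ℕ) : ∑ n ∈ Icc (-(K : ℤ)) (K : ℤ), |(n : ℝ)| = K * (K + 1) := by
  induction K with
  | zero => simp
  | succ K ih =>
    have := sum_Icc_succ (fun n => |(n : ℝ)|) K
    push_cast at this ⊢
    rw [this, ih, abs_of_nonneg (by positivity), abs_of_nonpos (by
      have : (0 : ℝ) ≤ K := Nat.cast_nonneg K
      linarith)]
    ring

theorem sum_Ico_succ (f : ℤ → ℝ) (K : ℕ) :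
    ∑ n ∈ Ico (-((K : ℤ) + 1)) ((K : ℤ) + 1), f n =
      ∑ n ∈ Ico (-(K : ℤ)) (K : ℤ), f n + f K + f (-(K + 1)) := by
  have h : Ico (-((K : ℤ) + 1)) ((K : ℤ) + 1) =
      insert ((K : ℤ)) (insert (-((K : ℤ) + 1)) (Ico (-(K : ℤ)) (K : ℤ))) := by
    ext x
    simp only [mem_Ico, mem_insert]
    omega
  rw [h, sum_insert, sum_insert]
  · ring
  · simp only [mem_Ico]; omega
  · simp only [mem_Ico, mem_insert]; omega

theorem sum_sq (K : ℕ) : ∑ n ∈ Ico (-(K : ℤ)) (K : ℤ), ((n : ℝ)) ^ 2 =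
    (2 * (K : ℝ) ^ 3 + K) / 3 := by
  induction K with
  | zero => simp
  | succ K ih =>
    have := sum_Ico_succ (fun n => ((n : ℝ)) ^ 2) K
    push_cast at this ⊢
    rw [this, ih]
    ring

theorem card_tilesV (N : ℕ) :
    ((tilesV N).card : ℝ) ≤ 2 * N * ((N : ℝ) + 3) ^ 2 + 2 * N + 7 := by
  have h1 : ((tilesV N).card : ℝ) ≤
      ∑ n ∈ Icc (-((N : ℤ) + 3)) ((N : ℤ) + 3), (2 * ((N : ℝ) ^ 2 + 3 * N - N * |(n : ℝ)|) + 1) := by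
    unfold tilesV
    rw [card_filter, sum_product_right]
    push_cast
    refine sum_le_sum fun n hn => ?_
    rw [mem_Icc] at hn
    have habs : |n| ≤ N + 3 := abs_le.2 hn
    have h2 : ∑ m ∈ Icc (-((N : ℤ) ^ 2 + 3 * N)) ((N : ℤ) ^ 2 + 3 * N),
        (if |m| + N * |n| ≤ (N : ℤ) ^ 2 + 3 * N then (1 : ℝ) else 0) ≤
        ((Icc (-((N : ℤ) ^ 2 + 3 * N - N * |n|)) ((N : ℤ) ^ 2 + 3 * N - N * |n|)).card : ℝ) := by
      rw [← sum_filter, sum_const, nsmul_eq_mul, mul_one]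
      exact_mod_cast card_le_card (by
        intro m hm
        simp only [mem_filter, mem_Icc] at hm ⊢
        have hm2 : |m| + N * |n| ≤ (N : ℤ) ^ 2 + 3 * N := by exact_mod_cast hm.2
        have := abs_le.1 (show |m| ≤ (N : ℤ) ^ 2 + 3 * N - N * |n| by linarith)
        exact this)
    refine h2.trans ?_
    rw [Int.card_Icc]
    have h3 : 0 ≤ (N : ℤ) ^ 2 + 3 * N - N * |n| := by
      have : (N : ℤ) * |n| ≤ N * (N + 3) := mul_le_mul_of_nonneg_left habs (by positivity)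
      linarith
    have h4 : (((((N : ℤ) ^ 2 + 3 * N - N * |n| + 1 - -((N : ℤ) ^ 2 + 3 * N - N * |n|)).toNat : ℕ) : ℤ) : ℝ) =
        (2 * ((N : ℝ) ^ 2 + 3 * N - N * |(n : ℝ)|) + 1) := by
      rw [Int.toNat_of_nonneg (by linarith)]
      push_cast
      ring
    rw [← h4]
    push_cast
    exact le_rfl
  refine h1.trans (le_of_eq ?_)
  have h5 := sum_abs (N + 3)
  push_cast at h5
  have h6 : ∑ n ∈ Icc (-((N : ℤ) + 3)) ((N : ℤ) + 3), (2 * ((N : ℝ) ^ 2 + 3 * N - N * |(n : ℝ)|) + 1) =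
      ∑ n ∈ Icc (-((N : ℤ) + 3)) ((N : ℤ) + 3), (2 * ((N : ℝ) ^ 2 + 3 * N) + 1) -
      2 * N * ∑ n ∈ Icc (-((N : ℤ) + 3)) ((N : ℤ) + 3), |(n : ℝ)| := by
    rw [mul_sum, ← sum_sub_distrib]
    refine sum_congr rfl fun n _ => ?_
    ring
  rw [h6, h5, sum_const, nsmul_eq_mul, Int.card_Icc]
  have h7 : (((((N : ℤ) + 3 + 1 - -((N : ℤ) + 3)).toNat : ℕ) : ℤ) : ℝ) = 2 * N + 7 := by
    rw [Int.toNat_of_nonneg (by omega)]
    push_cast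
    ring
  have h8 : ((((N : ℤ) + 3 + 1 - -((N : ℤ) + 3)).toNat : ℕ) : ℝ) = 2 * N + 7 := by
    rw [← h7]; push_cast; rfl
  rw [h8]
  ring

/-- MODULE K1: total relative cost of the vertical tiles (each of relative cost area/4). -/
theorem cost_tiles (N : ℕ) (hN : 10 ≤ N) :
    ∑ _z ∈ tilesV N, ((1 / (N : ℝ) ^ 2) * ((3 / 4 + 1 / (N : ℝ)) / (N : ℝ)) / 4) ≤
      3 / 8 + 5 / (N : ℝ) := by
  rw [sum_const, nsmul_eq_mul]
  have hN1 : (10 : ℝ) ≤ N := by exact_mod_cast hN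
  have hN0 : (0 : ℝ) < N := by linarith
  calc _ ≤ (2 * N * ((N : ℝ) + 3) ^ 2 + 2 * N + 7) *
        ((1 / (N : ℝ) ^ 2) * ((3 / 4 + 1 / (N : ℝ)) / (N : ℝ)) / 4) := by
        gcongr
        exact card_tilesV N
    _ ≤ _ := by
        rw [← sub_nonneg]
        have : 3 / 8 + 5 / (N : ℝ) - (2 * N * ((N : ℝ) + 3) ^ 2 + 2 * N + 7) *
        ((1 / (N : ℝ) ^ 2) * ((3 / 4 + 1 / (N : ℝ)) / (N : ℝ)) / 4) =
          (36 * N ^ 3 - 108 * N ^ 2 - 101 * N - 28) / (16 * N ^ 4) := by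
          field_simp
          ring
        rw [this]
        apply div_nonneg _ (by positivity)
        nlinarith [mul_nonneg (mul_nonneg hN0.le hN0.le) (by linarith : (0:ℝ) ≤ N - 10),
          mul_nonneg hN0.le (by linarith : (0:ℝ) ≤ N - 10)]

/-- MODULE K2: total relative cost of the horizontal strips. -/
theorem cost_strips (N : ℕ) (hN : 10 ≤ N) :
    ∑ z ∈ stripsH N, ((1 / (2 * (N : ℝ) ^ 2)) *
      ((1 / 4 - ((z.1 : ℝ) / (2 * (N : ℝ) ^ 2)) ^ 2 + 5 / (N : ℝ)) / (N : ℝ)) / 4) ≤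
      1 / 12 + 5 / (N : ℝ) := by
  have hN1 : (10 : ℝ) ≤ N := by exact_mod_cast hN
  have hN0 : (0 : ℝ) < N := by linarith
  unfold stripsH
  rw [sum_product]
  simp only [sum_const, nsmul_eq_mul, Int.card_Icc]
  have h8 : ((((N : ℤ) + 2 + 1 - -((N : ℤ) + 2)).toNat : ℕ) : ℝ) = 2 * N + 5 := by
    have h7 : (((((N : ℤ) + 2 + 1 - -((N : ℤ) + 2)).toNat : ℕ) : ℤ) : ℝ) = 2 * N + 5 := by
      rw [Int.toNat_of_nonneg (by omega)]
      push_cast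
      ring
    rw [← h7]; push_cast; rfl
  rw [h8]
  have h9 : ∑ k ∈ Ico (-(N : ℤ) ^ 2) ((N : ℤ) ^ 2), (2 * (N : ℝ) + 5) * ((1 / (2 * (N : ℝ) ^ 2)) *
      ((1 / 4 - ((k : ℝ) / (2 * (N : ℝ) ^ 2)) ^ 2 + 5 / (N : ℝ)) / (N : ℝ)) / 4) =
      (2 * (N : ℝ) + 5) * (1 / (2 * (N : ℝ) ^ 2)) / N / 4 *
      (∑ k ∈ Ico (-(N : ℤ) ^ 2) ((N : ℤ) ^ 2), (1 / 4 + 5 / (N : ℝ)) -
        1 / (4 * (N : ℝ) ^ 4) * ∑ k ∈ Ico (-(N : ℤ) ^ 2) ((N : ℤ) ^ 2), ((k : ℝ)) ^ 2) := by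
    rw [mul_sum (f := fun k : ℤ => ((k : ℝ)) ^ 2), ← sum_sub_distrib, mul_sum]
    refine sum_congr rfl fun k _ => ?_
    field_simp
    ring
  have hs := sum_sq (N ^ 2)
  push_cast at hs
  rw [h9, hs, sum_const, nsmul_eq_mul, Int.card_Ico]
  have h10 : ((((N : ℤ) ^ 2 - -(N : ℤ) ^ 2).toNat : ℕ) : ℝ) = 2 * (N : ℝ) ^ 2 := by
    have h7 : (((((N : ℤ) ^ 2 - -(N : ℤ) ^ 2).toNat : ℕ) : ℤ) : ℝ) = 2 * (N : ℝ) ^ 2 := by
      rw [Int.toNat_of_nonneg (by nlinarith [sq_nonneg (N : ℤ)])]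
      push_cast
      ring
    rw [← h7]; push_cast; rfl
  rw [h10, ← sub_nonneg]
  have : 1 / 12 + 5 / (N : ℝ) - (2 * (N : ℝ) + 5) * (1 / (2 * (N : ℝ) ^ 2)) / N / 4 *
      (2 * (N : ℝ) ^ 2 * (1 / 4 + 5 / (N : ℝ)) -
        1 / (4 * (N : ℝ) ^ 4) * ((2 * ((N : ℝ) ^ 2) ^ 3 + (N : ℝ) ^ 2) / 3)) =
      ((220 * N ^ 6 - 600 * N ^ 5) + 2 * N ^ 3 + 5 * N ^ 2) / (96 * N ^ 7) := by
    field_simp
    ring
  rw [this]
  apply div_nonneg _ (by positivity)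
  have : 0 ≤ 220 * (N : ℝ) ^ 6 - 600 * N ^ 5 := by
    have : 220 * (N : ℝ) ^ 6 - 600 * N ^ 5 = N ^ 5 * (220 * N - 600) := by ring
    rw [this]
    apply mul_nonneg (by positivity)
    linarith
  positivity

end Vale.Agent.P243
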