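import Mathlib

namespace Vale.Agent.P243

theorem exists_v (a b s : ℝ) (h1 : |a - b| ≤ 1 - s) (h2 : |a + b| ≤ 1 + s) :
    ∃ v : ℝ, |a - s * v| + |v| ≤ 1 ∧ b - s * a = (1 - s ^ 2) * v := by
  have hs1 : s ≤ 1 := by have := abs_nonneg (a - b); linarith
  have hs2 : -1 ≤ s := by have := abs_nonneg (a + b); linarith
  have ha : |a| ≤ 1 := by
    rw [abs_le] at *
    constructor <;> linarith [h1.1, h1.2, h2.1, h2.2]
  rcases eq_or_lt_of_le hs1 with h | h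
  · subst h
    refine ⟨0, by simpa using ha, ?_⟩
    have : |a - b| = 0 := le_antisymm (by linarith) (abs_nonneg _)
    have : a - b = 0 := abs_eq_zero.1 this
    linarith
  · rcases eq_or_lt_of_le hs2 with h' | h'
    · refine ⟨0, by simpa using ha, ?_⟩
      have h3 : |a + b| = 0 := le_antisymm (by linarith) (abs_nonneg _)
      have h4 : a + b = 0 := abs_eq_zero.1 h3
      rw [← h']
      linarith
    · have hp : 0 < 1 - s := by linarith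
      have hq : 0 < 1 + s := by linarith
      have hpq : 1 - s ^ 2 = (1 - s) * (1 + s) := by ring
      have hpq0 : 0 < 1 - s ^ 2 := by rw [hpq]; positivity
      refine ⟨(b - s * a) / (1 - s ^ 2), ?_, by field_simp⟩
      have e1 : a - s * ((b - s * a) / (1 - s ^ 2)) = (a - s * b) / (1 - s ^ 2) := by
        field_simp
        ring
      rw [e1]
      have e2 : (a - s * b) / (1 - s ^ 2) + (b - s * a) / (1 - s ^ 2) = (a + b) / (1 + s) := by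
        rw [hpq]; field_simp; ring
      have e3 : (a - s * b) / (1 - s ^ 2) - (b - s * a) / (1 - s ^ 2) = (a - b) / (1 - s) := by
        rw [hpq]; field_simp; ring
      have f2 : |(a + b) / (1 + s)| ≤ 1 := by
        rw [abs_div, abs_of_pos hq, div_le_one hq]; exact h2
      have f3 : |(a - b) / (1 - s)| ≤ 1 := by
        rw [abs_div, abs_of_pos hp, div_le_one hp]; exact h1
      rw [← e2] at f2
      rw [← e3] at f3
      rw [abs_le] at f2 f3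
      rcases abs_cases ((a - s * b) / (1 - s ^ 2)) with h5 | h5 <;>
      rcases abs_cases ((b - s * a) / (1 - s ^ 2)) with h6 | h6 <;>
      linarith [f2.1, f2.2, f3.1, f3.2]

/-- the tile alternative for a given row `n` close to `N v`. -/
theorem tile_of (N : ℕ) (hN : 10 ≤ N) (a b s v : ℝ) (hs : |s| ≤ 1) (hv : |a - s * v| + |v| ≤ 1)
    (hb : b - s * a = (1 - s ^ 2) * v) (n : ℤ) (hn : |N * v - n| ≤ 1) :
    ∃ m : ℤ, ∃ f : ℝ, 0 ≤ f ∧ f ≤ 1 ∧ |m| + N * |n| ≤ (N : ℤ) ^ 2 + 3 * N ∧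
      (m : ℝ) / (N : ℝ) ^ 2 ≤ a - (n : ℝ) / N * s ∧
      a - (n : ℝ) / N * s ≤ ((m : ℝ) + 1) / (N : ℝ) ^ 2 ∧
      N * (b - (m : ℝ) / (N : ℝ) ^ 2 * s) - n = (1 - s ^ 2) * (N * v - n) + s * f / N := by
  have hN1 : (10 : ℝ) ≤ N := by exact_mod_cast hN
  have hN0 : (0 : ℝ) < N := by linarith
  set x : ℝ := (N : ℝ) ^ 2 * a - s * N * n with hx
  have hfl := Int.floor_le x
  have hlf := Int.lt_floor_add_one x
  refine ⟨⌊x⌋, x - ⌊x⌋, by linarith, by linarith, ?_, ?_, ?_, ?_⟩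
  · have hxabs : |x| ≤ (N : ℝ) ^ 2 * |a - s * v| + N := by
      have : x = (N : ℝ) ^ 2 * (a - s * v) + s * N * (N * v - n) := by rw [hx]; ring
      rw [this]
      calc _ ≤ |(N : ℝ) ^ 2 * (a - s * v)| + |s * N * (N * v - n)| := abs_add_le _ _
        _ = (N : ℝ) ^ 2 * |a - s * v| + |s| * N * |N * v - n| := by
            rw [abs_mul, abs_mul, abs_mul, abs_of_pos (show (0 : ℝ) < (N : ℝ) ^ 2 by positivity),
              abs_of_pos hN0]
        _ ≤ (N : ℝ) ^ 2 * |a - s * v| + 1 * N * 1 := by gcongr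
        _ = _ := by ring
    have hm : |((⌊x⌋ : ℤ) : ℝ)| ≤ |x| + 1 := by
      rw [abs_le]
      have := abs_le.1 (le_refl |x|)
      constructor <;> linarith [this.1, this.2]
    have hnn : |(n : ℝ)| ≤ N * |v| + 1 := by
      have : (n : ℝ) = N * v - (N * v - n) := by ring
      rw [this]
      calc _ ≤ |(N : ℝ) * v| + |N * v - n| := abs_sub _ _
        _ ≤ N * |v| + 1 := by rw [abs_mul, abs_of_pos hN0]; linarith
    have : (|((⌊x⌋ : ℤ) : ℝ)| + N * |(n : ℝ)|) ≤ (N : ℝ) ^ 2 + 3 * N := by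
      nlinarith [hm, hnn, hxabs, hv, mul_le_mul_of_nonneg_left hnn hN0.le,
        mul_le_mul_of_nonneg_left hv (show (0 : ℝ) ≤ (N : ℝ) ^ 2 by positivity)]
    have h2 : ((|⌊x⌋| + N * |n| : ℤ) : ℝ) ≤ (((N : ℤ) ^ 2 + 3 * N : ℤ) : ℝ) := by
      push_cast
      exact this
    exact_mod_cast h2
  · rw [div_le_iff₀ (by positivity)]
    have : (a - (n : ℝ) / N * s) * (N : ℝ) ^ 2 = x := by rw [hx]; field_simp
    rw [this]; exact hfl
  · rw [le_div_iff₀ (by positivity)]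
    have : (a - (n : ℝ) / N * s) * (N : ℝ) ^ 2 = x := by rw [hx]; field_simp
    rw [this]; exact hlf.le
  · have e : b = (1 - s ^ 2) * v + s * a := by linarith
    rw [e, hx]
    field_simp
    ring

/-- the strip alternative. -/
theorem strip_of (N : ℕ) (hN1 : (10 : ℝ) ≤ N) (hN0 : (0 : ℝ) < N) (a b s v : ℝ) (ha : |a| ≤ 1)
    (hvv : |v| ≤ 1) (y : ℝ) (hyb : N * (b - s * a) = y) (n : ℤ) (hfl : (n : ℝ) ≤ N * v)
    (hlf : N * v < n + 1) (hs2 : s ^ 2 < 1 / 4)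
    (y1 : 3 / 4 + n * (1 - s ^ 2) - 1 / N < y) (y2 : y < (n + 1) * (1 - s ^ 2)) :
    (∃ k n : ℤ, -(N : ℤ) ^ 2 ≤ k ∧ k < (N : ℤ) ^ 2 ∧ |n| ≤ (N : ℤ) + 2 ∧
      (k : ℝ) / (2 * (N : ℝ) ^ 2) ≤ s ∧ s ≤ ((k : ℝ) + 1) / (2 * (N : ℝ) ^ 2) ∧
      ((n : ℝ) * (1 - ((k : ℝ) / (2 * (N : ℝ) ^ 2)) ^ 2) + 3 / 4 - 3 / N) / N
        ≤ b - (k : ℝ) / (2 * (N : ℝ) ^ 2) * a ∧
      b - (k : ℝ) / (2 * (N : ℝ) ^ 2) * a
        ≤ (((n : ℝ) + 1) * (1 - ((k : ℝ) / (2 * (N : ℝ) ^ 2)) ^ 2) + 2 / N) / N) := by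
  have hsh : |s| < 1 / 2 := by
    rw [← sq_abs] at hs2
    nlinarith [abs_nonneg s]
  have hsh' := abs_lt.1 hsh
  set k : ℤ := ⌊2 * (N : ℝ) ^ 2 * s⌋ with hk
  have kfl := Int.floor_le (2 * (N : ℝ) ^ 2 * s)
  have klf := Int.lt_floor_add_one (2 * (N : ℝ) ^ 2 * s)
  rw [← hk] at kfl klf
  have hNsq : (0 : ℝ) < 2 * (N : ℝ) ^ 2 := by positivity
  set t : ℝ := (k : ℝ) / (2 * (N : ℝ) ^ 2) with ht
  have hkt : (k : ℝ) = t * (2 * (N : ℝ) ^ 2) := by rw [ht]; field_simp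
  have k1 : -(N : ℤ) ^ 2 ≤ k := by
    rw [hk, Int.le_floor]
    push_cast
    nlinarith
  have k2 : k < (N : ℤ) ^ 2 := by
    rw [hk, Int.floor_lt]
    push_cast
    nlinarith
  have k1r : -(N : ℝ) ^ 2 ≤ (k : ℝ) := by exact_mod_cast k1
  have k2r : (k : ℝ) ≤ (N : ℝ) ^ 2 := by exact_mod_cast k2.le
  have t1 : -(1 / 2) ≤ t := by
    rw [ht, le_div_iff₀ hNsq]; linarith
  have t2 : t ≤ 1 / 2 := by
    rw [ht, div_le_iff₀ hNsq]; linarith
  have ts : t ≤ s := by rw [ht, div_le_iff₀ hNsq]; linarith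
  have ts' : s ≤ ((k : ℝ) + 1) / (2 * (N : ℝ) ^ 2) := by
    rw [le_div_iff₀ hNsq]; linarith
  have ts2 : s - t ≤ 1 / (2 * (N : ℝ) ^ 2) := by
    have : ((k : ℝ) + 1) / (2 * (N : ℝ) ^ 2) = t + 1 / (2 * (N : ℝ) ^ 2) := by rw [ht]; ring
    linarith
  -- |n| ≤ N + 1
  have hvl := (abs_le.1 hvv).1
  have hvu := (abs_le.1 hvv).2
  have n1 : -((N : ℝ) + 1) ≤ n := by nlinarith
  have n2 : (n : ℝ) ≤ N := by nlinarith
  have n3 : |n| ≤ (N : ℤ) + 2 := by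
    rw [abs_le]
    have n1z : -((N : ℤ) + 1) ≤ n := by exact_mod_cast n1
    have n2z : n ≤ (N : ℤ) := by exact_mod_cast n2
    constructor <;> linarith
  refine ⟨k, n, k1, k2, n3, ts, ts', ?_, ?_⟩
  all_goals
    have hL : N * (b - t * a) = y + N * ((s - t) * a) := by rw [← hyb]; ring
    have hE : |N * ((s - t) * a)| ≤ 1 / (2 * N) := by
      rw [abs_mul, abs_mul, abs_of_pos hN0, abs_of_nonneg (by linarith : 0 ≤ s - t)]
      calc (N : ℝ) * ((s - t) * |a|) ≤ N * ((1 / (2 * (N : ℝ) ^ 2)) * 1) := by gcongr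
        _ = 1 / (2 * N) := by field_simp
    have hE' := abs_le.1 hE
    have hd : |s ^ 2 - t ^ 2| ≤ 1 / (2 * (N : ℝ) ^ 2) := by
      have : s ^ 2 - t ^ 2 = (s - t) * (s + t) := by ring
      rw [this, abs_mul, abs_of_nonneg (by linarith : 0 ≤ s - t)]
      have : |s + t| ≤ 1 := by rw [abs_le]; constructor <;> linarith
      calc (s - t) * |s + t| ≤ (1 / (2 * (N : ℝ) ^ 2)) * 1 := by gcongr
        _ = _ := by ring
    have hsmall : 1 / (2 * (N : ℝ)) = 1 / 2 * (1 / N) := by field_simp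
    have hsmall2 : 1 / (2 * (N : ℝ) ^ 2) = 1 / 2 * (1 / N) * (1 / N) := by field_simp
  · -- lower
    have h3 : (n : ℝ) * (t ^ 2 - s ^ 2) ≥ -(1 / 2 * (1 / N) + 1 / 2 * (1 / N) * (1 / N)) := by
      have : |(n : ℝ) * (t ^ 2 - s ^ 2)| ≤ (N + 1) * (1 / (2 * (N : ℝ) ^ 2)) := by
        rw [abs_mul, abs_sub_comm]
        gcongr
        rw [abs_le]; constructor <;> linarith
      have h4 := (abs_le.1 this).1
      have h5 : ((N : ℝ) + 1) * (1 / (2 * (N : ℝ) ^ 2)) = 1 / 2 * (1 / N) + 1 / 2 * (1 / N) * (1 / N) := by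
        field_simp
      linarith
    have hNi : 1 / (N : ℝ) ≤ 1 / 10 := by
      rw [div_le_div_iff₀ hN0 (by norm_num)]; linarith
    have e3 : (3 : ℝ) / N = 3 * (1 / N) := by ring
    rw [div_le_iff₀ hN0, e3]
    have : (b - t * a) * N = y + N * ((s - t) * a) := by rw [← hL]; ring
    rw [this]
    have hq : 1 / 2 * (1 / (N : ℝ)) * (1 / (N : ℝ)) ≤ 1 / 2 * (1 / (N : ℝ)) * 1 := by
      gcongr
      linarith
    have hid : (n : ℝ) * (1 - t ^ 2) = n * (1 - s ^ 2) - n * (t ^ 2 - s ^ 2) := by ring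
    rw [hid]
    rw [hsmall] at hE'
    linarith [hE'.1, hE'.2]
  · have h3 : ((n : ℝ) + 1) * (t ^ 2 - s ^ 2) ≤ (1 / 2 * (1 / N) + 1 / 2 * (1 / N) * (1 / N)) := by
      have : |((n : ℝ) + 1) * (t ^ 2 - s ^ 2)| ≤ (N + 1) * (1 / (2 * (N : ℝ) ^ 2)) := by
        rw [abs_mul, abs_sub_comm]
        gcongr
        rw [abs_le]; constructor <;> linarith
      have h4 := (abs_le.1 this).2
      have h5 : ((N : ℝ) + 1) * (1 / (2 * (N : ℝ) ^ 2)) = 1 / 2 * (1 / N) + 1 / 2 * (1 / N) * (1 / N) := by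
        field_simp
      linarith
    have hNi : 1 / (N : ℝ) ≤ 1 / 10 := by
      rw [div_le_div_iff₀ hN0 (by norm_num)]; linarith
    have e3 : (2 : ℝ) / N = 2 * (1 / N) := by ring
    rw [le_div_iff₀ hN0, e3]
    have : (b - t * a) * N = y + N * ((s - t) * a) := by rw [← hL]; ring
    rw [this]
    have hq : 1 / 2 * (1 / (N : ℝ)) * (1 / (N : ℝ)) ≤ 1 / 2 * (1 / (N : ℝ)) * 1 := by
      gcongr
      linarith
    have hid : ((n : ℝ) + 1) * (1 - t ^ 2) = (n + 1) * (1 - s ^ 2) - (n + 1) * (t ^ 2 - s ^ 2) := by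
      ring
    rw [hid]
    rw [hsmall] at hE'
    linarith [hE'.1, hE'.2]

/-- MODULE C: the covering lemma. Point `(a,b,s)` of the tetrahedron; columns of width `1/N^2`
with velocity `m/N^2`, rows of height `(3/4+1/N)/N` with velocity `n/N`; slabs
`k/(2N^2) ≤ s ≤ (k+1)/(2N^2)`. -/
theorem cover (N : ℕ) (hN : 10 ≤ N) (a b s : ℝ) (h1 : |a - b| ≤ 1 - s) (h2 : |a + b| ≤ 1 + s) :
    (∃ m n : ℤ, |m| + N * |n| ≤ (N : ℤ) ^ 2 + 3 * N ∧
      (m : ℝ) / (N : ℝ) ^ 2 ≤ a - (n : ℝ) / N * s ∧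
      a - (n : ℝ) / N * s ≤ ((m : ℝ) + 1) / (N : ℝ) ^ 2 ∧
      ((n : ℝ) - 1 / N) / N ≤ b - (m : ℝ) / (N : ℝ) ^ 2 * s ∧
      b - (m : ℝ) / (N : ℝ) ^ 2 * s ≤ ((n : ℝ) + 3 / 4) / N) ∨
    (∃ k n : ℤ, -(N : ℤ) ^ 2 ≤ k ∧ k < (N : ℤ) ^ 2 ∧ |n| ≤ (N : ℤ) + 2 ∧
      (k : ℝ) / (2 * (N : ℝ) ^ 2) ≤ s ∧ s ≤ ((k : ℝ) + 1) / (2 * (N : ℝ) ^ 2) ∧
      ((n : ℝ) * (1 - ((k : ℝ) / (2 * (N : ℝ) ^ 2)) ^ 2) + 3 / 4 - 3 / N) / N
        ≤ b - (k : ℝ) / (2 * (N : ℝ) ^ 2) * a ∧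
      b - (k : ℝ) / (2 * (N : ℝ) ^ 2) * a
        ≤ (((n : ℝ) + 1) * (1 - ((k : ℝ) / (2 * (N : ℝ) ^ 2)) ^ 2) + 2 / N) / N) := by
  have hN1 : (10 : ℝ) ≤ N := by exact_mod_cast hN
  have hN0 : (0 : ℝ) < N := by linarith
  have hs : |s| ≤ 1 := by
    rw [abs_le]
    constructor
    · have := abs_nonneg (a + b); linarith
    · have := abs_nonneg (a - b); linarith
  have ha : |a| ≤ 1 := by
    rw [abs_le] at *
    constructor <;> linarith [h1.1, h1.2, h2.1, h2.2]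
  obtain ⟨v, hv, hb⟩ := exists_v a b s h1 h2
  set n : ℤ := ⌊(N : ℝ) * v⌋ with hn
  have hfl := Int.floor_le ((N : ℝ) * v)
  have hlf := Int.lt_floor_add_one ((N : ℝ) * v)
  rw [← hn] at hfl hlf
  obtain ⟨m0, f0, hf0, hf0', hm0, c1, c2, c3⟩ := tile_of N hN a b s v hs hv hb n
    (by rw [abs_le]; constructor <;> linarith)
  obtain ⟨m1, f1, hf1, hf1', hm1, d1, d2, d3⟩ := tile_of N hN a b s v hs hv hb (n + 1)
    (by push_cast; rw [abs_le]; constructor <;> linarith)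
  have hss : s ^ 2 ≤ 1 := by
    have := sq_abs s
    nlinarith [abs_nonneg s]
  have hsl := (abs_le.1 hs).1
  have hsu := (abs_le.1 hs).2
  have hiN : 0 < 1 / (N : ℝ) := by positivity
  have g0 : |s * f0 / N| ≤ 1 / N := by
    rw [abs_div, abs_mul, abs_of_pos hN0, abs_of_nonneg hf0]
    gcongr
    nlinarith [abs_nonneg s]
  have g1 : |s * f1 / N| ≤ 1 / N := by
    rw [abs_div, abs_mul, abs_of_pos hN0, abs_of_nonneg hf1]
    gcongr
    nlinarith [abs_nonneg s]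
  have g0' := abs_le.1 g0
  have g1' := abs_le.1 g1
  -- lower bound for row n
  have lo0 : -(1 / (N : ℝ)) ≤ N * (b - (m0 : ℝ) / (N : ℝ) ^ 2 * s) - n := by
    rw [c3]
    have : 0 ≤ (1 - s ^ 2) * (N * v - n) := mul_nonneg (by linarith) (by linarith)
    linarith
  have up1 : N * (b - (m1 : ℝ) / (N : ℝ) ^ 2 * s) - ((n + 1 : ℤ) : ℝ) ≤ 1 / N := by
    rw [d3]
    have : (1 - s ^ 2) * (N * v - ((n + 1 : ℤ) : ℝ)) ≤ 0 := by
      push_cast
      exact mul_nonpos_of_nonneg_of_nonpos (by linarith) (by linarith)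
    linarith
  by_cases q0 : N * (b - (m0 : ℝ) / (N : ℝ) ^ 2 * s) - n ≤ 3 / 4
  · left
    refine ⟨m0, n, hm0, c1, c2, ?_, ?_⟩
    · rw [div_le_iff₀ hN0]; linarith
    · rw [le_div_iff₀ hN0]; linarith
  by_cases q1 : -(1 / (N : ℝ)) ≤ N * (b - (m1 : ℝ) / (N : ℝ) ^ 2 * s) - ((n + 1 : ℤ) : ℝ)
  · left
    refine ⟨m1, n + 1, hm1, d1, d2, ?_, ?_⟩
    · rw [div_le_iff₀ hN0]; linarith
    · rw [le_div_iff₀ hN0]
      have : 1 / (N : ℝ) ≤ 3 / 4 := by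
        rw [div_le_iff₀ hN0]; linarith
      linarith
  right
  push Not at q0 q1
  rw [c3] at q0
  rw [d3] at q1
  push_cast at q1
  -- y = N (b - s a) = (1 - s^2) N v
  set y : ℝ := (1 - s ^ 2) * (N * v) with hy
  have hyb : N * (b - s * a) = y := by rw [hb, hy]; ring
  have y1 : 3 / 4 + n * (1 - s ^ 2) - 1 / N < y := by
    have : (1 - s ^ 2) * (N * v - n) = y - n * (1 - s ^ 2) := by rw [hy]; ring
    rw [this] at q0
    linarith
  have y2 : y < (n + 1) * (1 - s ^ 2) := by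
    have : (1 - s ^ 2) * (N * v - (n + 1)) = y - (n + 1) * (1 - s ^ 2) := by rw [hy]; ring
    rw [this] at q1
    linarith
  have hs2 : s ^ 2 < 1 / 4 := by
    -- step: q0 - q1
    have e1 : (1 - s ^ 2) * (N * v - n) - (1 - s ^ 2) * (N * v - (n + 1)) = 1 - s ^ 2 := by ring
    have e2 : s * f0 / N - s * f1 / N ≤ 1 / N := by
      have : s * f0 / N - s * f1 / N = s * (f0 - f1) / N := by ring
      rw [this]
      gcongr
      have h3 : |s * (f0 - f1)| ≤ 1 := by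
        rw [abs_mul]
        have : |f0 - f1| ≤ 1 := by rw [abs_le]; constructor <;> linarith
        calc |s| * |f0 - f1| ≤ 1 * 1 := mul_le_mul hs this (abs_nonneg _) zero_le_one
          _ = 1 := by ring
      exact (abs_le.1 h3).2
    linarith
  exact strip_of N hN1 hN0 a b s v ha (by have := abs_nonneg (a - s * v); linarith) y hyb n hfl hlf hs2 y1 y2

end Vale.Agent.P243
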