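import Vale.Agent.P243.Shadow
import Vale.Agent.P243.Cover
import Vale.Agent.P243.Cost

namespace Vale.Agent.P243

open MeasureTheory

theorem div_bound {c v w : ENNReal} (hc0 : c ≠ 0) (hct : c ≠ ⊤) (hw : 4 ≤ w) :
    (c * v) / (c * w) ≤ v / 4 := by
  rw [ENNReal.mul_div_mul_left _ _ hc0 hct]
  exact ENNReal.div_le_div_left hw _

theorem exists_cylV (V W : ℝ) (D : Set (ℝ × ℝ)) (hD : MeasurableSet D) (hfin : volume D ≠ ⊤) :
    ∃ C : Cylinder, (∀ x : E3, x ∈ C.carrier ↔ (x 0 - V * x 2, x 1 - W * x 2) ∈ D) ∧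
      C.area / planarArea C.dir (shadow C.dir tetra) ≤ volume D / 4 := by
  have hcoord : ∀ x : E3, coord (!₂[1, 0, -V]) (!₂[0, 1, -W]) x = (x 0 - V * x 2, x 1 - W * x 2) := by
    intro x
    simp [coord, PiLp.inner_apply, Fin.sum_univ_three]
    constructor <;> ring
  have hgram : gram (!₂[1, 0, -V]) (!₂[0, 1, -W]) = 1 + V ^ 2 + W ^ 2 := by
    simp [gram, EuclideanSpace.norm_eq, PiLp.inner_apply, Fin.sum_univ_three]
    rw [Real.sq_sqrt (by positivity), Real.sq_sqrt (by positivity)]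
    ring
  have hpos : 0 < gram (!₂[1, 0, -V]) (!₂[0, 1, -W]) := by rw [hgram]; positivity
  obtain ⟨C, h1, h2, h3⟩ := exists_cylinder (!₂[V, W, 1]) (!₂[1, 0, -V]) (!₂[0, 1, -W])
    (by
      intro h
      have := congrFun (congrArg (fun z : E3 => (z : Fin 3 → ℝ)) h) 2
      simp at this)
    (by simp [PiLp.inner_apply, Fin.sum_univ_three])
    (by simp [PiLp.inner_apply, Fin.sum_univ_three]) hpos D hD hfin
  refine ⟨C, fun x => by rw [h1, hcoord], ?_⟩
  rw [h2, h3 tetra]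
  have : coord (!₂[1, 0, -V]) (!₂[0, 1, -W]) '' tetra =
      (fun x : E3 => (x 0 - V * x 2, x 1 - W * x 2)) '' tetra := by
    apply Set.image_congr
    intro x _
    exact hcoord x
  rw [this]
  refine div_bound ?_ ENNReal.ofReal_ne_top (shadowV V W)
  simp only [ne_eq, ENNReal.ofReal_eq_zero, not_le]
  positivity

theorem exists_cylH (t : ℝ) (D : Set (ℝ × ℝ)) (hD : MeasurableSet D) (hfin : volume D ≠ ⊤) :
    ∃ C : Cylinder, (∀ x : E3, x ∈ C.carrier ↔ (x 1 - t * x 0, x 2) ∈ D) ∧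
      C.area / planarArea C.dir (shadow C.dir tetra) ≤ volume D / 4 := by
  have hcoord : ∀ x : E3, coord (!₂[-t, 1, 0]) (!₂[0, 0, 1]) x = (x 1 - t * x 0, x 2) := by
    intro x
    simp [coord, PiLp.inner_apply, Fin.sum_univ_three]
    ring
  have hgram : gram (!₂[-t, 1, 0]) (!₂[0, 0, 1]) = 1 + t ^ 2 := by
    simp [gram, EuclideanSpace.norm_eq, PiLp.inner_apply, Fin.sum_univ_three]
    rw [Real.sq_sqrt (by positivity)]
    ring
  have hpos : 0 < gram (!₂[-t, 1, 0]) (!₂[0, 0, 1]) := by rw [hgram]; positivity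
  obtain ⟨C, h1, h2, h3⟩ := exists_cylinder (!₂[1, t, 0]) (!₂[-t, 1, 0]) (!₂[0, 0, 1])
    (by
      intro h
      have := congrFun (congrArg (fun z : E3 => (z : Fin 3 → ℝ)) h) 0
      simp at this)
    (by simp [PiLp.inner_apply, Fin.sum_univ_three])
    (by simp [PiLp.inner_apply, Fin.sum_univ_three]) hpos D hD hfin
  refine ⟨C, fun x => by rw [h1, hcoord], ?_⟩
  rw [h2, h3 tetra]
  have : coord (!₂[-t, 1, 0]) (!₂[0, 0, 1]) '' tetra =
      (fun x : E3 => (x 1 - t * x 0, x 2)) '' tetra := by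
    apply Set.image_congr
    intro x _
    exact hcoord x
  rw [this]
  refine div_bound ?_ ENNReal.ofReal_ne_top (shadowH t)
  simp only [ne_eq, ENNReal.ofReal_eq_zero, not_le]
  positivity

theorem volume_rect (a b c d : ℝ) :
    volume (Set.Icc a b ×ˢ Set.Icc c d : Set (ℝ × ℝ)) =
      ENNReal.ofReal (b - a) * ENNReal.ofReal (d - c) := by
  rw [Measure.volume_eq_prod, Measure.prod_prod, Real.volume_Icc, Real.volume_Icc]

/-- Rectangular bases, tiles. -/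
theorem exists_tileV (V W a b c d : ℝ) (hab : a ≤ b) (hcd : c ≤ d) :
    ∃ C : Cylinder, (∀ x : E3, a ≤ x 0 - V * x 2 → x 0 - V * x 2 ≤ b →
        c ≤ x 1 - W * x 2 → x 1 - W * x 2 ≤ d → x ∈ C.carrier) ∧
      C.area / planarArea C.dir (shadow C.dir tetra) ≤
        ENNReal.ofReal ((b - a) * (d - c) / 4) := by
  obtain ⟨C, h1, h2⟩ := exists_cylV V W (Set.Icc a b ×ˢ Set.Icc c d)
    (measurableSet_Icc.prod measurableSet_Icc) (by
      rw [volume_rect]; exact ENNReal.mul_ne_top ENNReal.ofReal_ne_top ENNReal.ofReal_ne_top)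
  refine ⟨C, fun x h3 h4 h5 h6 => (h1 x).2 ⟨⟨h3, h4⟩, ⟨h5, h6⟩⟩, h2.trans (le_of_eq ?_)⟩
  rw [volume_rect, ← ENNReal.ofReal_mul (by linarith), ENNReal.ofReal_div_of_pos (by norm_num)]
  norm_num

theorem exists_tileH (t a b c d : ℝ) (hab : a ≤ b) (hcd : c ≤ d) :
    ∃ C : Cylinder, (∀ x : E3, a ≤ x 1 - t * x 0 → x 1 - t * x 0 ≤ b →
        c ≤ x 2 → x 2 ≤ d → x ∈ C.carrier) ∧
      C.area / planarArea C.dir (shadow C.dir tetra) ≤
        ENNReal.ofReal ((b - a) * (d - c) / 4) := by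
  obtain ⟨C, h1, h2⟩ := exists_cylH t (Set.Icc a b ×ˢ Set.Icc c d)
    (measurableSet_Icc.prod measurableSet_Icc) (by
      rw [volume_rect]; exact ENNReal.mul_ne_top ENNReal.ofReal_ne_top ENNReal.ofReal_ne_top)
  refine ⟨C, fun x h3 h4 h5 h6 => (h1 x).2 ⟨⟨h3, h4⟩, ⟨h5, h6⟩⟩, h2.trans (le_of_eq ?_)⟩
  rw [volume_rect, ← ENNReal.ofReal_mul (by linarith), ENNReal.ofReal_div_of_pos (by norm_num)]
  norm_num

end Vale.Agent.P243
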