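import Mathlib

namespace Vale.Agent.P243

/-! Parameters of the fan (Bang's question). Coordinates `P = x0 + x2`, `Q = x2 - x0`, `Z = -x1`. -/

/-- second order correction of the height of the wedges -/
noncomputable def hcor (m : ℝ) : ℝ := 17 / 12 * m ^ 2 - 7 / 4 * m ^ 4

/-- height of the wedge with slope `m` -/
noncomputable def hh (r m : ℝ) : ℝ := 1 - r * (1 - m ^ 2) - r ^ 2 * hcor m

/-- vertical velocity -/
noncomputable def rho (r m : ℝ) : ℝ := r * m + 4 / 3 * r ^ 2 * m ^ 3

/-- limit horizontal velocity -/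
noncomputable def sig (r m : ℝ) : ℝ := r / 2 * (1 + m ^ 2) + r ^ 2 / 3 * (1 + 3 * m ^ 4)

/-- tilt of the strips -/
noncomputable def cc (r y : ℝ) : ℝ := -(r * y / 2) + r ^ 2 * (-(7 / 12 * y) + y ^ 3 / 6)

/-- half thickness of the strips -/
noncomputable def zz (r y : ℝ) : ℝ := r * (1 - y ^ 2 / 2) + r ^ 2 * (y ^ 4 / 12)

/-- slopes -/
noncomputable def mm (N : ℕ) (i : ℕ) : ℝ := -1 + (2 * i + 1) / N

/-- the primitive used for the discrete horizontal velocity -/
noncomputable def TT (N : ℕ) (r m : ℝ) : ℝ :=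
  r / 2 * m ^ 2 + 4 / 3 * r ^ 2 * (3 / 4 * m ^ 4 - m ^ 2 / (N : ℝ) ^ 2)

/-- discrete horizontal velocity -/
noncomputable def sigN (N : ℕ) (r m : ℝ) : ℝ :=
  TT N r m + (rho r (1 - 1 / N) - TT N r (1 - 1 / N))

/-- Discrete fan, abstract form. -/
theorem fan_abstract (N : ℕ) (hN : 0 < N) (q s p : ℕ → ℝ) (h0 : q 0 = -1) (h1 : q N = 1)
    (hs0 : s 0 = -p 0) (hsN : s (N - 1) = p (N - 1))
    (hstep : ∀ i, i + 1 < N → s (i + 1) - s i = q (i + 1) * (p (i + 1) - p i))
    (P Q Z : ℝ) (hQ1 : -(1 + Z) ≤ Q) (hQ2 : Q ≤ 1 + Z) :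
    ∃ i < N, q i * (1 + Z - P * p i) ≤ Q - P * s i ∧
      Q - P * s i ≤ q (i + 1) * (1 + Z - P * p i) := by
  classical
  set g : ℕ → ℝ := fun i => Q - P * s i - q i * (1 + Z - P * p i) with hg
  have hg0 : 0 ≤ g 0 := by
    simp only [hg]
    rw [h0, hs0]
    nlinarith
  -- the largest index with g ≥ 0
  set i := Nat.findGreatest (fun j => 0 ≤ g j) (N - 1) with hi
  have hi1 : 0 ≤ g i := by
    have := Nat.findGreatest_spec (P := fun j => 0 ≤ g j) (n := N - 1) (m := 0) (Nat.zero_le _) hg0
    exact this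
  have hi2 : i ≤ N - 1 := Nat.findGreatest_le _
  refine ⟨i, by omega, ?_, ?_⟩
  · simp only [hg] at hi1
    linarith
  · rcases Nat.lt_or_ge i (N - 1) with h | h
    · have h3 : ¬ 0 ≤ g (i + 1) :=
        Nat.findGreatest_is_greatest (P := fun j => 0 ≤ g j) (n := N - 1) (by omega) (by omega)
      have h4 := hstep i (by omega)
      have h5 : g (i + 1) = Q - P * s i - q (i + 1) * (1 + Z - P * p i) := by
        simp only [hg]
        have e : s (i + 1) = s i + q (i + 1) * (p (i + 1) - p i) := by linarith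
        rw [e]
        ring
      rw [h5] at h3
      linarith
    · have hiN : i = N - 1 := by omega
      have hN1 : i + 1 = N := by omega
      rw [hN1, h1, hiN, hsN]
      nlinarith

theorem fan (N : ℕ) (hN : 0 < N) (r P Q Z : ℝ) (hQ : |Q| ≤ 1 + Z) :
    ∃ i < N, (mm N i - 1 / N) * (1 + Z - P * rho r (mm N i)) ≤ Q - P * sigN N r (mm N i) ∧
      Q - P * sigN N r (mm N i) ≤ (mm N i + 1 / N) * (1 + Z - P * rho r (mm N i)) := by
  have hN0 : (N : ℝ) ≠ 0 := by positivity
  have key := fan_abstract N hN (fun i => mm N i - 1 / N) (fun i => sigN N r (mm N i))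
    (fun i => rho r (mm N i)) (by simp only [mm]; push_cast; ring)
    (by simp only [mm]; field_simp; ring)
    (by
      have : mm N 0 = -(1 - 1 / N) := by simp only [mm]; push_cast; ring
      simp only [this, sigN, TT, rho]
      ring)
    (by
      have : mm N (N - 1) = 1 - 1 / N := by
        simp only [mm]
        rw [Nat.cast_sub (by omega)]
        push_cast
        field_simp
        ring
      simp only [this, sigN]
      ring)
    (by
      intro i _
      have : mm N (i + 1) = mm N i + 2 / N := by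
        simp only [mm]; push_cast; ring
      simp only [this, sigN, TT, rho]
      field_simp
      ring) P Q Z (abs_le.1 hQ).1 (abs_le.1 hQ).2
  obtain ⟨i, hi, h1, h2⟩ := key
  refine ⟨i, hi, h1, ?_⟩
  have : mm N (i + 1) - 1 / N = mm N i + 1 / N := by
    simp only [mm]; push_cast; ring
  simp only [this] at h2
  exact h2

end Vale.Agent.P243
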