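import Vale.Agent.P243.BangC

namespace Vale.Agent.P243

open MeasureTheory

/-- The wedge (triangle) base. -/
def wedge (a b h : ℝ) : Set (ℝ × ℝ) :=
  {z | 0 ≤ 1 + z.1 ∧ 1 + z.1 ≤ h ∧ a * (1 + z.1) ≤ z.2 ∧ z.2 ≤ b * (1 + z.1)}

theorem measurableSet_wedge (a b h : ℝ) : MeasurableSet (wedge a b h) := by
  have h1 : IsClosed (wedge a b h) := by
    have e : wedge a b h = {z : ℝ × ℝ | 0 ≤ 1 + z.1} ∩ ({z : ℝ × ℝ | 1 + z.1 ≤ h} ∩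
        ({z : ℝ × ℝ | a * (1 + z.1) ≤ z.2} ∩ {z : ℝ × ℝ | z.2 ≤ b * (1 + z.1)})) := rfl
    rw [e]
    refine IsClosed.inter ?_ (IsClosed.inter ?_ (IsClosed.inter ?_ ?_)) <;>
      exact isClosed_le (by fun_prop) (by fun_prop)
  exact h1.measurableSet

/-- MODULE B1 -/
theorem volume_wedge (a b h : ℝ) (hab : a ≤ b) (hh : 0 ≤ h) :
    volume (wedge a b h) = ENNReal.ofReal ((b - a) * h ^ 2 / 2) := by
  rw [Measure.volume_eq_prod, Measure.prod_apply (measurableSet_wedge a b h)]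
  have hsl : ∀ x : ℝ, volume (Prod.mk x ⁻¹' wedge a b h) =
      (Set.Icc (-1) (h - 1)).indicator (fun x => ENNReal.ofReal ((b - a) * (1 + x))) x := by
    intro x
    by_cases hx : x ∈ Set.Icc (-1) (h - 1)
    · rw [Set.indicator_of_mem hx]
      have e : Prod.mk x ⁻¹' wedge a b h = Set.Icc (a * (1 + x)) (b * (1 + x)) := by
        ext y
        simp only [wedge, Set.mem_preimage, Set.mem_Icc]
        constructor
        · rintro ⟨_, _, h3, h4⟩; exact ⟨h3, h4⟩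
        · rintro ⟨h3, h4⟩; exact ⟨by linarith [hx.1], by linarith [hx.2], h3, h4⟩
      rw [e, Real.volume_Icc]
      congr 1
      ring
    · rw [Set.indicator_of_notMem hx]
      have e : Prod.mk x ⁻¹' wedge a b h = ∅ := by
        ext y
        simp only [wedge, Set.mem_preimage, Set.mem_empty_iff_false, iff_false]
        rintro ⟨h1, h2, _, _⟩
        exact hx ⟨by linarith, by linarith⟩
      rw [e, measure_empty]
  simp_rw [hsl]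
  rw [lintegral_indicator measurableSet_Icc, ← ofReal_integral_eq_lintegral_ofReal]
  · congr 1
    rw [integral_Icc_eq_integral_Ioc, ← intervalIntegral.integral_of_le (by linarith)]
    have : ∫ x in (-1 : ℝ)..(h - 1), (b - a) * (1 + x) =
        (b - a) * ∫ x in (-1 : ℝ)..(h - 1), (1 + x) := by
      rw [intervalIntegral.integral_const_mul]
    rw [this, intervalIntegral.integral_add (by simp) (by simp)]
    simp
    ring
  · exact (Continuous.integrableOn_Icc (by fun_prop))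
  · refine (ae_restrict_iff' measurableSet_Icc).2 (Filter.Eventually.of_forall fun x hx => ?_)
    exact mul_nonneg (by linarith) (by linarith [hx.1])

theorem sum_odd_sq (N : ℕ) : ∀ M : ℕ, ∑ i ∈ Finset.range M, ((2 * (i : ℝ) + 1 - N)) ^ 2 =
    M * (4 * (M : ℝ) ^ 2 - 1) / 3 - 2 * N * (M : ℝ) ^ 2 + M * (N : ℝ) ^ 2 := by
  intro M
  induction M with
  | zero => simp
  | succ M ih =>
    rw [Finset.sum_range_succ, ih]
    push_cast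
    ring

theorem sum_odd_four (N : ℕ) : ∀ M : ℕ, ∑ i ∈ Finset.range M, ((2 * (i : ℝ) + 1 - N)) ^ 4 =
    M * (48 * (M : ℝ) ^ 4 - 40 * (M : ℝ) ^ 2 + 7) / 15 -
      4 * N * ((M : ℝ) ^ 2 * (2 * (M : ℝ) ^ 2 - 1)) +
      6 * (N : ℝ) ^ 2 * (M * (4 * (M : ℝ) ^ 2 - 1) / 3) -
      4 * (N : ℝ) ^ 3 * (M : ℝ) ^ 2 + M * (N : ℝ) ^ 4 := by
  intro M
  induction M with
  | zero => simp
  | succ M ih =>
    rw [Finset.sum_range_succ, ih]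
    push_cast
    ring

theorem mm_eq (N : ℕ) (hN : 0 < N) (i : ℕ) : mm N i = (2 * (i : ℝ) + 1 - N) / N := by
  have hN0 : (N : ℝ) ≠ 0 := by positivity
  unfold mm
  field_simp
  ring

/-- MODULE B2 -/
theorem sum_mm_sq (N : ℕ) (hN : 0 < N) :
    ∑ i ∈ Finset.range N, (mm N i) ^ 2 = ((N : ℝ) ^ 2 - 1) / (3 * N) := by
  have hN0 : (N : ℝ) ≠ 0 := by positivity
  have h1 : ∀ i ∈ Finset.range N, (mm N i) ^ 2 = (2 * (i : ℝ) + 1 - N) ^ 2 * (1 / (N : ℝ) ^ 2) := by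
    intro i _
    rw [mm_eq N hN]
    field_simp
  rw [Finset.sum_congr rfl h1, ← Finset.sum_mul, sum_odd_sq]
  field_simp
  ring

/-- MODULE B3 -/
theorem sum_mm_four (N : ℕ) (hN : 0 < N) :
    ∑ i ∈ Finset.range N, (mm N i) ^ 4 =
      ((N : ℝ) ^ 2 - 1) * (3 * (N : ℝ) ^ 2 - 7) / (15 * (N : ℝ) ^ 3) := by
  have hN0 : (N : ℝ) ≠ 0 := by positivity
  have h1 : ∀ i ∈ Finset.range N, (mm N i) ^ 4 = (2 * (i : ℝ) + 1 - N) ^ 4 * (1 / (N : ℝ) ^ 4) := by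
    intro i _
    rw [mm_eq N hN]
    field_simp
  rw [Finset.sum_congr rfl h1, ← Finset.sum_mul, sum_odd_four]
  field_simp
  ring

theorem inv_sqrt_bound (x : ℝ) (hx : 0 ≤ x) : 1 / √(1 + x) ≤ 1 - x / 2 + x ^ 2 := by
  have h1 : 0 < 1 - x / 2 + x ^ 2 := by nlinarith [sq_nonneg (x - 1 / 4)]
  have hs : 0 < √(1 + x) := Real.sqrt_pos.2 (by linarith)
  rw [div_le_iff₀ hs]
  have h2 : 1 ≤ ((1 - x / 2 + x ^ 2) * √(1 + x)) ^ 2 := by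
    rw [mul_pow, Real.sq_sqrt (by linarith)]
    have : (1 - x / 2 + x ^ 2) ^ 2 * (1 + x) = 1 + x ^ 2 * (5 / 4 + 5 / 4 * x + x ^ 3) := by ring
    rw [this]
    have : 0 ≤ x ^ 2 * (5 / 4 + 5 / 4 * x + x ^ 3) := by positivity
    linarith
  have h3 : 0 ≤ (1 - x / 2 + x ^ 2) * √(1 + x) := by positivity
  nlinarith

theorem x_bounds (r m s : ℝ) (hr : 0 < r) (hr1 : r ≤ 1 / 1000) (hm : |m| ≤ 1)
    (hs : |s - sig r m| ≤ r ^ 3) :
    r ^ 2 * ((1 + m ^ 2) ^ 2 / 4 + 2 * m ^ 2) - 3 * r ^ 3 ≤ s ^ 2 + 2 * (rho r m) ^ 2 ∧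
      s ^ 2 + 2 * (rho r m) ^ 2 ≤ 4 * r ^ 2 := by
  have hm2 : m ^ 2 ≤ 1 := by rw [← sq_abs]; nlinarith [abs_nonneg m]
  have hm0 : 0 ≤ m ^ 2 := sq_nonneg m
  have hm4 : m ^ 4 ≤ 1 := by nlinarith
  have hr2 : r ^ 2 ≤ 1 / 1000 * r := by nlinarith
  have hr3 : 0 < r ^ 3 := pow_pos hr 3
  have hr3' : r ^ 3 ≤ 1 / 1000 * r ^ 2 := by nlinarith [sq_nonneg r]
  obtain ⟨_, _, _, c4, _, _⟩ := bounds r m 0 hr hr1 hm (by norm_num)
  have hs1 : r / 2 * (1 + m ^ 2) - r ^ 3 ≤ s := by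
    have := (abs_le.1 hs).1
    have h2 : r / 2 * (1 + m ^ 2) ≤ sig r m := by
      unfold sig
      have : 0 ≤ r ^ 2 / 3 * (1 + 3 * m ^ 4) := by positivity
      linarith
    linarith
  have hs2 : s ≤ 11 / 10 * r := by
    have := (abs_le.1 hs).2
    have h2 : sig r m ≤ r + 4 / 3 * r ^ 2 := by
      unfold sig
      nlinarith [mul_le_mul_of_nonneg_left hm2 hr.le, mul_le_mul_of_nonneg_left hm4 (sq_nonneg r)]
    linarith
  have hlow0 : 0 ≤ r / 2 * (1 + m ^ 2) - r ^ 3 := by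
    nlinarith [mul_nonneg hr.le hm0]
  have hsp : 0 ≤ s := hlow0.trans hs1
  constructor
  · have h1 : (r / 2 * (1 + m ^ 2) - r ^ 3) ^ 2 ≤ s ^ 2 := pow_le_pow_left₀ hlow0 hs1 2
    have h2 : r ^ 2 * m ^ 2 ≤ (rho r m) ^ 2 := by
      have : (rho r m) ^ 2 = r ^ 2 * m ^ 2 * (1 + 4 / 3 * r * m ^ 2) ^ 2 := by
        unfold rho; ring
      rw [this]
      have h3 : 1 ≤ (1 + 4 / 3 * r * m ^ 2) ^ 2 := by
        have : 0 ≤ 4 / 3 * r * m ^ 2 := by positivity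
        nlinarith
      have h4 : 0 ≤ r ^ 2 * m ^ 2 := by positivity
      nlinarith
    have h3 : (r / 2 * (1 + m ^ 2) - r ^ 3) ^ 2 = r ^ 2 * ((1 + m ^ 2) ^ 2 / 4) -
        r * r ^ 3 * (1 + m ^ 2) + (r ^ 3) ^ 2 := by ring
    have h4 : r * r ^ 3 * (1 + m ^ 2) ≤ 3 * r ^ 3 := by
      have h41 : r * r ^ 3 * (1 + m ^ 2) ≤ r * r ^ 3 * 2 :=
        mul_le_mul_of_nonneg_left (by linarith) (by positivity)
      have h42 : r * r ^ 3 ≤ 1 * r ^ 3 := mul_le_mul_of_nonneg_right (by linarith) hr3.le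
      linarith
    have h5 := sq_nonneg (r ^ 3)
    linarith
  · have h1 : s ^ 2 ≤ (11 / 10 * r) ^ 2 := pow_le_pow_left₀ hsp hs2 2
    have h2 : (rho r m) ^ 2 ≤ (11 / 10 * r) ^ 2 := by
      rw [← sq_abs]
      exact pow_le_pow_left₀ (abs_nonneg _) c4 2
    nlinarith [sq_nonneg r]

theorem h_sq_bound (r m : ℝ) (hr : 0 < r) (hr1 : r ≤ 1 / 1000) (hm : |m| ≤ 1) :
    (hh r m) ^ 2 ≤ 1 - 2 * r * (1 - m ^ 2) + r ^ 2 * ((1 - m ^ 2) ^ 2 - 2 * hcor m) +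
      12 * r ^ 3 := by
  have hm2 : m ^ 2 ≤ 1 := by rw [← sq_abs]; nlinarith [abs_nonneg m]
  have hm0 : 0 ≤ m ^ 2 := sq_nonneg m
  have hr3 : 0 < r ^ 3 := pow_pos hr 3
  obtain ⟨c1, _, _, c4, _, _⟩ := bounds r m 0 hr hr1 hm (by norm_num)
  have c1' := abs_le.1 c1
  have : (hh r m) ^ 2 = 1 - 2 * r * (1 - m ^ 2) + r ^ 2 * ((1 - m ^ 2) ^ 2 - 2 * hcor m) +
      r ^ 3 * (2 * (1 - m ^ 2) * hcor m + r * (hcor m) ^ 2) := by
    unfold hh; ring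
  rw [this]
  have h5 : 2 * (1 - m ^ 2) * hcor m + r * (hcor m) ^ 2 ≤ 12 := by
    have h6 : (hcor m) ^ 2 ≤ 16 := by rw [← sq_abs]; nlinarith [abs_nonneg (hcor m)]
    have h7 : (1 - m ^ 2) * hcor m ≤ 4 := by
      have : (1 - m ^ 2) * hcor m ≤ (1 - m ^ 2) * 4 :=
        mul_le_mul_of_nonneg_left c1'.2 (by linarith)
      linarith
    have h8 : r * (hcor m) ^ 2 ≤ 1 / 1000 * 16 :=
      mul_le_mul hr1 h6 (sq_nonneg _) (by norm_num)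
    linarith
  have h9 : r ^ 3 * (2 * (1 - m ^ 2) * hcor m + r * (hcor m) ^ 2) ≤ r ^ 3 * 12 :=
    mul_le_mul_of_nonneg_left h5 hr3.le
  linarith

/-- MODULE B4: one tube. Here `s` is any horizontal velocity close to `sig r m`. -/
theorem tube_cost (r m s : ℝ) (hr : 0 < r) (hr1 : r ≤ 1 / 1000) (hm : |m| ≤ 1)
    (hs : |s - sig r m| ≤ r ^ 3) :
    (hh r m) ^ 2 / √(1 + s ^ 2 + 2 * (rho r m) ^ 2) ≤
      1 - 2 * r + 2 * r * m ^ 2 + r ^ 2 * (7 / 8 - 73 / 12 * m ^ 2 + 35 / 8 * m ^ 4) +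
        40 * r ^ 3 := by
  have hr3 : 0 < r ^ 3 := pow_pos hr 3
  obtain ⟨hxlow, hxup⟩ := x_bounds r m s hr hr1 hm hs
  have hh2 := h_sq_bound r m hr hr1 hm
  obtain ⟨_, _, _, _, c5, c6⟩ := bounds r m 0 hr hr1 hm (by norm_num)
  have hx0 : 0 ≤ s ^ 2 + 2 * (rho r m) ^ 2 := by positivity
  have hsum : 1 + s ^ 2 + 2 * (rho r m) ^ 2 = 1 + (s ^ 2 + 2 * (rho r m) ^ 2) := by ring
  rw [hsum]
  generalize s ^ 2 + 2 * (rho r m) ^ 2 = x at *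
  generalize hh r m = h at *
  have hh0 : 0 < h := by linarith
  have hhx : (1 - 22 / 10 * r) * x ≤ h ^ 2 * x := by
    apply mul_le_mul_of_nonneg_right _ hx0
    nlinarith
  have hhb : h ^ 2 ≤ 2 := by nlinarith
  have hb := inv_sqrt_bound x hx0
  have main : h ^ 2 / √(1 + x) ≤ h ^ 2 - h ^ 2 * x / 2 + 2 * x ^ 2 := by
    calc h ^ 2 / √(1 + x) = h ^ 2 * (1 / √(1 + x)) := by ring
      _ ≤ h ^ 2 * (1 - x / 2 + x ^ 2) := mul_le_mul_of_nonneg_left hb (sq_nonneg h)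
      _ = h ^ 2 - h ^ 2 * x / 2 + h ^ 2 * x ^ 2 := by ring
      _ ≤ h ^ 2 - h ^ 2 * x / 2 + 2 * x ^ 2 := by
          have := mul_le_mul_of_nonneg_right hhb (sq_nonneg x)
          linarith
  refine main.trans ?_
  have hx2 : x ^ 2 ≤ 16 * r ^ 4 := by
    calc x ^ 2 ≤ (4 * r ^ 2) ^ 2 := pow_le_pow_left₀ hx0 hxup 2
      _ = 16 * r ^ 4 := by ring
  have hr4 : r ^ 4 ≤ 1 / 1000 * r ^ 3 := by
    calc r ^ 4 = r * r ^ 3 := by ring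
      _ ≤ 1 / 1000 * r ^ 3 := mul_le_mul_of_nonneg_right hr1 hr3.le
  have hrx : 22 / 10 * r * x ≤ 9 * r ^ 3 := by
    calc 22 / 10 * r * x ≤ 22 / 10 * r * (4 * r ^ 2) :=
          mul_le_mul_of_nonneg_left hxup (by positivity)
      _ = 88 / 10 * r ^ 3 := by ring
      _ ≤ 9 * r ^ 3 := by linarith
  have hfin : r ^ 2 * (7 / 8 - 73 / 12 * m ^ 2 + 35 / 8 * m ^ 4) =
      r ^ 2 * ((1 - m ^ 2) ^ 2 - 2 * hcor m) - r ^ 2 * ((1 + m ^ 2) ^ 2 / 4 + 2 * m ^ 2) / 2 := by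
    unfold hcor; ring
  rw [hfin]
  linarith

theorem mm_abs' (N i : ℕ) (hN : 0 < N) (hi : i < N) : |mm N i| ≤ 1 := by
  have hN0 : (0 : ℝ) < N := by exact_mod_cast hN
  have hi1 : (i : ℝ) + 1 ≤ N := by exact_mod_cast hi
  have hi0 : (0 : ℝ) ≤ i := Nat.cast_nonneg i
  rw [mm_eq N hN, abs_div, abs_of_pos hN0, div_le_one hN0, abs_le]
  constructor <;> linarith

/-- MODULE B5: all tubes of a fan (each of base area `(1/N) (hh r m)^2`, up to the common factor). -/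
theorem tubes_cost (N : ℕ) (hN : 0 < N) (r : ℝ) (hr : 0 < r) (hr1 : r ≤ 1 / 1000) (s : ℕ → ℝ)
    (hs : ∀ i < N, |s i - sig r (mm N i)| ≤ r ^ 3) :
    ∑ i ∈ Finset.range N,
      (1 / (N : ℝ)) * ((hh r (mm N i)) ^ 2 / √(1 + (s i) ^ 2 + 2 * (rho r (mm N i)) ^ 2)) ≤
      1 - 4 / 3 * r - 5 / 18 * r ^ 2 + 40 * r ^ 3 := by
  have hN0 : (0 : ℝ) < N := by exact_mod_cast hN
  have hN1 : (1 : ℝ) ≤ N := by exact_mod_cast hN
  have h1 : ∑ i ∈ Finset.range N,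
      (1 / (N : ℝ)) * ((hh r (mm N i)) ^ 2 / √(1 + (s i) ^ 2 + 2 * (rho r (mm N i)) ^ 2)) ≤
      ∑ i ∈ Finset.range N, (1 / (N : ℝ)) * (1 - 2 * r + 2 * r * (mm N i) ^ 2 +
        r ^ 2 * (7 / 8 - 73 / 12 * (mm N i) ^ 2 + 35 / 8 * (mm N i) ^ 4) + 40 * r ^ 3) := by
    refine Finset.sum_le_sum fun i hi => ?_
    rw [Finset.mem_range] at hi
    exact mul_le_mul_of_nonneg_left
      (tube_cost r (mm N i) (s i) hr hr1 (mm_abs' N i hN hi) (hs i hi)) (by positivity)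
  refine h1.trans ?_
  have h2 : ∑ i ∈ Finset.range N, (1 / (N : ℝ)) * (1 - 2 * r + 2 * r * (mm N i) ^ 2 +
        r ^ 2 * (7 / 8 - 73 / 12 * (mm N i) ^ 2 + 35 / 8 * (mm N i) ^ 4) + 40 * r ^ 3) =
      (1 - 2 * r + 7 / 8 * r ^ 2 + 40 * r ^ 3) +
      (2 * r - 73 / 12 * r ^ 2) * ((1 / (N : ℝ)) * ∑ i ∈ Finset.range N, (mm N i) ^ 2) +
      35 / 8 * r ^ 2 * ((1 / (N : ℝ)) * ∑ i ∈ Finset.range N, (mm N i) ^ 4) := by
    have h3 : ∀ i ∈ Finset.range N, (1 / (N : ℝ)) * (1 - 2 * r + 2 * r * (mm N i) ^ 2 +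
        r ^ 2 * (7 / 8 - 73 / 12 * (mm N i) ^ 2 + 35 / 8 * (mm N i) ^ 4) + 40 * r ^ 3) =
        (1 / (N : ℝ)) * (1 - 2 * r + 7 / 8 * r ^ 2 + 40 * r ^ 3) +
        ((2 * r - 73 / 12 * r ^ 2) * (1 / (N : ℝ))) * (mm N i) ^ 2 +
        (35 / 8 * r ^ 2 * (1 / (N : ℝ))) * (mm N i) ^ 4 := by
      intro i _
      ring
    have e1 : ∑ i ∈ Finset.range N, (35 / 8 * r ^ 2 * (1 / (N : ℝ))) * (mm N i) ^ 4 =
        (35 / 8 * r ^ 2 * (1 / (N : ℝ))) * ∑ i ∈ Finset.range N, (mm N i) ^ 4 :=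
      (Finset.mul_sum _ _ _).symm
    have e2 : ∑ i ∈ Finset.range N, ((2 * r - 73 / 12 * r ^ 2) * (1 / (N : ℝ))) * (mm N i) ^ 2 =
        ((2 * r - 73 / 12 * r ^ 2) * (1 / (N : ℝ))) * ∑ i ∈ Finset.range N, (mm N i) ^ 2 :=
      (Finset.mul_sum _ _ _).symm
    rw [Finset.sum_congr rfl h3, Finset.sum_add_distrib, Finset.sum_add_distrib,
      e1, e2, Finset.sum_const, Finset.card_range, nsmul_eq_mul]
    field_simp
  rw [h2, sum_mm_sq N hN, sum_mm_four N hN]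
  have h4 : (1 / (N : ℝ)) * (((N : ℝ) ^ 2 - 1) / (3 * N)) ≤ 1 / 3 := by
    have : (1 / (N : ℝ)) * (((N : ℝ) ^ 2 - 1) / (3 * N)) = 1 / 3 - 1 / (3 * (N : ℝ) ^ 2) := by
      field_simp
    rw [this]
    have : 0 < 1 / (3 * (N : ℝ) ^ 2) := by positivity
    linarith
  have h5 : (1 / (N : ℝ)) * (((N : ℝ) ^ 2 - 1) * (3 * (N : ℝ) ^ 2 - 7) / (15 * (N : ℝ) ^ 3)) ≤
      1 / 5 := by
    have : (1 / (N : ℝ)) * (((N : ℝ) ^ 2 - 1) * (3 * (N : ℝ) ^ 2 - 7) / (15 * (N : ℝ) ^ 3)) =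
        1 / 5 - (10 * (N : ℝ) ^ 2 - 7) / (15 * (N : ℝ) ^ 4) := by
      field_simp
      ring
    rw [this]
    have : 0 ≤ (10 * (N : ℝ) ^ 2 - 7) / (15 * (N : ℝ) ^ 4) :=
      div_nonneg (by nlinarith) (by positivity)
    linarith
  have h6 : 0 ≤ 2 * r - 73 / 12 * r ^ 2 := by nlinarith
  have h7 := mul_le_mul_of_nonneg_left h4 h6
  have h8 := mul_le_mul_of_nonneg_left h5 (by positivity : 0 ≤ 35 / 8 * r ^ 2)
  linarith

/-- MODULE B6: the strips; `x_j = mm N j`. -/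
theorem strips_cost (N : ℕ) (hN : 0 < N) (r : ℝ) (hr : 0 < r) (hr1 : r ≤ 1 / 1000)
    (hNr : 1 / (N : ℝ) ≤ r ^ 3) :
    ∑ j ∈ Finset.range N, (1 / (N : ℝ)) * (4 * (r * (1 - (mm N j) ^ 2) +
      r ^ 2 / 3 * (mm N j) ^ 4 + 230 * r ^ 3)) ≤
      8 / 3 * r + 4 / 15 * r ^ 2 + 930 * r ^ 3 := by
  have hN0 : (0 : ℝ) < N := by exact_mod_cast hN
  have hN1 : (1 : ℝ) ≤ N := by exact_mod_cast hN
  have hr3 : 0 < r ^ 3 := pow_pos hr 3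
  have h2 : ∑ j ∈ Finset.range N, (1 / (N : ℝ)) * (4 * (r * (1 - (mm N j) ^ 2) +
      r ^ 2 / 3 * (mm N j) ^ 4 + 230 * r ^ 3)) =
      (4 * r + 920 * r ^ 3) -
      4 * r * ((1 / (N : ℝ)) * ∑ i ∈ Finset.range N, (mm N i) ^ 2) +
      4 / 3 * r ^ 2 * ((1 / (N : ℝ)) * ∑ i ∈ Finset.range N, (mm N i) ^ 4) := by
    have h3 : ∀ j ∈ Finset.range N, (1 / (N : ℝ)) * (4 * (r * (1 - (mm N j) ^ 2) +
      r ^ 2 / 3 * (mm N j) ^ 4 + 230 * r ^ 3)) =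
        (1 / (N : ℝ)) * (4 * r + 920 * r ^ 3) -
        (4 * r * (1 / (N : ℝ))) * (mm N j) ^ 2 +
        (4 / 3 * r ^ 2 * (1 / (N : ℝ))) * (mm N j) ^ 4 := by
      intro i _
      ring
    have e1 : ∑ i ∈ Finset.range N, (4 / 3 * r ^ 2 * (1 / (N : ℝ))) * (mm N i) ^ 4 =
        (4 / 3 * r ^ 2 * (1 / (N : ℝ))) * ∑ i ∈ Finset.range N, (mm N i) ^ 4 :=
      (Finset.mul_sum _ _ _).symm
    have e2 : ∑ i ∈ Finset.range N, (4 * r * (1 / (N : ℝ))) * (mm N i) ^ 2 =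
        (4 * r * (1 / (N : ℝ))) * ∑ i ∈ Finset.range N, (mm N i) ^ 2 :=
      (Finset.mul_sum _ _ _).symm
    rw [Finset.sum_congr rfl h3, Finset.sum_add_distrib, Finset.sum_sub_distrib,
      e1, e2, Finset.sum_const, Finset.card_range, nsmul_eq_mul]
    field_simp
  rw [h2, sum_mm_sq N hN, sum_mm_four N hN]
  have h4 : (1 / (N : ℝ)) * (((N : ℝ) ^ 2 - 1) / (3 * N)) = 1 / 3 - 1 / (3 * (N : ℝ) ^ 2) := by
    field_simp
  have h5 : (1 / (N : ℝ)) * (((N : ℝ) ^ 2 - 1) * (3 * (N : ℝ) ^ 2 - 7) / (15 * (N : ℝ) ^ 3)) ≤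
      1 / 5 := by
    have : (1 / (N : ℝ)) * (((N : ℝ) ^ 2 - 1) * (3 * (N : ℝ) ^ 2 - 7) / (15 * (N : ℝ) ^ 3)) =
        1 / 5 - (10 * (N : ℝ) ^ 2 - 7) / (15 * (N : ℝ) ^ 4) := by
      field_simp
      ring
    rw [this]
    have : 0 ≤ (10 * (N : ℝ) ^ 2 - 7) / (15 * (N : ℝ) ^ 4) :=
      div_nonneg (by nlinarith) (by positivity)
    linarith
  have h8 := mul_le_mul_of_nonneg_left h5 (by positivity : 0 ≤ 4 / 3 * r ^ 2)
  have h9 : 1 / (3 * (N : ℝ) ^ 2) ≤ r ^ 3 := by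
    have : 1 / (3 * (N : ℝ) ^ 2) ≤ 1 / (N : ℝ) := by
      apply one_div_le_one_div_of_le hN0
      nlinarith
    linarith
  have h10 : 4 * r * (1 / (3 * (N : ℝ) ^ 2)) ≤ 10 * r ^ 3 := by
    have : 4 * r * (1 / (3 * (N : ℝ) ^ 2)) ≤ 4 * (1 / 1000) * r ^ 3 := by
      have h11 : (4 * r) * (1 / (3 * (N : ℝ) ^ 2)) ≤ (4 * r) * r ^ 3 :=
        mul_le_mul_of_nonneg_left h9 (by positivity)
      have h12 : (4 * r) * r ^ 3 ≤ 4 * (1 / 1000) * r ^ 3 :=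
        mul_le_mul_of_nonneg_right (by linarith) hr3.le
      linarith
    linarith
  rw [h4]
  linarith

end Vale.Agent.P243
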