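import Vale.Agent.P243.BangA

namespace Vale.Agent.P243

theorem sigN_close (N : ℕ) (hN : 0 < N) (r m : ℝ) (hr : 0 < r) (hr1 : r ≤ 1 / 1000)
    (hm : |m| ≤ 1) (hNr : 1 / (N : ℝ) ≤ r ^ 3) : |sigN N r m - sig r m| ≤ r ^ 3 := by
  have hN0 : (0 : ℝ) < N := by exact_mod_cast hN
  set e : ℝ := 1 / (N : ℝ) with he
  have he0 : 0 < e := by positivity
  have hr3 : r ^ 3 ≤ 1 / 1000 := by
    calc r ^ 3 ≤ (1 / 1000) ^ 3 := by gcongr
      _ ≤ 1 / 1000 := by norm_num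
  have he1 : e ≤ 1 / 1000 := le_trans hNr hr3
  have hm2 : m ^ 2 ≤ 1 := by
    rw [← sq_abs]; nlinarith [abs_nonneg m]
  have hm0 : 0 ≤ m ^ 2 := sq_nonneg m
  have hid : sigN N r m - sig r m =
      e * (e * (-(r / 2) + r ^ 2 * (-2 + 8 / 3 * e - e ^ 2 + 4 / 3 * (1 - e) ^ 2 - 4 / 3 * m ^ 2))) := by
    have h1 : m ^ 2 / (N : ℝ) ^ 2 = m ^ 2 * e ^ 2 := by rw [he]; ring
    have h2 : (1 - e) ^ 2 / (N : ℝ) ^ 2 = (1 - e) ^ 2 * e ^ 2 := by rw [he]; ring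
    unfold sigN TT rho sig
    rw [← he, h1, h2]
    ring
  rw [hid]
  have h3 : |-(r / 2) + r ^ 2 * (-2 + 8 / 3 * e - e ^ 2 + 4 / 3 * (1 - e) ^ 2 - 4 / 3 * m ^ 2)| ≤ 1 := by
    have hr2 : 0 ≤ r ^ 2 := sq_nonneg r
    have hr2' : r ^ 2 ≤ 1 / 1000 := by nlinarith
    have hX1 : -2 + 8 / 3 * e - e ^ 2 + 4 / 3 * (1 - e) ^ 2 - 4 / 3 * m ^ 2 ≤ 5 := by nlinarith
    have hX2 : -5 ≤ -2 + 8 / 3 * e - e ^ 2 + 4 / 3 * (1 - e) ^ 2 - 4 / 3 * m ^ 2 := by nlinarith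
    rw [abs_le]
    constructor
    · nlinarith [mul_le_mul_of_nonneg_left hX2 hr2]
    · nlinarith [mul_le_mul_of_nonneg_left hX1 hr2]
  rw [abs_mul, abs_mul, abs_of_pos he0]
  calc e * (e * _) ≤ e * (1 * 1) := by gcongr; linarith
    _ = e := by ring
    _ ≤ r ^ 3 := hNr

/-- the quartic form -/
noncomputable def WW (P Q : ℝ) : ℝ :=
  -(P ^ 4 / 12) + P ^ 2 * Q ^ 2 / 2 + 2 / 3 * P * Q ^ 3 + Q ^ 4 / 4 + 7 / 12 * (P ^ 2 - Q ^ 2)

theorem WW_lip (P x y : ℝ) (hP : |P| ≤ 2) (hx : |x| ≤ 2) (hy : |y| ≤ 2) :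
    |WW P x - WW P y| ≤ 35 * |x - y| := by
  have hid : WW P x - WW P y = (x - y) * (P ^ 2 * (x + y) / 2 + 2 / 3 * P * (x ^ 2 + x * y + y ^ 2) +
      (x + y) * (x ^ 2 + y ^ 2) / 4 - 7 / 12 * (x + y)) := by
    unfold WW; ring
  rw [hid, abs_mul, mul_comm]
  gcongr
  have hP2 : P ^ 2 ≤ 4 := by rw [← sq_abs]; nlinarith [abs_nonneg P]
  have hx2 : x ^ 2 ≤ 4 := by rw [← sq_abs]; nlinarith [abs_nonneg x]
  have hy2 : y ^ 2 ≤ 4 := by rw [← sq_abs]; nlinarith [abs_nonneg y]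
  have hxy : |x + y| ≤ 4 := (abs_add_le x y).trans (by linarith)
  have t1 : |P ^ 2 * (x + y) / 2| ≤ 8 := by
    rw [abs_div, abs_mul, abs_of_nonneg (sq_nonneg P), abs_two]
    have : P ^ 2 * |x + y| ≤ 4 * 4 := mul_le_mul hP2 hxy (abs_nonneg _) (by norm_num)
    linarith
  have t2 : |2 / 3 * P * (x ^ 2 + x * y + y ^ 2)| ≤ 16 := by
    have h1 : |x ^ 2 + x * y + y ^ 2| ≤ 12 := by
      rw [abs_le]
      constructor
      · nlinarith [sq_nonneg (x + y), sq_nonneg x, sq_nonneg y]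
      · nlinarith [sq_nonneg (x - y)]
    rw [abs_mul, abs_mul]
    have h2 : |(2 / 3 : ℝ)| = 2 / 3 := abs_of_pos (by norm_num)
    rw [h2]
    have : |P| * |x ^ 2 + x * y + y ^ 2| ≤ 2 * 12 := mul_le_mul hP h1 (abs_nonneg _) (by norm_num)
    linarith
  have t3 : |(x + y) * (x ^ 2 + y ^ 2) / 4| ≤ 8 := by
    rw [abs_div, abs_mul, abs_of_nonneg (show 0 ≤ x ^ 2 + y ^ 2 by positivity)]
    have h2 : |(4 : ℝ)| = 4 := abs_of_pos (by norm_num)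
    rw [h2]
    have : |x + y| * (x ^ 2 + y ^ 2) ≤ 4 * 8 :=
      mul_le_mul hxy (by linarith) (by positivity) (by norm_num)
    linarith
  have t4 : |7 / 12 * (x + y)| ≤ 7 / 3 := by
    rw [abs_mul]
    have h2 : |(7 / 12 : ℝ)| = 7 / 12 := abs_of_pos (by norm_num)
    rw [h2]
    linarith
  have b1 := abs_le.1 t1
  have b2 := abs_le.1 t2
  have b3 := abs_le.1 t3
  have b4 := abs_le.1 t4
  rw [abs_le]
  constructor <;> linarith [b1.1, b1.2, b2.1, b2.2, b3.1, b3.2, b4.1, b4.2]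

theorem E_eq (r P Q Z : ℝ) : Z - cc r (P + Q) * (P - Q) + zz r (P + Q) =
    Z + r * (1 - P * Q - Q ^ 2) + r ^ 2 * WW P Q := by
  unfold cc zz WW
  ring

/-- first coefficient of the horizontal displacement -/
noncomputable def A0 (m P : ℝ) : ℝ := -m * (1 - m ^ 2) + P * (1 + m ^ 2) / 2

noncomputable def A1 (m P : ℝ) : ℝ := -m * hcor m + P / 3 * (1 + 3 * m ^ 4)

theorem Qstar_eq (r m P : ℝ) : m * hh r m + P * sig r m = m + r * (A0 m P + r * A1 m P) := by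
  unfold hh sig A0 A1
  ring

theorem Estar_eq (r m P Qs A : ℝ) (hA : A = A0 m P + r * A1 m P) (hQs : Qs = m + r * A) :
    (hh r m - 1 + P * rho r m) + r * (1 - P * Qs - Qs ^ 2) + r ^ 2 * WW P Qs =
      r ^ 2 * (P ^ 2 * (1 - P ^ 2) / 12) + r ^ 2 * (WW P Qs - WW P m) -
        r ^ 3 * (A1 m P * (2 * m + P)) - r ^ 3 * A ^ 2 := by
  have h1 : (hh r m - 1 + P * rho r m) + r * (1 - P * Qs - Qs ^ 2) =
      -(r ^ 2 * (A * (2 * m + P + r * A))) - r ^ 2 * hcor m + 4 / 3 * r ^ 2 * m ^ 3 * P := by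
    rw [hQs]; unfold hh rho; ring
  rw [h1, hA]
  unfold A0 WW hcor
  ring

theorem bounds (r m P : ℝ) (hr : 0 < r) (hr1 : r ≤ 1 / 1000) (hm : |m| ≤ 1) (hP : |P| ≤ 2) :
    |hcor m| ≤ 4 ∧ |A0 m P| ≤ 3 ∧ |A1 m P| ≤ 7 ∧ |rho r m| ≤ 11 / 10 * r ∧
      1 - 11 / 10 * r ≤ hh r m ∧ hh r m ≤ 1 + r := by
  have hm2 : m ^ 2 ≤ 1 := by rw [← sq_abs]; nlinarith [abs_nonneg m]
  have hm0 : 0 ≤ m ^ 2 := sq_nonneg m
  have hm4 : m ^ 4 ≤ 1 := by nlinarith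
  have hm40 : 0 ≤ m ^ 4 := by positivity
  have c1 : |hcor m| ≤ 4 := by
    unfold hcor
    rw [abs_le]
    constructor <;> linarith
  have hr2 : r ^ 2 ≤ 1 / 1000 * r := by nlinarith
  refine ⟨c1, ?_, ?_, ?_, ?_, ?_⟩
  · unfold A0
    have t1 : |-m * (1 - m ^ 2)| ≤ 1 := by
      rw [abs_mul, abs_neg, abs_of_nonneg (by linarith : 0 ≤ 1 - m ^ 2)]
      nlinarith [abs_nonneg m]
    have t2 : |P * (1 + m ^ 2) / 2| ≤ 2 := by
      rw [abs_div, abs_mul, abs_of_nonneg (by linarith : 0 ≤ 1 + m ^ 2), abs_two]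
      nlinarith [abs_nonneg P]
    exact (abs_add_le _ _).trans (by linarith)
  · unfold A1
    have t1 : |-m * hcor m| ≤ 4 := by
      rw [abs_mul, abs_neg]
      nlinarith [abs_nonneg m, abs_nonneg (hcor m)]
    have t2 : |P / 3 * (1 + 3 * m ^ 4)| ≤ 3 := by
      rw [abs_mul, abs_div, abs_of_nonneg (by linarith : 0 ≤ 1 + 3 * m ^ 4)]
      have h3 : |(3 : ℝ)| = 3 := abs_of_pos (by norm_num)
      rw [h3]
      nlinarith [abs_nonneg P]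
    exact (abs_add_le _ _).trans (by linarith)
  · unfold rho
    have : r * m + 4 / 3 * r ^ 2 * m ^ 3 = (r + 4 / 3 * r ^ 2 * m ^ 2) * m := by ring
    rw [this, abs_mul, abs_of_nonneg (by positivity)]
    nlinarith [abs_nonneg m, mul_nonneg (sq_nonneg r) (by linarith : 0 ≤ 1 - m ^ 2)]
  · unfold hh
    have := (abs_le.1 c1).2
    nlinarith [mul_le_mul_of_nonneg_left this (sq_nonneg r)]
  · unfold hh
    have := (abs_le.1 c1).1
    nlinarith [mul_le_mul_of_nonneg_left this (sq_nonneg r)]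

theorem P4_bound (r P : ℝ) (hr : 0 < r) (hr1 : r ≤ 1 / 1000) (hP3 : |P| ≤ 1 + 4 * r) :
    -(2 * r ^ 3) ≤ r ^ 2 * (P ^ 2 * (1 - P ^ 2) / 12) := by
  have h1 : P ^ 2 ≤ (1 + 4 * r) ^ 2 := by rw [← sq_abs]; gcongr
  have h2 : P ^ 2 ≤ 2 := by nlinarith
  have h3 : P ^ 2 - 1 ≤ 9 * r := by nlinarith
  have h4 : P ^ 2 * (P ^ 2 - 1) ≤ 18 * r := by
    rcases le_or_gt (P ^ 2 - 1) 0 with h | h
    · have := mul_nonpos_of_nonneg_of_nonpos (sq_nonneg P) h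
      linarith
    · calc P ^ 2 * (P ^ 2 - 1) ≤ 2 * (9 * r) := mul_le_mul h2 h3 h.le (by norm_num)
        _ = 18 * r := by ring
  have h5 : r ^ 2 * (P ^ 2 * (P ^ 2 - 1)) ≤ r ^ 2 * (18 * r) := by gcongr
  have h6 : r ^ 2 * (P ^ 2 * (1 - P ^ 2) / 12) = -(r ^ 2 * (P ^ 2 * (P ^ 2 - 1))) / 12 := by ring
  have h7 : r ^ 2 * (18 * r) = 18 * r ^ 3 := by ring
  rw [h6]
  have := pow_pos hr 3
  linarith

theorem E_diff (r P Q Qs u : ℝ) (hr : 0 < r) (hr1 : r ≤ 1 / 1000) (hP2 : |P| ≤ 2) (hQb : |Q| ≤ 2)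
    (hQsb : |Qs| ≤ 2) (hu : 0 ≤ u) (ha : |Q - Qs| ≤ 4 * r ^ 3 + u) :
    (r * (1 - P * Qs - Qs ^ 2) + r ^ 2 * WW P Qs) - (r ^ 3 + u) ≤
      r * (1 - P * Q - Q ^ 2) + r ^ 2 * WW P Q := by
  have hD1 : |r * (1 - P * Q - Q ^ 2) - r * (1 - P * Qs - Qs ^ 2)| ≤ 6 * r * |Q - Qs| := by
    have h1 : r * (1 - P * Q - Q ^ 2) - r * (1 - P * Qs - Qs ^ 2) =
        (r * -(P + (Q + Qs))) * (Q - Qs) := by ring
    rw [h1, abs_mul, abs_mul, abs_neg, abs_of_pos hr]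
    have : |P + (Q + Qs)| ≤ 6 :=
      (abs_add_le _ _).trans (by have := abs_add_le Q Qs; linarith)
    exact mul_le_mul_of_nonneg_right (by nlinarith) (abs_nonneg _)
  have hD2 : |r ^ 2 * WW P Q - r ^ 2 * WW P Qs| ≤ r * |Q - Qs| := by
    rw [← mul_sub, abs_mul, abs_of_nonneg (sq_nonneg r)]
    have := WW_lip P Q Qs hP2 hQb hQsb
    calc r ^ 2 * |WW P Q - WW P Qs| ≤ r ^ 2 * (35 * |Q - Qs|) := by gcongr
      _ = (r * 35) * r * |Q - Qs| := by ring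
      _ ≤ 1 * r * |Q - Qs| := by gcongr; linarith
      _ = _ := by ring
  have hD3 : 7 * r * |Q - Qs| ≤ r ^ 3 + u := by
    calc 7 * r * |Q - Qs| ≤ 7 * r * (4 * r ^ 3 + u) := by gcongr
      _ = (28 * r) * r ^ 3 + (7 * r) * u := by ring
      _ ≤ 1 * r ^ 3 + 1 * u := by gcongr <;> linarith
      _ = _ := by ring
  have e1 := (abs_le.1 hD1).1
  have e2 := (abs_le.1 hD2).1
  linarith

theorem A_bound (r m P : ℝ) (hr : 0 < r) (hr1 : r ≤ 1 / 1000) (c2 : |A0 m P| ≤ 3)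
    (c3 : |A1 m P| ≤ 7) : |A0 m P + r * A1 m P| ≤ 4 := by
  have : |r * A1 m P| ≤ 1 := by
    rw [abs_mul, abs_of_pos hr]
    nlinarith [abs_nonneg (A1 m P)]
  exact (abs_add_le _ _).trans (by linarith)

theorem Estar_bound (r m P : ℝ) (hr : 0 < r) (hr1 : r ≤ 1 / 1000) (hm : |m| ≤ 1) (hP2 : |P| ≤ 2)
    (hP3 : |P| ≤ 1 + 4 * r) (Qs A : ℝ) (hA : A = A0 m P + r * A1 m P) (hQs : Qs = m + r * A) :
    -(186 * r ^ 3) ≤ (hh r m - 1 + P * rho r m) + r * (1 - P * Qs - Qs ^ 2) + r ^ 2 * WW P Qs := by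
  obtain ⟨c1, c2, c3, c4, c5, c6⟩ := bounds r m P hr hr1 hm hP2
  have hAb : |A| ≤ 4 := by rw [hA]; exact A_bound r m P hr hr1 c2 c3
  have hQsb : |Qs| ≤ 2 := by
    have : |r * A| ≤ 1 := by
      rw [abs_mul, abs_of_pos hr]
      nlinarith [abs_nonneg A]
    rw [hQs]
    exact (abs_add_le _ _).trans (by linarith)
  rw [Estar_eq r m P Qs A hA hQs]
  have hW : |r ^ 2 * (WW P Qs - WW P m)| ≤ 140 * r ^ 3 := by
    rw [abs_mul, abs_of_nonneg (sq_nonneg r)]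
    have h1 := WW_lip P Qs m hP2 hQsb (by linarith)
    have h2 : |Qs - m| ≤ 4 * r := by
      rw [hQs, add_sub_cancel_left, abs_mul, abs_of_pos hr]
      nlinarith
    calc r ^ 2 * |WW P Qs - WW P m| ≤ r ^ 2 * (35 * (4 * r)) := by
          gcongr
          exact h1.trans (by gcongr)
      _ = 140 * r ^ 3 := by ring
  have hA1 : |r ^ 3 * (A1 m P * (2 * m + P))| ≤ 28 * r ^ 3 := by
    rw [abs_mul, abs_of_nonneg (by positivity), abs_mul]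
    have : |2 * m + P| ≤ 4 := by
      refine (abs_add_le _ _).trans ?_
      rw [abs_mul, abs_two]; linarith
    have h2 : |A1 m P| * |2 * m + P| ≤ 7 * 4 := mul_le_mul c3 this (abs_nonneg _) (by norm_num)
    calc r ^ 3 * (|A1 m P| * |2 * m + P|) ≤ r ^ 3 * (7 * 4) := by gcongr
      _ = 28 * r ^ 3 := by ring
  have hA2 : r ^ 3 * A ^ 2 ≤ 16 * r ^ 3 := by
    have : A ^ 2 ≤ 16 := by rw [← sq_abs]; nlinarith [abs_nonneg A]
    calc r ^ 3 * A ^ 2 ≤ r ^ 3 * 16 := by gcongr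
      _ = 16 * r ^ 3 := by ring
  have hP4 := P4_bound r P hr hr1 hP3
  have e3 := (abs_le.1 hW).1
  have e4 := (abs_le.1 hA1).2
  linarith

/-- MODULE KEY: points above the e-fan. -/
theorem key (r m P q s u Z Q : ℝ) (hr : 0 < r) (hr1 : r ≤ 1 / 1000) (hm : |m| ≤ 1)
    (hq : |q - m| ≤ r ^ 3) (hq1 : |q| ≤ 1) (hs : |s - sig r m| ≤ r ^ 3) (hu : 0 ≤ u)
    (hZ : Z = hh r m - 1 + P * rho r m + u) (hQ : Q = P * s + q * (hh r m + u))
    (hP : |P| ≤ 1 - Z) (hQ2 : |Q| ≤ 1 + Z) :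
    |P| ≤ 1 + 4 * r ∧
      -(210 * r ^ 3) ≤ Z - cc r (P + Q) * (P - Q) + zz r (P + Q) := by
  have hZ1 : -1 ≤ Z := by have := abs_nonneg Q; linarith
  have hZ2 : Z ≤ 1 := by have := abs_nonneg P; linarith
  have hP2 : |P| ≤ 2 := by linarith
  obtain ⟨c1, c2, c3, c4, c5, c6⟩ := bounds r m P hr hr1 hm hP2
  have hr2 : r ^ 2 ≤ 1 / 1000 * r := by nlinarith
  have hPrho : |P * rho r m| ≤ 22 / 10 * r := by
    rw [abs_mul]
    calc |P| * |rho r m| ≤ 2 * (11 / 10 * r) := mul_le_mul hP2 c4 (abs_nonneg _) (by norm_num)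
      _ = 22 / 10 * r := by ring
  have hP3 : |P| ≤ 1 + 4 * r := by
    have := (abs_le.1 hPrho).1
    linarith
  refine ⟨hP3, ?_⟩
  rw [E_eq]
  set A : ℝ := A0 m P + r * A1 m P with hA
  set Qs : ℝ := m + r * A with hQs
  have hQs' : m * hh r m + P * sig r m = Qs := by rw [Qstar_eq]
  have hAb : |A| ≤ 4 := A_bound r m P hr hr1 c2 c3
  have hQsb : |Qs| ≤ 2 := by
    have : |r * A| ≤ 1 := by
      rw [abs_mul, abs_of_pos hr]
      nlinarith [abs_nonneg A]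
    exact (abs_add_le _ _).trans (by linarith)
  have hQb : |Q| ≤ 2 := by linarith
  have hE := Estar_bound r m P hr hr1 hm hP2 hP3 Qs A hA hQs
  -- a = Q - Qs
  have ha : |Q - Qs| ≤ 4 * r ^ 3 + u := by
    have h1 : Q - Qs = P * (s - sig r m) + ((q - m) * hh r m + q * u) := by
      rw [hQ, ← hQs']; ring
    rw [h1]
    have t1 : |P * (s - sig r m)| ≤ 2 * r ^ 3 := by
      rw [abs_mul]
      exact mul_le_mul hP2 hs (abs_nonneg _) (by norm_num)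
    have t2 : |(q - m) * hh r m| ≤ r ^ 3 * 2 := by
      rw [abs_mul]
      refine mul_le_mul hq ?_ (abs_nonneg _) (by positivity)
      rw [abs_le]; constructor <;> linarith
    have t3 : |q * u| ≤ u := by
      rw [abs_mul, abs_of_nonneg hu]
      nlinarith
    calc _ ≤ |P * (s - sig r m)| + |(q - m) * hh r m + q * u| := abs_add_le _ _
      _ ≤ |P * (s - sig r m)| + (|(q - m) * hh r m| + |q * u|) := by
          gcongr; exact abs_add_le _ _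
      _ ≤ _ := by linarith
  have hD := E_diff r P Q Qs u hr hr1 hP2 hQb hQsb hu ha
  have hr3 := pow_pos hr 3
  linarith

end Vale.Agent.P243
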