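import Vale.Agent.P243.Defs

namespace Vale.Agent.P243

open MeasureTheory

/-- The linear coordinates `x ↦ (⟨p,x⟩, ⟨q,x⟩)`. -/
noncomputable def coord (p q x : E3) : ℝ × ℝ := (inner ℝ p x, inner ℝ q x)

/-- The Gram determinant of `p, q` (so that its square root is the norm of the cross product). -/
noncomputable def gram (p q : E3) : ℝ := ‖p‖ ^ 2 * ‖q‖ ^ 2 - (inner ℝ p q) ^ 2

theorem mem_perp (u x : E3) : x ∈ perp u ↔ inner ℝ u x = 0 :=
  Submodule.mem_orthogonal_singleton_iff_inner_right

theorem finrank_perp (u : E3) (hu : u ≠ 0) : Module.finrank ℝ (perp u) = 2 := by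
  have h := Submodule.finrank_add_finrank_orthogonal (Submodule.span ℝ {u})
  rw [finrank_span_singleton hu, finrank_euclideanSpace_fin] at h
  change Module.finrank ℝ ((Submodule.span ℝ {u})ᗮ : Submodule ℝ E3) = 2
  omega

/-- data: an orthonormal basis of the plane. -/
theorem exists_basis (u : E3) (hu : u ≠ 0) : Nonempty (OrthonormalBasis (Fin 2) ℝ (perp u)) := by
  have h := finrank_perp u hu
  exact ⟨(stdOrthonormalBasis ℝ (perp u)).reindex (finCongr h)⟩

/-- In an orthonormal basis `b` of the plane, `⟨p, y⟩` for `y` in the plane. -/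
theorem inner_basis (u : E3) (b : OrthonormalBasis (Fin 2) ℝ (perp u)) (p : E3) (y : perp u) :
    inner ℝ p (y : E3) = inner ℝ p (b 0 : E3) * (b.repr y) 0 + inner ℝ p (b 1 : E3) * (b.repr y) 1 := by
  have h := b.sum_repr y
  rw [Fin.sum_univ_two] at h
  have h2 : (y : E3) = (b.repr y) 0 • (b 0 : E3) + (b.repr y) 1 • (b 1 : E3) := by
    conv_lhs => rw [← h]
    simp
  conv_lhs => rw [h2]
  rw [inner_add_right, inner_smul_right, inner_smul_right]
  ring

theorem inner_basis' (u : E3) (b : OrthonormalBasis (Fin 2) ℝ (perp u)) (p q : E3)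
    (hq : inner ℝ u q = 0) :
    inner ℝ p q = inner ℝ p (b 0 : E3) * inner ℝ q (b 0 : E3) +
      inner ℝ p (b 1 : E3) * inner ℝ q (b 1 : E3) := by
  have h := inner_basis u b p ⟨q, (mem_perp u q).2 hq⟩
  have h0 : (b.repr ⟨q, (mem_perp u q).2 hq⟩) 0 = inner ℝ q (b 0 : E3) := by
    rw [b.repr_apply_apply, real_inner_comm]; rfl
  have h1 : (b.repr ⟨q, (mem_perp u q).2 hq⟩) 1 = inner ℝ q (b 1 : E3) := by
    rw [b.repr_apply_apply, real_inner_comm]; rfl
  rw [h0, h1] at h
  exact h

/-- The matrix of the coordinates. -/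
noncomputable def cmat (u : E3) (b : OrthonormalBasis (Fin 2) ℝ (perp u)) (p q : E3) :
    Matrix (Fin 2) (Fin 2) ℝ :=
  !![inner ℝ p (b 0 : E3), inner ℝ p (b 1 : E3); inner ℝ q (b 0 : E3), inner ℝ q (b 1 : E3)]

theorem cmat_det_sq (u : E3) (b : OrthonormalBasis (Fin 2) ℝ (perp u)) (p q : E3)
    (hp : inner ℝ p u = 0) (hq : inner ℝ q u = 0) :
    (cmat u b p q).det ^ 2 = gram p q := by
  have hp' : inner ℝ u p = 0 := by rw [real_inner_comm]; exact hp
  have hq' : inner ℝ u q = 0 := by rw [real_inner_comm]; exact hq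
  rw [gram, ← real_inner_self_eq_norm_sq, ← real_inner_self_eq_norm_sq,
    inner_basis' u b p p hp', inner_basis' u b q q hq', inner_basis' u b p q hq', cmat,
    Matrix.det_fin_two_of]
  ring

/-- MODULE T1: area of a subset of `u^⊥` given in linear coordinates. -/
theorem planarArea_coord (u p q : E3) (hu : ‖u‖ = 1) (hp : inner ℝ p u = 0)
    (hq : inner ℝ q u = 0) (hg : 0 < gram p q) (D : Set (ℝ × ℝ)) :
    planarArea u {x | coord p q x ∈ D} = ENNReal.ofReal (1 / √(gram p q)) * volume D := by
  have hu0 : u ≠ 0 := by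
    intro h
    rw [h, norm_zero] at hu
    exact zero_ne_one hu
  obtain ⟨b⟩ := exists_basis u hu0
  have hdet := cmat_det_sq u b p q hp hq
  have hdet0 : LinearMap.det (Matrix.toLin' (cmat u b p q)) ≠ 0 := by
    rw [LinearMap.det_toLin']
    intro h
    rw [h] at hdet
    norm_num at hdet
    linarith
  unfold planarArea subspaceVolume subspaceMeasure
  -- the measure-preserving equivalence
  let e1 : perp u ≃ᵐ EuclideanSpace ℝ (Fin 2) := b.measurableEquiv
  have he1 : MeasurePreserving e1 (@volume (perp u) measureSpaceOfInnerProductSpace) volume :=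
    b.measurePreserving_measurableEquiv
  let e2 : EuclideanSpace ℝ (Fin 2) ≃ᵐ (Fin 2 → ℝ) := (MeasurableEquiv.toLp 2 (Fin 2 → ℝ)).symm
  have he2 : MeasurePreserving e2 volume volume :=
    EuclideanSpace.volume_preserving_symm_measurableEquiv_toLp (Fin 2)
  let e3 : (Fin 2 → ℝ) ≃ᵐ ℝ × ℝ := MeasurableEquiv.finTwoArrow
  have he3 : MeasurePreserving e3 volume volume := volume_preserving_finTwoArrow ℝ
  have hset : (fun y : perp u => (y : E3)) ⁻¹' {x | coord p q x ∈ D} =
      e1 ⁻¹' (e2 ⁻¹' ((Matrix.toLin' (cmat u b p q)) ⁻¹' (e3 ⁻¹' D))) := by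
    ext y
    have h0 : e3 (Matrix.toLin' (cmat u b p q) (e2 (e1 y))) = coord p q y := by
      rw [coord, inner_basis u b p y, inner_basis u b q y]
      change (Matrix.toLin' (cmat u b p q) (e2 (e1 y)) 0, Matrix.toLin' (cmat u b p q) (e2 (e1 y)) 1) = _
      simp only [Matrix.toLin'_apply, cmat]
      simp only [Matrix.mulVec, dotProduct, Fin.sum_univ_two]
      rfl
    change coord p q y ∈ D ↔ e3 (Matrix.toLin' (cmat u b p q) (e2 (e1 y))) ∈ D
    rw [h0]
  rw [hset, he1.measure_preimage_equiv, he2.measure_preimage_equiv,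
    Measure.addHaar_preimage_linearMap _ hdet0, he3.measure_preimage_equiv,
    LinearMap.det_toLin', ← hdet, Real.sqrt_sq_eq_abs, one_div, abs_inv]

theorem coord_sub_smul (u p q x : E3) (hp : inner ℝ p u = 0) (hq : inner ℝ q u = 0) (t : ℝ) :
    coord p q (x - t • u) = coord p q x := by
  simp [coord, inner_sub_right, inner_smul_right, hp, hq]

theorem coord_inj (u p q : E3) (hu : ‖u‖ = 1) (hp : inner ℝ p u = 0)
    (hq : inner ℝ q u = 0) (hg : 0 < gram p q) (x y : E3) (hx : inner ℝ u x = 0)
    (hy : inner ℝ u y = 0) (h : coord p q x = coord p q y) : x = y := by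
  have hu0 : u ≠ 0 := by
    intro h
    rw [h, norm_zero] at hu
    exact zero_ne_one hu
  obtain ⟨b⟩ := exists_basis u hu0
  have hdet := cmat_det_sq u b p q hp hq
  have hd : (cmat u b p q).det ≠ 0 := by
    intro h0
    rw [h0] at hdet
    norm_num at hdet
    linarith
  set z : perp u := ⟨x - y, (mem_perp u _).2 (by rw [inner_sub_right, hx, hy, sub_zero])⟩ with hz
  have e1 : inner ℝ p (z : E3) = 0 := by
    have := congrArg Prod.fst h
    simp only [coord] at this
    rw [hz]
    simp only [inner_sub_right, this, sub_self]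
  have e2 : inner ℝ q (z : E3) = 0 := by
    have := congrArg Prod.snd h
    simp only [coord] at this
    rw [hz]
    simp only [inner_sub_right, this, sub_self]
  rw [inner_basis u b] at e1 e2
  rw [cmat, Matrix.det_fin_two_of] at hd
  set p0 := inner ℝ p (b 0 : E3)
  set p1 := inner ℝ p (b 1 : E3)
  set q0 := inner ℝ q (b 0 : E3)
  set q1 := inner ℝ q (b 1 : E3)
  have f0 : (b.repr z) 0 = 0 := by
    have : (p0 * q1 - p1 * q0) * (b.repr z) 0 = 0 := by
      linear_combination q1 * e1 - p1 * e2
    rcases mul_eq_zero.1 this with h | h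
    · exact absurd h hd
    · exact h
  have f1 : (b.repr z) 1 = 0 := by
    have : (p0 * q1 - p1 * q0) * (b.repr z) 1 = 0 := by
      linear_combination p0 * e2 - q0 * e1
    rcases mul_eq_zero.1 this with h | h
    · exact absurd h hd
    · exact h
  have hz0 : z = 0 := by
    have h := b.sum_repr z
    rw [Fin.sum_univ_two, f0, f1] at h
    simpa using h.symm
  have : x - y = 0 := congrArg Subtype.val hz0
  exact sub_eq_zero.1 this

/-- MODULE T2: area of the shadow. -/
theorem planarArea_shadow (u p q : E3) (hu : ‖u‖ = 1) (hp : inner ℝ p u = 0)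
    (hq : inner ℝ q u = 0) (hg : 0 < gram p q) (K : Set E3) :
    planarArea u (shadow u K) =
      ENNReal.ofReal (1 / √(gram p q)) * volume (coord p q '' K) := by
  rw [← planarArea_coord u p q hu hp hq hg]
  unfold planarArea subspaceVolume
  congr 1
  ext y
  have hy : inner ℝ u (y : E3) = 0 := (mem_perp u _).1 y.2
  simp only [Set.mem_ofPred_eq, shadow, Set.mem_image]
  constructor
  · rintro ⟨x, hx, hxy⟩
    exact ⟨x, hx, by rw [← hxy, coord_sub_smul u p q x hp hq]⟩
  · rintro ⟨x, hx, hxy⟩
    refine ⟨x, hx, coord_inj u p q hu hp hq hg _ _ ?_ hy ?_⟩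
    · rw [inner_sub_right, inner_smul_right, real_inner_self_eq_norm_sq, hu]; ring
    · rw [coord_sub_smul u p q x hp hq, hxy]

/-- MODULE T3: the cylinder with direction `w` and base `D` in the linear coordinates `p, q`. -/
theorem exists_cylinder (w p q : E3) (hw : w ≠ 0) (hp : inner ℝ p w = 0)
    (hq : inner ℝ q w = 0) (hg : 0 < gram p q) (D : Set (ℝ × ℝ)) (hD : MeasurableSet D)
    (hfin : volume D ≠ ⊤) :
    ∃ C : Cylinder, (∀ x, x ∈ C.carrier ↔ coord p q x ∈ D) ∧
      C.area = ENNReal.ofReal (1 / √(gram p q)) * volume D ∧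
      ∀ K : Set E3, planarArea C.dir (shadow C.dir K) =
        ENNReal.ofReal (1 / √(gram p q)) * volume (coord p q '' K) := by
  have hn : ‖w‖ ≠ 0 := norm_ne_zero_iff.2 hw
  set u : E3 := (‖w‖⁻¹) • w with hudef
  have hu : ‖u‖ = 1 := by
    rw [hudef, norm_smul, norm_inv, norm_norm, inv_mul_cancel₀ hn]
  have hpu : inner ℝ p u = 0 := by rw [hudef, inner_smul_right, hp, mul_zero]
  have hqu : inner ℝ q u = 0 := by rw [hudef, inner_smul_right, hq, mul_zero]
  have hcoordmeas : Measurable (coord p q) := by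
    unfold coord
    exact (measurable_const.inner measurable_id).prodMk (measurable_const.inner measurable_id)
  have harea : planarArea u {x | inner ℝ u x = 0 ∧ coord p q x ∈ D} =
      ENNReal.ofReal (1 / √(gram p q)) * volume D := by
    rw [← planarArea_coord u p q hu hpu hqu hg]
    unfold planarArea subspaceVolume
    congr 1
    ext y
    have hy : inner ℝ u (y : E3) = 0 := (mem_perp u _).1 y.2
    simp [hy]
  refine ⟨⟨u, {x | inner ℝ u x = 0 ∧ coord p q x ∈ D}, hu, fun x hx => hx.1, ?_, ?_⟩, ?_, ?_, ?_⟩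
  · exact (measurableSet_eq_fun (measurable_const.inner measurable_id) measurable_const).inter
      (hcoordmeas hD)
  · rw [harea]
    exact ENNReal.mul_ne_top ENNReal.ofReal_ne_top hfin
  · intro x
    simp only [Cylinder.carrier, Set.mem_ofPred_eq]
    constructor
    · rintro ⟨y, ⟨hy1, hy2⟩, t, rfl⟩
      have : coord p q (y + t • u) = coord p q y := by
        have := coord_sub_smul u p q y hpu hqu (-t)
        rwa [neg_smul, sub_neg_eq_add] at this
      rw [this]; exact hy2
    · intro hx
      refine ⟨x - inner ℝ u x • u, ⟨?_, ?_⟩, inner ℝ u x, by simp⟩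
      · rw [inner_sub_right, inner_smul_right, real_inner_self_eq_norm_sq, hu]; ring
      · rw [coord_sub_smul u p q x hpu hqu]; exact hx
  · exact harea
  · intro K
    exact planarArea_shadow u p q hu hpu hqu hg K

end Vale.Agent.P243
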