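import Mathlib

namespace Vale.Agent.P243

open MeasureTheory

/-- the standard open triangle -/
def T0 : Set (ℝ × ℝ) := regionBetween (fun _ => 0) (fun x => x) (Set.Ioo 0 1)

theorem volume_T0 : volume T0 = ENNReal.ofReal (1 / 2) := by
  have h1 : IntegrableOn (fun _ : ℝ => (0:ℝ)) (Set.Ioo 0 1) := by simp
  have h2 : IntegrableOn (fun x : ℝ => x) (Set.Ioo 0 1) :=
    (continuous_id.integrableOn_Icc (a := (0:ℝ)) (b := 1)).mono_set Set.Ioo_subset_Icc_self
  have h3 := volume_regionBetween_eq_integral (μ := volume) h1 h2 measurableSet_Ioo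
    (fun x hx => hx.1.le)
  have h4 : ∫ y in Set.Ioo (0:ℝ) 1, ((fun x : ℝ => x) - (fun _ : ℝ => (0:ℝ))) y = 1 / 2 := by
    rw [← integral_Ioc_eq_integral_Ioo, ← intervalIntegral.integral_of_le zero_le_one]
    simp
  rw [h4] at h3
  exact h3

/-- the affine image of the triangle: apex `P`, opposite side from `C` to `C + w`. -/
def triMap (P C w : ℝ × ℝ) (z : ℝ × ℝ) : ℝ × ℝ := P + (z.1 • (C - P) + z.2 • w)

theorem volume_triMap (P C w : ℝ × ℝ) :
    volume (triMap P C w '' T0) =
      ENNReal.ofReal (|(C.1 - P.1) * w.2 - (C.2 - P.2) * w.1| / 2) := by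
  set M : Matrix (Fin 2) (Fin 2) ℝ := !![C.1 - P.1, w.1; C.2 - P.2, w.2] with hM
  set L := Matrix.toLin (Module.Basis.finTwoProd ℝ) (Module.Basis.finTwoProd ℝ) M with hL
  have hLz : ∀ z, L z = z.1 • (C - P) + z.2 • w := by
    intro z
    rw [hL, hM, Matrix.toLin_finTwoProd_apply]
    ext
    · simp; ring
    · simp; ring
  have h1 : triMap P C w '' T0 = (fun x => -P + x) ⁻¹' (L '' T0) := by
    rw [← Set.image_add_left, Set.image_image]
    apply Set.image_congr
    intro z _
    rw [hLz]
    rfl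
  have h2 : LinearMap.det L = (C.1 - P.1) * w.2 - (C.2 - P.2) * w.1 := by
    rw [hL, LinearMap.det_toLin, hM, Matrix.det_fin_two_of]
    ring
  rw [h1, measure_preimage_add, Measure.addHaar_image_linearMap, volume_T0, h2,
    ← ENNReal.ofReal_mul (abs_nonneg _)]
  congr 1
  ring

theorem triMap_subset {X : Set (ℝ × ℝ)} (hX : Convex ℝ X) {P C D : ℝ × ℝ}
    (hP : P ∈ X) (hC : C ∈ X) (hD : D ∈ X) : triMap P C (D - C) '' T0 ⊆ X := by
  rintro _ ⟨z, hz, rfl⟩
  obtain ⟨⟨h1, h2⟩, h3, h4⟩ := hz
  simp only at h3 h4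
  have h5 : triMap P C (D - C) z = (1 - z.1) • P + (z.1 - z.2) • C + z.2 • D := by
    unfold triMap
    ext
    · simp; ring
    · simp; ring
  rw [h5]
  have h6 := hX.sum_mem (t := (Finset.univ : Finset (Fin 3))) (w := ![1 - z.1, z.1 - z.2, z.2])
    (z := ![P, C, D]) (by
      intro i _
      fin_cases i
      · simp; linarith
      · simp; linarith
      · simp; linarith)
    (by simp [Fin.sum_univ_three])
    (by
      intro i _
      fin_cases i
      · exact hP
      · exact hC
      · exact hD)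
  simpa [Fin.sum_univ_three] using h6

/-- MODULE S1: a planar convex set containing `A, B, C, D` has area at least
`|det (B - A, D - C)| / 2`. -/
theorem two_segments {X : Set (ℝ × ℝ)} (hX : Convex ℝ X) {A B C D : ℝ × ℝ}
    (hA : A ∈ X) (hB : B ∈ X) (hC : C ∈ X) (hD : D ∈ X) :
    ENNReal.ofReal (|(B.1 - A.1) * (D.2 - C.2) - (B.2 - A.2) * (D.1 - C.1)| / 2) ≤ volume X := by
  have sA := triMap_subset hX hA hC hD
  have sB := triMap_subset hX hB hC hD
  have vA := volume_triMap A C (D - C)
  have vB := volume_triMap B C (D - C)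
  simp only [Prod.fst_sub, Prod.snd_sub] at vA vB
  set α := (C.1 - A.1) * (D.2 - C.2) - (C.2 - A.2) * (D.1 - C.1) with hα
  set β := (C.1 - B.1) * (D.2 - C.2) - (C.2 - B.2) * (D.1 - C.1) with hβ
  have hΔ : (B.1 - A.1) * (D.2 - C.2) - (B.2 - A.2) * (D.1 - C.1) = α - β := by
    rw [hα, hβ]; ring
  rw [hΔ]
  -- the two sides of the line `CD`
  have hmeas : ∀ σ : ℝ, MeasurableSet {Z : ℝ × ℝ |
      0 < σ * ((C.1 - Z.1) * (D.2 - C.2) - (C.2 - Z.2) * (D.1 - C.1))} := by
    intro σ
    have hc : Continuous (fun Z : ℝ × ℝ =>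
        σ * ((C.1 - Z.1) * (D.2 - C.2) - (C.2 - Z.2) * (D.1 - C.1))) := by fun_prop
    exact (isOpen_Ioi.preimage hc).measurableSet
  have hside : ∀ (P : ℝ × ℝ) (z : ℝ × ℝ),
      (C.1 - (triMap P C (D - C) z).1) * (D.2 - C.2) -
        (C.2 - (triMap P C (D - C) z).2) * (D.1 - C.1) =
      (1 - z.1) * ((C.1 - P.1) * (D.2 - C.2) - (C.2 - P.2) * (D.1 - C.1)) := by
    intro P z
    simp [triMap]
    ring
  by_cases hopp : 0 < α ∧ β < 0 ∨ α < 0 ∧ 0 < β
  · -- opposite sides
    obtain ⟨σ, hσα, hσβ⟩ : ∃ σ : ℝ, 0 < σ * α ∧ σ * β < 0 := by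
      rcases hopp with ⟨h1, h2⟩ | ⟨h1, h2⟩
      · exact ⟨1, by linarith, by linarith⟩
      · exact ⟨-1, by linarith, by linarith⟩
    have habs : |α - β| / 2 = |α| / 2 + |β| / 2 := by
      rcases hopp with ⟨h1, h2⟩ | ⟨h1, h2⟩
      · rw [abs_of_pos h1, abs_of_neg h2, abs_of_pos (by linarith)]; ring
      · rw [abs_of_neg h1, abs_of_pos h2, abs_of_neg (by linarith)]; ring
    rw [habs, ENNReal.ofReal_add (by positivity) (by positivity), ← vA, ← vB,
      ← measure_inter_add_sdiff X (hmeas σ)]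
    apply add_le_add
    · apply measure_mono
      intro Z hZ
      refine ⟨sA hZ, ?_⟩
      obtain ⟨z, hz, rfl⟩ := hZ
      simp only [Set.mem_ofPred_eq]
      rw [hside]
      have h1 : 0 < 1 - z.1 := by linarith [hz.1.2]
      have : σ * ((1 - z.1) * α) = (1 - z.1) * (σ * α) := by ring
      rw [← hα, this]
      exact mul_pos h1 hσα
    · apply measure_mono
      intro Z hZ
      refine ⟨sB hZ, ?_⟩
      obtain ⟨z, hz, rfl⟩ := hZ
      simp only [Set.mem_ofPred_eq, not_lt]
      rw [hside]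
      have h1 : 0 < 1 - z.1 := by linarith [hz.1.2]
      have : σ * ((1 - z.1) * β) = (1 - z.1) * (σ * β) := by ring
      rw [← hβ, this]
      exact (mul_neg_of_pos_of_neg h1 hσβ).le
  · -- same side: one triangle is enough
    have hmax : |α - β| ≤ |α| ∨ |α - β| ≤ |β| := by
      push Not at hopp
      obtain ⟨h1, h2⟩ := hopp
      rcases lt_trichotomy α 0 with h | h | h
      · have h3 := h2 h
        rcases le_total α β with h4 | h4
        · left
          rw [abs_of_nonpos (by linarith), abs_of_neg h]; linarith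
        · right
          rw [abs_of_nonneg (by linarith), abs_of_nonpos h3]; linarith
      · right
        rw [h, zero_sub, abs_neg]
      · have h3 := h1 h
        rcases le_total α β with h4 | h4
        · right
          rw [abs_of_nonpos (by linarith), abs_of_nonneg h3]; linarith
        · left
          rw [abs_of_nonneg (by linarith), abs_of_pos h]; linarith
    rcases hmax with h | h
    · calc ENNReal.ofReal (|α - β| / 2) ≤ ENNReal.ofReal (|α| / 2) := by
            apply ENNReal.ofReal_le_ofReal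
            linarith
        _ = _ := vA.symm
        _ ≤ volume X := measure_mono sA
    · calc ENNReal.ofReal (|α - β| / 2) ≤ ENNReal.ofReal (|β| / 2) := by
            apply ENNReal.ofReal_le_ofReal
            linarith
        _ = _ := vB.symm
        _ ≤ volume X := measure_mono sB

end Vale.Agent.P243
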