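import Vale.Agent.P243.Defs
import Vale.Agent.P243.Transfer
import Vale.Agent.P243.TwoSeg

namespace Vale.Agent.P243

open MeasureTheory

/-- The regular tetrahedron inscribed in the cube `[-1,1]^3`, with vertices
`(1,-1,-1), (-1,1,-1), (1,1,1), (-1,-1,1)`. -/
def tetra : Set E3 := {x | |x 0 - x 1| ≤ 1 - x 2 ∧ |x 0 + x 1| ≤ 1 + x 2}

theorem mem_tetra (x : E3) : x ∈ tetra ↔ |x 0 - x 1| ≤ 1 - x 2 ∧ |x 0 + x 1| ≤ 1 + x 2 := Iff.rfl

theorem tetra_convex : Convex ℝ tetra := by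
  intro x hx y hy a b ha hb hab
  rw [mem_tetra] at *
  rw [abs_le, abs_le] at *
  simp only [PiLp.add_apply, PiLp.smul_apply, smul_eq_mul]
  obtain ⟨⟨h1, h2⟩, h3, h4⟩ := hx
  obtain ⟨⟨k1, k2⟩, k3, k4⟩ := hy
  have e : a + b = 1 := hab
  refine ⟨⟨?_, ?_⟩, ?_, ?_⟩
  · nlinarith [mul_le_mul_of_nonneg_left h1 ha, mul_le_mul_of_nonneg_left k1 hb]
  · nlinarith [mul_le_mul_of_nonneg_left h2 ha, mul_le_mul_of_nonneg_left k2 hb]
  · nlinarith [mul_le_mul_of_nonneg_left h3 ha, mul_le_mul_of_nonneg_left k3 hb]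
  · nlinarith [mul_le_mul_of_nonneg_left h4 ha, mul_le_mul_of_nonneg_left k4 hb]

theorem tetra_closed : IsClosed tetra := by
  have h1 : IsClosed {x : E3 | |x 0 - x 1| ≤ 1 - x 2} := by
    apply isClosed_le <;> fun_prop
  have h2 : IsClosed {x : E3 | |x 0 + x 1| ≤ 1 + x 2} := by
    apply isClosed_le <;> fun_prop
  exact h1.inter h2

theorem tetra_bdd (x : E3) (hx : x ∈ tetra) : |x 0| ≤ 1 ∧ |x 1| ≤ 1 ∧ |x 2| ≤ 1 := by
  rw [mem_tetra, abs_le, abs_le] at hx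
  obtain ⟨⟨h1, h2⟩, h3, h4⟩ := hx
  refine ⟨abs_le.2 ⟨by linarith, by linarith⟩, abs_le.2 ⟨by linarith, by linarith⟩,
    abs_le.2 ⟨by linarith, by linarith⟩⟩

theorem tetra_compact : IsCompact tetra := by
  refine Metric.isCompact_of_isClosed_isBounded tetra_closed ?_
  refine (Metric.isBounded_closedBall (x := (0 : E3)) (r := 2)).subset ?_
  intro x hx
  rw [mem_closedBall_zero_iff, EuclideanSpace.norm_eq, Fin.sum_univ_three]
  obtain ⟨h0, h1, h2⟩ := tetra_bdd x hx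
  rw [Real.norm_eq_abs, Real.norm_eq_abs, Real.norm_eq_abs]
  apply Real.sqrt_le_iff.2
  constructor
  · norm_num
  · nlinarith [abs_nonneg (x 0), abs_nonneg (x 1), abs_nonneg (x 2)]

theorem tetra_interior : (interior tetra).Nonempty := by
  refine ⟨0, mem_interior.2 ⟨{x : E3 | |x 0 - x 1| < 1 - x 2} ∩ {x : E3 | |x 0 + x 1| < 1 + x 2},
    ?_, ?_, ?_⟩⟩
  · intro x hx
    exact ⟨le_of_lt hx.1, le_of_lt hx.2⟩
  · apply IsOpen.inter
    · apply isOpen_lt <;> fun_prop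
    · apply isOpen_lt <;> fun_prop
  · constructor <;> simp

theorem tetra_convexBody : IsConvexBody tetra := ⟨tetra_compact, tetra_convex, tetra_interior⟩

theorem vert1 : (!₂[1, -1, -1] : E3) ∈ tetra := by
  rw [mem_tetra]; simp; norm_num

theorem vert2 : (!₂[-1, 1, -1] : E3) ∈ tetra := by
  rw [mem_tetra]; simp; norm_num [abs_le]

theorem vert3 : (!₂[1, 1, 1] : E3) ∈ tetra := by
  rw [mem_tetra]; simp; norm_num

theorem vert4 : (!₂[-1, -1, 1] : E3) ∈ tetra := by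
  rw [mem_tetra]; simp; norm_num [abs_le]

theorem convex_coord (p q : E3) {K : Set E3} (hK : Convex ℝ K) : Convex ℝ (coord p q '' K) := by
  rintro _ ⟨x, hx, rfl⟩ _ ⟨y, hy, rfl⟩ a b ha hb hab
  refine ⟨a • x + b • y, hK hx hy ha hb hab, ?_⟩
  simp [coord, inner_add_right, inner_smul_right]

/-- The two segments bound applied to the tetrahedron: for any pair of segments spanned by points of
the tetrahedron. -/
theorem coord_area (p q : E3) {a b c d : E3} (ha : a ∈ tetra) (hb : b ∈ tetra) (hc : c ∈ tetra)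
    (hd : d ∈ tetra) :
    ENNReal.ofReal (|(inner ℝ p b - inner ℝ p a) * (inner ℝ q d - inner ℝ q c) -
      (inner ℝ q b - inner ℝ q a) * (inner ℝ p d - inner ℝ p c)| / 2) ≤
      volume (coord p q '' tetra) := by
  have h := two_segments (A := coord p q a) (B := coord p q b) (C := coord p q c)
    (D := coord p q d) (convex_coord p q tetra_convex) ⟨a, ha, rfl⟩ ⟨b, hb, rfl⟩ ⟨c, hc, rfl⟩
    ⟨d, hd, rfl⟩
  simpa only [coord] using h

/-- MODULE S2: the shadow of the tetrahedron along `(V, W, 1)` on the plane `x 2 = 0`. -/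
theorem shadowV (V W : ℝ) :
    4 ≤ volume ((fun x : E3 => (x 0 - V * x 2, x 1 - W * x 2)) '' tetra) := by
  have hX : Convex ℝ ((fun x : E3 => (x 0 - V * x 2, x 1 - W * x 2)) '' tetra) := by
    rintro _ ⟨x, hx, rfl⟩ _ ⟨y, hy, rfl⟩ a b ha hb hab
    refine ⟨a • x + b • y, tetra_convex hx hy ha hb hab, ?_⟩
    simp
    constructor <;> ring
  have h := two_segments hX (Set.mem_image_of_mem _ vert1) (Set.mem_image_of_mem _ vert2)
    (Set.mem_image_of_mem _ vert3) (Set.mem_image_of_mem _ vert4)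
  refine le_trans (le_of_eq ?_) h
  simp
  norm_num

/-- MODULE S3: the shadow of the tetrahedron along `(1, t, 0)`. -/
theorem shadowH (t : ℝ) :
    4 ≤ volume ((fun x : E3 => (x 1 - t * x 0, x 2)) '' tetra) := by
  have hX : Convex ℝ ((fun x : E3 => (x 1 - t * x 0, x 2)) '' tetra) := by
    rintro _ ⟨x, hx, rfl⟩ _ ⟨y, hy, rfl⟩ a b ha hb hab
    refine ⟨a • x + b • y, tetra_convex hx hy ha hb hab, ?_⟩
    simp
    ring
  have h := two_segments hX (Set.mem_image_of_mem _ vert1) (Set.mem_image_of_mem _ vert3)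
    (Set.mem_image_of_mem _ vert2) (Set.mem_image_of_mem _ vert4)
  refine le_trans (le_of_eq ?_) h
  simp
  norm_num

/-- Area of the shadow from below: a pair of segments. -/
theorem shadow_area_ge (u p q : E3) (l : ℝ) (hl : l ≠ 0) (hu : ‖u‖ = 1)
    (hp : inner ℝ p u = 0) (hq : inner ℝ q u = 0)
    (h0 : p 1 * q 2 - p 2 * q 1 = l * u 0) (h1 : p 2 * q 0 - p 0 * q 2 = l * u 1)
    (h2 : p 0 * q 1 - p 1 * q 0 = l * u 2) {a b c d : E3} (ha : a ∈ tetra) (hb : b ∈ tetra)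
    (hc : c ∈ tetra) (hd : d ∈ tetra) :
    ENNReal.ofReal (|u 0 * ((b 1 - a 1) * (d 2 - c 2) - (b 2 - a 2) * (d 1 - c 1)) +
      u 1 * ((b 2 - a 2) * (d 0 - c 0) - (b 0 - a 0) * (d 2 - c 2)) +
      u 2 * ((b 0 - a 0) * (d 1 - c 1) - (b 1 - a 1) * (d 0 - c 0))| / 2) ≤
      planarArea u (shadow u tetra) := by
  have hun : u 0 ^ 2 + u 1 ^ 2 + u 2 ^ 2 = 1 := by
    have h := hu
    rw [EuclideanSpace.norm_eq, Real.sqrt_eq_one, Fin.sum_univ_three] at h
    simpa using h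
  have hgram : gram p q = l ^ 2 := by
    have e1 : gram p q = (p 1 * q 2 - p 2 * q 1) ^ 2 + (p 2 * q 0 - p 0 * q 2) ^ 2 +
        (p 0 * q 1 - p 1 * q 0) ^ 2 := by
      rw [gram, ← real_inner_self_eq_norm_sq, ← real_inner_self_eq_norm_sq]
      simp only [PiLp.inner_apply, Fin.sum_univ_three, RCLike.inner_apply, conj_trivial]
      ring
    rw [e1, h0, h1, h2]
    linear_combination l ^ 2 * hun
  have hg : 0 < gram p q := by rw [hgram]; positivity
  rw [planarArea_shadow u p q hu hp hq hg]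
  refine le_trans ?_ (mul_le_mul_right (coord_area p q ha hb hc hd) _)
  rw [← ENNReal.ofReal_mul (by positivity)]
  apply ENNReal.ofReal_le_ofReal
  rw [hgram, Real.sqrt_sq_eq_abs]
  have e2 : (inner ℝ p b - inner ℝ p a) * (inner ℝ q d - inner ℝ q c) -
      (inner ℝ q b - inner ℝ q a) * (inner ℝ p d - inner ℝ p c) =
      l * (u 0 * ((b 1 - a 1) * (d 2 - c 2) - (b 2 - a 2) * (d 1 - c 1)) +
      u 1 * ((b 2 - a 2) * (d 0 - c 0) - (b 0 - a 0) * (d 2 - c 2)) +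
      u 2 * ((b 0 - a 0) * (d 1 - c 1) - (b 1 - a 1) * (d 0 - c 0))) := by
    simp only [PiLp.inner_apply, Fin.sum_univ_three, RCLike.inner_apply, conj_trivial]
    linear_combination ((b 1 - a 1) * (d 2 - c 2) - (b 2 - a 2) * (d 1 - c 1)) * h0 +
      ((b 2 - a 2) * (d 0 - c 0) - (b 0 - a 0) * (d 2 - c 2)) * h1 +
      ((b 0 - a 0) * (d 1 - c 1) - (b 1 - a 1) * (d 0 - c 0)) * h2
  rw [e2, abs_mul]
  have hl' : |l| ≠ 0 := abs_ne_zero.2 hl
  apply le_of_eq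
  field_simp

theorem exists_cross (u : E3) (hu : ‖u‖ = 1) : ∃ (p q : E3) (l : ℝ), l ≠ 0 ∧
    inner ℝ p u = 0 ∧ inner ℝ q u = 0 ∧
    p 1 * q 2 - p 2 * q 1 = l * u 0 ∧ p 2 * q 0 - p 0 * q 2 = l * u 1 ∧
    p 0 * q 1 - p 1 * q 0 = l * u 2 := by
  have hun : u 0 ^ 2 + u 1 ^ 2 + u 2 ^ 2 = 1 := by
    have h := hu
    rw [EuclideanSpace.norm_eq, Real.sqrt_eq_one, Fin.sum_univ_three] at h
    simpa using h
  by_cases c2 : u 2 = 0
  · by_cases c1 : u 1 = 0
    · have c0 : u 0 ≠ 0 := by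
        intro h
        rw [h, c1, c2] at hun
        norm_num at hun
      refine ⟨!₂[-u 1, u 0, 0], !₂[-u 2, 0, u 0], u 0, c0, ?_, ?_, ?_, ?_, ?_⟩
      · simp [PiLp.inner_apply, Fin.sum_univ_three]; ring
      · simp [PiLp.inner_apply, Fin.sum_univ_three]; ring
      all_goals simp
      all_goals ring
    · refine ⟨!₂[0, -u 2, u 1], !₂[u 1, -u 0, 0], u 1, c1, ?_, ?_, ?_, ?_, ?_⟩
      · simp [PiLp.inner_apply, Fin.sum_univ_three]; ring
      · simp [PiLp.inner_apply, Fin.sum_univ_three]; ring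
      all_goals simp
      all_goals ring
  · refine ⟨!₂[u 2, 0, -u 0], !₂[0, u 2, -u 1], u 2, c2, ?_, ?_, ?_, ?_, ?_⟩
    · simp [PiLp.inner_apply, Fin.sum_univ_three]; ring
    · simp [PiLp.inner_apply, Fin.sum_univ_three]; ring
    all_goals simp
    all_goals ring

/-- MODULE S4 (for the `A_min` version). -/
theorem Amin_tetra : ENNReal.ofReal (2 * √2) ≤ Amin tetra := by
  refine le_iInf fun u => le_iInf fun hu => ?_
  obtain ⟨p, q, l, hl, hp, hq, h0, h1, h2⟩ := exists_cross u hu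
  have hun : u 0 ^ 2 + u 1 ^ 2 + u 2 ^ 2 = 1 := by
    have h := hu
    rw [EuclideanSpace.norm_eq, Real.sqrt_eq_one, Fin.sum_univ_three] at h
    simpa using h
  by_cases htop : planarArea u (shadow u tetra) = ⊤
  · rw [htop]; exact le_top
  set X : ℝ := (planarArea u (shadow u tetra)).toReal with hX
  have hA : planarArea u (shadow u tetra) = ENNReal.ofReal X := (ENNReal.ofReal_toReal htop).symm
  have key : ∀ {a b c d : E3} (ha : a ∈ tetra) (hb : b ∈ tetra) (hc : c ∈ tetra) (hd : d ∈ tetra),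
      |u 0 * ((b 1 - a 1) * (d 2 - c 2) - (b 2 - a 2) * (d 1 - c 1)) +
      u 1 * ((b 2 - a 2) * (d 0 - c 0) - (b 0 - a 0) * (d 2 - c 2)) +
      u 2 * ((b 0 - a 0) * (d 1 - c 1) - (b 1 - a 1) * (d 0 - c 0))| / 2 ≤ X := by
    intro a b c d ha hb hc hd
    have h := shadow_area_ge u p q l hl hu hp hq h0 h1 h2 ha hb hc hd
    rw [hA] at h
    exact (ENNReal.ofReal_le_ofReal_iff ENNReal.toReal_nonneg).1 h
  have k2 := key vert1 vert2 vert3 vert4
  have k0 := key vert1 vert3 vert2 vert4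
  have k1 := key vert1 vert4 vert2 vert3
  have f1 := key vert1 vert2 vert1 vert3
  have f2 := key vert1 vert2 vert1 vert4
  have f3 := key vert1 vert3 vert1 vert4
  have f4 := key vert2 vert3 vert2 vert4
  simp only [PiLp.toLp_apply, Matrix.cons_val_zero, Matrix.cons_val_one, Matrix.cons_val] at k0 k1 k2 f1 f2 f3 f4
  have g0 : |8 * u 0| ≤ 2 * X := by
    have : u 0 * ((1 - -1) * (1 - -1) - (1 - -1) * (-1 - 1)) +
      u 1 * ((1 - -1) * (-1 - -1) - (1 - 1) * (1 - -1)) +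
      u 2 * ((1 - 1) * (-1 - 1) - (1 - -1) * (-1 - -1)) = 8 * u 0 := by ring
    rw [this] at k0
    linarith
  have g1 : |8 * u 1| ≤ 2 * X := by
    have : u 0 * ((-1 - -1) * (1 - -1) - (1 - -1) * (1 - 1)) +
      u 1 * ((1 - -1) * (1 - -1) - (-1 - 1) * (1 - -1)) +
      u 2 * ((-1 - 1) * (1 - 1) - (-1 - -1) * (1 - -1)) = 8 * u 1 := by ring
    rw [this] at k1
    linarith
  have g2 : |8 * u 2| ≤ 2 * X := by
    have : u 0 * ((1 - -1) * (1 - 1) - (-1 - -1) * (-1 - 1)) +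
      u 1 * ((-1 - -1) * (-1 - 1) - (-1 - 1) * (1 - 1)) +
      u 2 * ((-1 - 1) * (-1 - 1) - (1 - -1) * (-1 - 1)) = 8 * u 2 := by ring
    rw [this] at k2
    linarith
  have l1 : |4 * u 0 + 4 * u 1 - 4 * u 2| ≤ 2 * X := by
    have : u 0 * ((1 - -1) * (1 - -1) - (-1 - -1) * (1 - -1)) +
      u 1 * ((-1 - -1) * (1 - 1) - (-1 - 1) * (1 - -1)) +
      u 2 * ((-1 - 1) * (1 - -1) - (1 - -1) * (1 - 1)) = 4 * u 0 + 4 * u 1 - 4 * u 2 := by ring
    rw [this] at f1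
    linarith
  have l2 : |4 * u 0 + 4 * u 1 + 4 * u 2| ≤ 2 * X := by
    have : u 0 * ((1 - -1) * (1 - -1) - (-1 - -1) * (-1 - -1)) +
      u 1 * ((-1 - -1) * (-1 - 1) - (-1 - 1) * (1 - -1)) +
      u 2 * ((-1 - 1) * (-1 - -1) - (1 - -1) * (-1 - 1)) = 4 * u 0 + 4 * u 1 + 4 * u 2 := by ring
    rw [this] at f2
    linarith
  have l3 : |4 * u 0 - 4 * u 1 + 4 * u 2| ≤ 2 * X := by
    have : u 0 * ((1 - -1) * (1 - -1) - (1 - -1) * (-1 - -1)) +
      u 1 * ((1 - -1) * (-1 - 1) - (1 - 1) * (1 - -1)) +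
      u 2 * ((1 - 1) * (-1 - -1) - (1 - -1) * (-1 - 1)) = 4 * u 0 - 4 * u 1 + 4 * u 2 := by ring
    rw [this] at f3
    linarith
  have l4 : |4 * u 0 - 4 * u 1 - 4 * u 2| ≤ 2 * X := by
    have : u 0 * ((1 - 1) * (1 - -1) - (1 - -1) * (-1 - 1)) +
      u 1 * ((1 - -1) * (-1 - -1) - (1 - -1) * (1 - -1)) +
      u 2 * ((1 - -1) * (-1 - 1) - (1 - 1) * (-1 - -1)) = 4 * u 0 - 4 * u 1 - 4 * u 2 := by ring
    rw [this] at f4
    linarith
  rw [abs_mul, abs_of_pos (by norm_num : (0 : ℝ) < 8)] at g0 g1 g2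
  have hS : 2 * (|u 0| + |u 1| + |u 2|) ≤ X := by
    rw [abs_le] at l1 l2 l3 l4
    rcases abs_cases (u 0) with h0 | h0 <;> rcases abs_cases (u 1) with h1 | h1 <;>
      rcases abs_cases (u 2) with h2 | h2 <;>
      linarith [l1.1, l1.2, l2.1, l2.2, l3.1, l3.2, l4.1, l4.2]
  have hXX : 8 ≤ X * X := by
    have e0 : (u 0) ^ 2 = |u 0| * |u 0| := by rw [← sq, sq_abs]
    have e1 : (u 1) ^ 2 = |u 1| * |u 1| := by rw [← sq, sq_abs]
    have e2 : (u 2) ^ 2 = |u 2| * |u 2| := by rw [← sq, sq_abs]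
    have hX0 : 0 ≤ X := ENNReal.toReal_nonneg
    have a0 := mul_le_mul_of_nonneg_left (show 4 * |u 0| ≤ X by linarith) (abs_nonneg (u 0))
    have a1 := mul_le_mul_of_nonneg_left (show 4 * |u 1| ≤ X by linarith) (abs_nonneg (u 1))
    have a2 := mul_le_mul_of_nonneg_left (show 4 * |u 2| ≤ X by linarith) (abs_nonneg (u 2))
    have a3 := mul_le_mul_of_nonneg_right hS hX0
    nlinarith
  rw [hA]
  apply ENNReal.ofReal_le_ofReal
  have hX0 : 0 ≤ X := ENNReal.toReal_nonneg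
  have h8 : (2 * √2) ^ 2 = 8 := by
    rw [mul_pow, Real.sq_sqrt (by norm_num)]; norm_num
  have : (2 * √2) ^ 2 ≤ X ^ 2 := by rw [h8]; nlinarith
  exact le_of_sq_le_sq this hX0

end Vale.Agent.P243
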