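import Vale.Agent.P243.BangB
import Vale.Agent.P243.BangC
import Vale.Agent.P243.Shadow
import Vale.Agent.P243.Assembly

namespace Vale.Agent.P243

open MeasureTheory

/-- Tubes of the fan around the lower edge. -/
theorem exists_tubeE (s p : ℝ) (D : Set (ℝ × ℝ)) (hD : MeasurableSet D) (hfin : volume D ≠ ⊤) :
    ∃ C : Cylinder, (∀ x : E3, x ∈ C.carrier ↔
        (-x 1 - p * (x 0 + x 2), (x 2 - x 0) - s * (x 0 + x 2)) ∈ D) ∧
      C.area = ENNReal.ofReal (1 / √(2 * (1 + s ^ 2 + 2 * p ^ 2))) * volume D := by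
  have hcoord : ∀ x : E3, coord (!₂[-p, -1, -p]) (!₂[-(1 + s), 0, 1 - s]) x =
      (-x 1 - p * (x 0 + x 2), (x 2 - x 0) - s * (x 0 + x 2)) := by
    intro x
    simp [coord, PiLp.inner_apply, Fin.sum_univ_three]
    constructor <;> ring
  have hgram : gram (!₂[-p, -1, -p]) (!₂[-(1 + s), 0, 1 - s]) = 2 * (1 + s ^ 2 + 2 * p ^ 2) := by
    simp [gram, EuclideanSpace.norm_eq, PiLp.inner_apply, Fin.sum_univ_three]
    rw [Real.sq_sqrt (by positivity), Real.sq_sqrt (by positivity)]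
    ring
  have hpos : 0 < gram (!₂[-p, -1, -p]) (!₂[-(1 + s), 0, 1 - s]) := by rw [hgram]; positivity
  obtain ⟨C, h1, h2, _⟩ := exists_cylinder (!₂[1 - s, -2 * p, 1 + s]) (!₂[-p, -1, -p])
    (!₂[-(1 + s), 0, 1 - s])
    (by
      intro h
      have h0 := congrFun (congrArg (fun z : E3 => (z : Fin 3 → ℝ)) h) 0
      have h2 := congrFun (congrArg (fun z : E3 => (z : Fin 3 → ℝ)) h) 2
      simp at h0 h2
      linarith)
    (by simp [PiLp.inner_apply, Fin.sum_univ_three]; ring)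
    (by simp [PiLp.inner_apply, Fin.sum_univ_three]; ring) hpos D hD hfin
  refine ⟨C, fun x => by rw [h1, hcoord], ?_⟩
  rw [h2, hgram]

/-- Tubes of the fan around the upper edge. -/
theorem exists_tubeF (s p : ℝ) (D : Set (ℝ × ℝ)) (hD : MeasurableSet D) (hfin : volume D ≠ ⊤) :
    ∃ C : Cylinder, (∀ x : E3, x ∈ C.carrier ↔
        (x 1 - p * (x 2 - x 0), (x 0 + x 2) - s * (x 2 - x 0)) ∈ D) ∧
      C.area = ENNReal.ofReal (1 / √(2 * (1 + s ^ 2 + 2 * p ^ 2))) * volume D := by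
  have hcoord : ∀ x : E3, coord (!₂[p, 1, -p]) (!₂[1 + s, 0, 1 - s]) x =
      (x 1 - p * (x 2 - x 0), (x 0 + x 2) - s * (x 2 - x 0)) := by
    intro x
    simp [coord, PiLp.inner_apply, Fin.sum_univ_three]
    constructor <;> ring
  have hgram : gram (!₂[p, 1, -p]) (!₂[1 + s, 0, 1 - s]) = 2 * (1 + s ^ 2 + 2 * p ^ 2) := by
    simp [gram, EuclideanSpace.norm_eq, PiLp.inner_apply, Fin.sum_univ_three]
    rw [Real.sq_sqrt (by positivity), Real.sq_sqrt (by positivity)]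
    ring
  have hpos : 0 < gram (!₂[p, 1, -p]) (!₂[1 + s, 0, 1 - s]) := by rw [hgram]; positivity
  obtain ⟨C, h1, h2, _⟩ := exists_cylinder (!₂[s - 1, 2 * p, 1 + s]) (!₂[p, 1, -p])
    (!₂[1 + s, 0, 1 - s])
    (by
      intro h
      have h0 := congrFun (congrArg (fun z : E3 => (z : Fin 3 → ℝ)) h) 0
      have h2 := congrFun (congrArg (fun z : E3 => (z : Fin 3 → ℝ)) h) 2
      simp at h0 h2
      linarith)
    (by simp [PiLp.inner_apply, Fin.sum_univ_three]; ring)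
    (by simp [PiLp.inner_apply, Fin.sum_univ_three]; ring) hpos D hD hfin
  refine ⟨C, fun x => by rw [h1, hcoord], ?_⟩
  rw [h2, hgram]

/-- Strips. -/
theorem exists_strip (c a b z : ℝ) (hab : a ≤ b) (hz : 0 ≤ z) :
    ∃ C : Cylinder, (∀ x : E3, a ≤ 2 * x 2 → 2 * x 2 ≤ b →
        |-x 1 - c * (2 * x 0)| ≤ z → x ∈ C.carrier) ∧
      C.area ≤ ENNReal.ofReal ((b - a) * z) := by
  have hcoord : ∀ x : E3, coord (!₂[0, 0, 2]) (!₂[-2 * c, -1, 0]) x =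
      (2 * x 2, -x 1 - c * (2 * x 0)) := by
    intro x
    simp [coord, PiLp.inner_apply, Fin.sum_univ_three]
    constructor <;> ring
  have hgram : gram (!₂[0, 0, 2]) (!₂[-2 * c, -1, 0]) = 4 * (1 + 4 * c ^ 2) := by
    simp [gram, EuclideanSpace.norm_eq, PiLp.inner_apply, Fin.sum_univ_three]
    rw [Real.sq_sqrt (by positivity)]
    ring
  have hpos : 0 < gram (!₂[0, 0, 2]) (!₂[-2 * c, -1, 0]) := by rw [hgram]; positivity
  obtain ⟨C, h1, h2, _⟩ := exists_cylinder (!₂[1, -2 * c, 0]) (!₂[0, 0, 2])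
    (!₂[-2 * c, -1, 0])
    (by
      intro h
      have h0 := congrFun (congrArg (fun z : E3 => (z : Fin 3 → ℝ)) h) 0
      simp at h0)
    (by simp [PiLp.inner_apply, Fin.sum_univ_three])
    (by simp [PiLp.inner_apply, Fin.sum_univ_three]) hpos (Set.Icc a b ×ˢ Set.Icc (-z) z)
    (measurableSet_Icc.prod measurableSet_Icc) (by
      rw [volume_rect]; exact ENNReal.mul_ne_top ENNReal.ofReal_ne_top ENNReal.ofReal_ne_top)
  refine ⟨C, fun x h3 h4 h5 => (h1 x).2 ?_, ?_⟩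
  · rw [hcoord]
    exact ⟨⟨h3, h4⟩, abs_le.1 h5⟩
  · rw [h2, volume_rect, ← ENNReal.ofReal_mul (by linarith), ← ENNReal.ofReal_mul (by positivity)]
    apply ENNReal.ofReal_le_ofReal
    rw [hgram]
    have hs : 2 ≤ √(4 * (1 + 4 * c ^ 2)) := by
      apply Real.le_sqrt_of_sq_le
      nlinarith [sq_nonneg c]
    have h6 : 1 / √(4 * (1 + 4 * c ^ 2)) ≤ 1 / 2 := one_div_le_one_div_of_le (by norm_num) hs
    have h7 : 0 ≤ (b - a) * (z - -z) := mul_nonneg (by linarith) (by linarith)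
    calc 1 / √(4 * (1 + 4 * c ^ 2)) * ((b - a) * (z - -z)) ≤ 1 / 2 * ((b - a) * (z - -z)) := by
          gcongr
      _ = (b - a) * z := by ring

/-- Membership in the tube, real version. -/
def InTube (N : ℕ) (r : ℝ) (i : ℕ) (P Q Z : ℝ) : Prop :=
  (Z - rho r (mm N i) * P, Q - sigN N r (mm N i) * P) ∈
    wedge (mm N i - 1 / N) (mm N i + 1 / N) (hh r (mm N i))

theorem mm_abs (N i : ℕ) (hN : 0 < N) (hi : i < N) : |mm N i| ≤ 1 ∧ -1 ≤ mm N i - 1 / N ∧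
    mm N i + 1 / N ≤ 1 := by
  have hN0 : (0 : ℝ) < N := by exact_mod_cast hN
  have hi1 : (i : ℝ) + 1 ≤ N := by exact_mod_cast hi
  have hi0 : (0 : ℝ) ≤ i := Nat.cast_nonneg i
  have h1 : mm N i - 1 / N = -1 + 2 * i / N := by unfold mm; ring
  have h2 : mm N i + 1 / N = -1 + 2 * (i + 1) / N := by unfold mm; ring
  have h3 : 0 ≤ 2 * (i : ℝ) / N := by positivity
  have h4 : 2 * ((i : ℝ) + 1) / N ≤ 2 := by
    rw [div_le_iff₀ hN0]; linarith
  have h5 : 0 < 1 / (N : ℝ) := by positivity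
  refine ⟨abs_le.2 ⟨by linarith, by linarith⟩, by linarith, by linarith⟩

theorem uncovered (N : ℕ) (hN : 0 < N) (r P Q Z : ℝ) (hr : 0 < r) (hr1 : r ≤ 1 / 1000)
    (hNr : 1 / (N : ℝ) ≤ r ^ 3) (hP : |P| ≤ 1 - Z) (hQ : |Q| ≤ 1 + Z)
    (hnot : ∀ i < N, ¬ InTube N r i P Q Z) :
    |P| ≤ 1 + 4 * r ∧ -(210 * r ^ 3) ≤ Z - cc r (P + Q) * (P - Q) + zz r (P + Q) := by
  have hN0 : (0 : ℝ) < N := by exact_mod_cast hN
  obtain ⟨i, hi, h1, h2⟩ := fan N hN r P Q Z hQ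
  obtain ⟨hm, hma, hmb⟩ := mm_abs N i hN hi
  have h5 : 0 < 1 / (N : ℝ) := by positivity
  set m := mm N i with hmdef
  set H : ℝ := 1 + Z - P * rho r m with hH
  have hH0 : 0 ≤ H := by
    by_contra hcon
    push Not at hcon
    nlinarith
  have hZ1 : -1 ≤ Z := by have := abs_nonneg Q; linarith
  have hP2 : |P| ≤ 2 := by linarith
  obtain ⟨c1, c2, c3, c4, c5, c6⟩ := bounds r m P hr hr1 hm hP2
  have hHh : hh r m < H := by
    by_contra hcon
    push Not at hcon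
    apply hnot i hi
    unfold InTube wedge
    rw [← hmdef]
    refine ⟨?_, ?_, ?_, ?_⟩
    · show 0 ≤ 1 + (Z - rho r m * P)
      linarith
    · show 1 + (Z - rho r m * P) ≤ hh r m
      linarith
    · show (m - 1 / N) * (1 + (Z - rho r m * P)) ≤ Q - sigN N r m * P
      have : 1 + (Z - rho r m * P) = H := by rw [hH]; ring
      rw [this]
      linarith
    · show Q - sigN N r m * P ≤ (m + 1 / N) * (1 + (Z - rho r m * P))
      have : 1 + (Z - rho r m * P) = H := by rw [hH]; ring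
      rw [this]
      linarith
  have hHpos : 0 < H := by linarith
  refine key r m P ((Q - P * sigN N r m) / H) (sigN N r m) (H - hh r m) Z Q hr hr1 hm ?_ ?_
    (sigN_close N hN r m hr hr1 hm hNr) (by linarith) (by rw [hH]; ring) ?_ hP hQ
  · have e1 : m - 1 / N ≤ (Q - P * sigN N r m) / H := by rw [le_div_iff₀ hHpos]; exact h1
    have e2 : (Q - P * sigN N r m) / H ≤ m + 1 / N := by rw [div_le_iff₀ hHpos]; exact h2
    rw [abs_le]
    constructor <;> linarith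
  · have e1 : m - 1 / N ≤ (Q - P * sigN N r m) / H := by rw [le_div_iff₀ hHpos]; exact h1
    have e2 : (Q - P * sigN N r m) / H ≤ m + 1 / N := by rw [div_le_iff₀ hHpos]; exact h2
    rw [abs_le]
    constructor <;> linarith
  · have : hh r m + (H - hh r m) = H := by ring
    rw [this, div_mul_cancel₀ _ hHpos.ne']
    ring

theorem cc_lip (r x y : ℝ) (hr : 0 < r) (hr1 : r ≤ 1 / 1000) (hx : |x| ≤ 3) (hy : |y| ≤ 3) :
    |cc r x - cc r y| ≤ r * |x - y| := by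
  have hid : cc r x - cc r y = (-(r / 2) + r ^ 2 * (-(7 / 12) + (x ^ 2 + x * y + y ^ 2) / 6)) *
      (x - y) := by unfold cc; ring
  rw [hid, abs_mul]
  apply mul_le_mul_of_nonneg_right _ (abs_nonneg _)
  have hx2 : x ^ 2 ≤ 9 := by rw [← sq_abs]; nlinarith [abs_nonneg x]
  have hy2 : y ^ 2 ≤ 9 := by rw [← sq_abs]; nlinarith [abs_nonneg y]
  have h1 : x ^ 2 + x * y + y ^ 2 ≤ 27 := by nlinarith [sq_nonneg (x - y)]
  have h2 : 0 ≤ x ^ 2 + x * y + y ^ 2 := by nlinarith [sq_nonneg (x + y), sq_nonneg x, sq_nonneg y]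
  have hr2 : r ^ 2 ≤ 1 / 1000 * r := by nlinarith
  have h3 := mul_le_mul_of_nonneg_left h1 (sq_nonneg r)
  have h4 := mul_nonneg (sq_nonneg r) h2
  rw [abs_le]
  constructor <;> nlinarith

theorem zz_lip (r x y : ℝ) (hr : 0 < r) (hr1 : r ≤ 1 / 1000) (hx : |x| ≤ 3) (hy : |y| ≤ 3) :
    |zz r x - zz r y| ≤ 4 * r * |x - y| := by
  have hid : zz r x - zz r y = (-(r / 2) * (x + y) + r ^ 2 * ((x + y) * (x ^ 2 + y ^ 2) / 12)) *
      (x - y) := by unfold zz; ring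
  rw [hid, abs_mul]
  apply mul_le_mul_of_nonneg_right _ (abs_nonneg _)
  have hx2 : x ^ 2 ≤ 9 := by rw [← sq_abs]; nlinarith [abs_nonneg x]
  have hy2 : y ^ 2 ≤ 9 := by rw [← sq_abs]; nlinarith [abs_nonneg y]
  have hxy : |x + y| ≤ 6 := (abs_add_le _ _).trans (by linarith)
  have t1 : |-(r / 2) * (x + y)| ≤ 3 * r := by
    rw [abs_mul, abs_neg, abs_of_pos (by linarith : 0 < r / 2)]
    nlinarith
  have t2 : |r ^ 2 * ((x + y) * (x ^ 2 + y ^ 2) / 12)| ≤ 9 * r ^ 2 := by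
    rw [abs_mul, abs_of_nonneg (sq_nonneg r), abs_div, abs_mul,
      abs_of_nonneg (by positivity : 0 ≤ x ^ 2 + y ^ 2)]
    have h12 : |(12 : ℝ)| = 12 := abs_of_pos (by norm_num)
    rw [h12]
    have : |x + y| * (x ^ 2 + y ^ 2) ≤ 6 * 18 :=
      mul_le_mul hxy (by linarith) (by positivity) (by norm_num)
    nlinarith [sq_nonneg r]
  refine (abs_add_le _ _).trans ?_
  nlinarith

theorem exists_cell (N : ℕ) (hN : 0 < N) (x : ℝ) (hx : |x| ≤ 1) :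
    ∃ j < N, |x - mm N j| ≤ 1 / N := by
  have hN0 : (0 : ℝ) < N := by exact_mod_cast hN
  rw [abs_le] at hx
  rcases eq_or_lt_of_le hx.2 with h | h
  · refine ⟨N - 1, by omega, ?_⟩
    unfold mm
    rw [Nat.cast_sub (by omega), h]
    push_cast
    have : (1 : ℝ) - (-1 + (2 * ((N : ℝ) - 1) + 1) / N) = 1 / N := by field_simp; ring
    rw [this, abs_of_pos (by positivity)]
  · refine ⟨⌊(N : ℝ) * (x + 1) / 2⌋₊, ?_, ?_⟩
    · rw [Nat.floor_lt (by have : 0 ≤ x + 1 := by linarith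
                           positivity)]
      nlinarith
    · have h0 : 0 ≤ (N : ℝ) * (x + 1) / 2 := by
        have : 0 ≤ x + 1 := by linarith
        positivity
      have h1 := Nat.floor_le h0
      have h2 := Nat.lt_floor_add_one ((N : ℝ) * (x + 1) / 2)
      set j : ℝ := ((⌊(N : ℝ) * (x + 1) / 2⌋₊ : ℕ) : ℝ) with hj
      unfold mm
      rw [← hj]
      have e : x - (-1 + (2 * j + 1) / N) = (N * (x + 1) - (2 * j + 1)) / N := by
        field_simp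
        ring
      rw [e, abs_div, abs_of_pos hN0]
      gcongr
      rw [abs_le]
      constructor <;> linarith

theorem sqrt2_facts : √2 ^ 2 = 2 ∧ 0 < √2 ∧ √2 ≤ 3 / 2 ∧ √2 ^ 4 = 4 ∧ 14 / 10 ≤ √2 := by
  have hs2 : √2 ^ 2 = 2 := Real.sq_sqrt (by norm_num)
  refine ⟨hs2, by positivity, ?_, ?_, ?_⟩
  · rw [Real.sqrt_le_left (by norm_num)]; norm_num
  · have : √2 ^ 4 = (√2 ^ 2) ^ 2 := by ring
    rw [this, hs2]; norm_num
  · apply Real.le_sqrt_of_sq_le; norm_num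

theorem zz_sqrt (r t : ℝ) : zz r (√2 * t) = r * (1 - t ^ 2) + r ^ 2 / 3 * t ^ 4 := by
  obtain ⟨hs2, _, _, hs4, _⟩ := sqrt2_facts
  unfold zz
  rw [mul_pow, mul_pow, hs2, hs4]
  ring

theorem x_bound (r x : ℝ) (hr : 0 < r) (hr1 : r ≤ 1 / 1000) (hx2 : x ^ 2 ≤ 21 / 10)
    (hz0 : 0 ≤ zz r (√2 * x) + 210 * r ^ 3) : |x| ≤ 1 + r := by
  rw [zz_sqrt] at hz0
  have hr3' : r ^ 3 ≤ 1 / 1000 * r ^ 2 := by nlinarith [sq_nonneg r]
  have hx4 : x ^ 4 ≤ 9 / 2 := by nlinarith [sq_nonneg x]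
  have h4 : r ^ 2 / 3 * x ^ 4 ≤ r ^ 2 / 3 * (9 / 2) := by gcongr
  have h5 : r * x ^ 2 ≤ r * (1 + 2 * r) := by nlinarith
  have h6 : x ^ 2 ≤ 1 + 2 * r := le_of_mul_le_mul_left h5 hr
  have h7 : |x| ^ 2 ≤ (1 + r) ^ 2 := by rw [sq_abs]; nlinarith
  exact le_of_sq_le_sq h7 (by linarith)

theorem strip_in (N : ℕ) (hN : 0 < N) (r x d Z : ℝ) (hr : 0 < r) (hr1 : r ≤ 1 / 1000)
    (hNr : 1 / (N : ℝ) ≤ r ^ 3) (hx' : |x| ≤ 1) (hd3 : |d| ≤ 3)
    (h1 : |Z - cc r (√2 * x) * d| ≤ zz r (√2 * x) + 210 * r ^ 3) :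
    ∃ j < N, √2 * (mm N j - 1 / N) ≤ √2 * x ∧ √2 * x ≤ √2 * (mm N j + 1 / N) ∧
      |Z - cc r (√2 * mm N j) * d| ≤
        r * (1 - (mm N j) ^ 2) + r ^ 2 / 3 * (mm N j) ^ 4 + 230 * r ^ 3 := by
  obtain ⟨hs2, hs0, hs1, hs4, _⟩ := sqrt2_facts
  have hr3 : 0 < r ^ 3 := pow_pos hr 3
  obtain ⟨j, hj, hxj⟩ := exists_cell N hN x hx'
  obtain ⟨hm, hma, hmb⟩ := mm_abs N j hN hj
  set m := mm N j with hmdef
  have hxj' := abs_le.1 hxj
  have hm3 : |√2 * m| ≤ 3 := by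
    rw [abs_mul, abs_of_pos hs0]
    nlinarith [abs_nonneg m]
  have hy3 : |√2 * x| ≤ 3 := by
    rw [abs_mul, abs_of_pos hs0]
    nlinarith [abs_nonneg x]
  have e1 := cc_lip r (√2 * x) (√2 * m) hr hr1 hy3 hm3
  have e2 := zz_lip r (√2 * x) (√2 * m) hr hr1 hy3 hm3
  have e3 : |√2 * x - √2 * m| ≤ 3 / 2 * r ^ 3 := by
    rw [← mul_sub, abs_mul, abs_of_pos hs0]
    exact mul_le_mul hs1 (hxj.trans hNr) (abs_nonneg _) (by norm_num)
  have e4 : |(cc r (√2 * x) - cc r (√2 * m)) * d| ≤ r ^ 3 := by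
    rw [abs_mul]
    have f1 : |cc r (√2 * x) - cc r (√2 * m)| ≤ r * (3 / 2 * r ^ 3) :=
      e1.trans (mul_le_mul_of_nonneg_left e3 hr.le)
    have f2 : |cc r (√2 * x) - cc r (√2 * m)| * |d| ≤ (r * (3 / 2 * r ^ 3)) * 3 :=
      mul_le_mul f1 hd3 (abs_nonneg _) (by positivity)
    have f3 : (r * (3 / 2 * r ^ 3)) * 3 = (9 / 2 * r) * r ^ 3 := by ring
    have f4 : (9 / 2 * r) * r ^ 3 ≤ 1 * r ^ 3 :=
      mul_le_mul_of_nonneg_right (by linarith) hr3.le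
    linarith
  have e5 : |zz r (√2 * x) - zz r (√2 * m)| ≤ r ^ 3 := by
    have f1 : |zz r (√2 * x) - zz r (√2 * m)| ≤ 4 * r * (3 / 2 * r ^ 3) :=
      e2.trans (mul_le_mul_of_nonneg_left e3 (by positivity))
    have f3 : 4 * r * (3 / 2 * r ^ 3) = (6 * r) * r ^ 3 := by ring
    have f4 : (6 * r) * r ^ 3 ≤ 1 * r ^ 3 :=
      mul_le_mul_of_nonneg_right (by linarith) hr3.le
    linarith
  refine ⟨j, hj, ?_, ?_, ?_⟩
  · gcongr; linarith
  · gcongr; linarith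
  · rw [zz_sqrt r m] at e5
    have e6 : Z - cc r (√2 * m) * d =
        (Z - cc r (√2 * x) * d) + (cc r (√2 * x) - cc r (√2 * m)) * d := by ring
    rw [← hmdef, e6]
    refine (abs_add_le _ _).trans ?_
    have e7 := (abs_le.1 e5).2
    linarith

theorem strip_out (r x d Z : ℝ) (hr : 0 < r) (hr1 : r ≤ 1 / 1000) (hx' : 1 < |x|)
    (hx1 : |x| ≤ 1 + r) (hd3 : |d| ≤ 3)
    (h1 : |Z - cc r (√2 * x) * d| ≤ zz r (√2 * x) + 210 * r ^ 3) (s : ℝ) (hs3 : |s| ≤ 3)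
    (hys : |√2 * x - s| = √2 * (|x| - 1)) :
    |Z - cc r s * d| ≤ 5 * r ^ 2 := by
  obtain ⟨hs2, hs0, hs1, hs4, _⟩ := sqrt2_facts
  have hr3' : r ^ 3 ≤ 1 / 1000 * r ^ 2 := by nlinarith [sq_nonneg r]
  have hz0 : 0 ≤ zz r (√2 * x) + 210 * r ^ 3 := le_trans (abs_nonneg _) h1
  have hy3 : |√2 * x| ≤ 3 := by
    rw [abs_mul, abs_of_pos hs0]
    nlinarith [abs_nonneg x]
  have hx2'' : x ^ 2 ≤ 101 / 100 := by rw [← sq_abs]; nlinarith [abs_nonneg x]
  have hx2' : 1 ≤ x ^ 2 := by rw [← sq_abs]; nlinarith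
  have hx4 : x ^ 4 ≤ 3 / 2 := by nlinarith [sq_nonneg x]
  have h6 : r ^ 2 / 3 * x ^ 4 ≤ r ^ 2 / 3 * (3 / 2) := by gcongr
  have hzle : zz r (√2 * x) + 210 * r ^ 3 ≤ 71 / 100 * r ^ 2 - r * (x ^ 2 - 1) := by
    rw [zz_sqrt]
    nlinarith
  have hp : 0 ≤ r * (x ^ 2 - 1) := mul_nonneg hr.le (by linarith)
  have e1 := cc_lip r (√2 * x) s hr hr1 hy3 hs3
  have e3 : |√2 * x - s| ≤ 3 / 2 * r := by
    rw [hys]
    exact mul_le_mul hs1 (by linarith) (by linarith) (by norm_num)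
  have e3' : |√2 * x - s| ≤ 6 / 10 * r := by
    have h9 : x ^ 2 - 1 ≤ 71 / 100 * r := by
      have : r * (x ^ 2 - 1) ≤ r * (71 / 100 * r) := by linarith
      exact le_of_mul_le_mul_left this hr
    have h10 : x ^ 2 = |x| ^ 2 := (sq_abs x).symm
    have h11 : |x| - 1 ≤ 4 / 10 * r := by nlinarith
    rw [hys]
    calc √2 * (|x| - 1) ≤ 3 / 2 * (4 / 10 * r) :=
          mul_le_mul hs1 h11 (by linarith) (by norm_num)
      _ = 6 / 10 * r := by ring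
  have e4 : |(cc r (√2 * x) - cc r s) * d| ≤ (r * (6 / 10 * r)) * 3 := by
    rw [abs_mul]
    exact mul_le_mul (e1.trans (mul_le_mul_of_nonneg_left e3' hr.le)) hd3 (abs_nonneg _)
      (by positivity)
  have e6 : Z - cc r s * d =
      (Z - cc r (√2 * x) * d) + (cc r (√2 * x) - cc r s) * d := by ring
  rw [e6]
  refine (abs_add_le _ _).trans ?_
  have e7 : (r * (6 / 10 * r)) * 3 = 18 / 10 * r ^ 2 := by ring
  linarith [sq_nonneg r]

/-- The strips: a point uncovered by both fans lies in one of the strips. -/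
theorem strip_cases (N : ℕ) (hN : 0 < N) (r P Q Z : ℝ) (hr : 0 < r) (hr1 : r ≤ 1 / 1000)
    (hNr : 1 / (N : ℝ) ≤ r ^ 3) (hP : |P| ≤ 1 + 4 * r) (hQ : |Q| ≤ 1 + 4 * r)
    (h1 : |Z - cc r (P + Q) * (P - Q)| ≤ zz r (P + Q) + 210 * r ^ 3) :
    (∃ j < N, √2 * (mm N j - 1 / N) ≤ P + Q ∧ P + Q ≤ √2 * (mm N j + 1 / N) ∧
      |Z - cc r (√2 * mm N j) * (P - Q)| ≤
        r * (1 - (mm N j) ^ 2) + r ^ 2 / 3 * (mm N j) ^ 4 + 230 * r ^ 3) ∨
    (√2 ≤ P + Q ∧ P + Q ≤ √2 * (1 + r) ∧ |Z - cc r (√2) * (P - Q)| ≤ 5 * r ^ 2) ∨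
    (-(√2 * (1 + r)) ≤ P + Q ∧ P + Q ≤ -√2 ∧ |Z - cc r (-√2) * (P - Q)| ≤ 5 * r ^ 2) := by
  obtain ⟨hs2, hs0, hs1, hs4, hs14⟩ := sqrt2_facts
  set x : ℝ := (P + Q) / √2 with hx
  have hPQ : P + Q = √2 * x := by rw [hx]; field_simp
  have hd3 : |P - Q| ≤ 3 := (abs_sub _ _).trans (by linarith)
  have hx2 : x ^ 2 ≤ 21 / 10 := by
    have : (√2 * x) ^ 2 ≤ (1 + 4 * r + (1 + 4 * r)) ^ 2 := by
      rw [← hPQ, ← sq_abs]
      gcongr
      exact (abs_add_le _ _).trans (by linarith)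
    rw [mul_pow, hs2] at this
    nlinarith
  rw [hPQ] at h1 ⊢
  have hx1 : |x| ≤ 1 + r := x_bound r x hr hr1 hx2 (le_trans (abs_nonneg _) h1)
  by_cases hx' : |x| ≤ 1
  · left
    exact strip_in N hN r x (P - Q) Z hr hr1 hNr hx' hd3 h1
  · right
    push Not at hx'
    rcases le_or_gt 0 x with hx0 | hx0
    · left
      have ha : |x| = x := abs_of_nonneg hx0
      refine ⟨?_, ?_, strip_out r x (P - Q) Z hr hr1 hx' hx1 hd3 h1 _
        (by rw [abs_of_pos hs0]; linarith) ?_⟩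
      · rw [ha] at hx'; nlinarith
      · rw [ha] at hx1; gcongr
      · have : √2 * x - √2 = √2 * (x - 1) := by ring
        rw [ha] at hx' ⊢
        rw [this, abs_mul, abs_of_pos hs0, abs_of_nonneg (by linarith)]
    · right
      have ha : |x| = -x := abs_of_neg hx0
      refine ⟨?_, ?_, strip_out r x (P - Q) Z hr hr1 hx' hx1 hd3 h1 _
        (by rw [abs_neg, abs_of_pos hs0]; linarith) ?_⟩
      · rw [ha] at hx1; nlinarith
      · rw [ha] at hx'; nlinarith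
      · have : √2 * x - -√2 = -(√2 * (-x - 1)) := by ring
        rw [ha] at hx' ⊢
        rw [this, abs_neg, abs_mul, abs_of_pos hs0, abs_of_nonneg (by linarith)]

end Vale.Agent.P243
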