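import Vale.Agent.P243.Assembly

namespace Vale.Agent.P243

open MeasureTheory

/-- Transfer from an arbitrary finite index type to `Fin m`. -/
theorem reindex {ι : Type} [Fintype ι] (K : Set E3) (C : ι → Cylinder) (f : Cylinder → ENNReal)
    (hK : K ⊆ ⋃ i, (C i).carrier) :
    ∃ (m : ℕ) (C' : Fin m → Cylinder), K ⊆ ⋃ i, (C' i).carrier ∧
      ∑ i, f (C' i) = ∑ i, f (C i) := by
  classical
  refine ⟨Fintype.card ι, fun i => C ((Fintype.equivFin ι).symm i), ?_, ?_⟩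
  · intro x hx
    obtain ⟨i, hi⟩ := Set.mem_iUnion.1 (hK hx)
    exact Set.mem_iUnion.2 ⟨Fintype.equivFin ι i, by simpa using hi⟩
  · exact Equiv.sum_comp (Fintype.equivFin ι).symm (fun i => f (C i))

theorem main_R (N : ℕ) (hN : 10 ≤ N) :
    ∃ (m : ℕ) (C : Fin m → Cylinder), tetra ⊆ ⋃ i, (C i).carrier ∧
      ∑ i, (C i).area / planarArea (C i).dir (shadow (C i).dir tetra) ≤
        ENNReal.ofReal (11 / 24 + 10 / (N : ℝ)) := by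
  classical
  have hN0 : (0 : ℝ) < N := by
    have : (10 : ℝ) ≤ N := by exact_mod_cast hN
    linarith
  -- tiles
  have hV : ∀ z : ℤ × ℤ, ∃ C : Cylinder,
      (∀ x : E3, (z.1 : ℝ) / (N : ℝ) ^ 2 ≤ x 0 - (z.2 : ℝ) / N * x 2 →
        x 0 - (z.2 : ℝ) / N * x 2 ≤ ((z.1 : ℝ) + 1) / (N : ℝ) ^ 2 →
        ((z.2 : ℝ) - 1 / N) / N ≤ x 1 - (z.1 : ℝ) / (N : ℝ) ^ 2 * x 2 →
        x 1 - (z.1 : ℝ) / (N : ℝ) ^ 2 * x 2 ≤ ((z.2 : ℝ) + 3 / 4) / N → x ∈ C.carrier) ∧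
      C.area / planarArea C.dir (shadow C.dir tetra) ≤
        ENNReal.ofReal ((1 / (N : ℝ) ^ 2) * ((3 / 4 + 1 / (N : ℝ)) / (N : ℝ)) / 4) := by
    intro z
    obtain ⟨C, h1, h2⟩ := exists_tileV ((z.2 : ℝ) / N) ((z.1 : ℝ) / (N : ℝ) ^ 2)
      ((z.1 : ℝ) / (N : ℝ) ^ 2) (((z.1 : ℝ) + 1) / (N : ℝ) ^ 2)
      (((z.2 : ℝ) - 1 / N) / N) (((z.2 : ℝ) + 3 / 4) / N)
      (by gcongr; linarith) (by
        gcongr
        have : 0 < 1 / (N : ℝ) := by positivity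
        linarith)
    refine ⟨C, h1, h2.trans (le_of_eq ?_)⟩
    congr 1
    field_simp
    ring
  have hH : ∀ z : ℤ × ℤ, z ∈ stripsH N → ∃ C : Cylinder,
      (∀ x : E3, (z.1 : ℝ) / (2 * (N : ℝ) ^ 2) ≤ x 2 →
        x 2 ≤ ((z.1 : ℝ) + 1) / (2 * (N : ℝ) ^ 2) →
        ((z.2 : ℝ) * (1 - ((z.1 : ℝ) / (2 * (N : ℝ) ^ 2)) ^ 2) + 3 / 4 - 3 / N) / N
          ≤ x 1 - (z.1 : ℝ) / (2 * (N : ℝ) ^ 2) * x 0 →
        x 1 - (z.1 : ℝ) / (2 * (N : ℝ) ^ 2) * x 0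
          ≤ (((z.2 : ℝ) + 1) * (1 - ((z.1 : ℝ) / (2 * (N : ℝ) ^ 2)) ^ 2) + 2 / N) / N →
        x ∈ C.carrier) ∧
      C.area / planarArea C.dir (shadow C.dir tetra) ≤
        ENNReal.ofReal ((1 / (2 * (N : ℝ) ^ 2)) *
      ((1 / 4 - ((z.1 : ℝ) / (2 * (N : ℝ) ^ 2)) ^ 2 + 5 / (N : ℝ)) / (N : ℝ)) / 4) := by
    intro z hz
    have hz1 : |(z.1 : ℝ) / (2 * (N : ℝ) ^ 2)| ≤ 1 / 2 := by
      simp only [stripsH, Finset.mem_product, Finset.mem_Ico, Finset.mem_Icc] at hz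
      have h1 : -((N : ℝ) ^ 2) ≤ (z.1 : ℝ) := by exact_mod_cast hz.1.1
      have h2 : (z.1 : ℝ) ≤ (N : ℝ) ^ 2 := by exact_mod_cast hz.1.2.le
      rw [abs_div, abs_of_pos (show (0 : ℝ) < 2 * (N : ℝ) ^ 2 by positivity), div_le_iff₀ (by positivity)]
      rw [abs_le]
      constructor <;> linarith
    have hsq : ((z.1 : ℝ) / (2 * (N : ℝ) ^ 2)) ^ 2 ≤ 1 / 4 := by
      have := sq_le_sq' (by linarith [(abs_le.1 hz1).1]) (abs_le.1 hz1).2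
      calc _ ≤ (1 / 2 : ℝ) ^ 2 := this
        _ = 1 / 4 := by norm_num
    have h5 : 0 < 1 / (N : ℝ) := by positivity
    obtain ⟨C, h1, h2⟩ := exists_tileH ((z.1 : ℝ) / (2 * (N : ℝ) ^ 2))
      (((z.2 : ℝ) * (1 - ((z.1 : ℝ) / (2 * (N : ℝ) ^ 2)) ^ 2) + 3 / 4 - 3 / N) / N)
      ((((z.2 : ℝ) + 1) * (1 - ((z.1 : ℝ) / (2 * (N : ℝ) ^ 2)) ^ 2) + 2 / N) / N)
      ((z.1 : ℝ) / (2 * (N : ℝ) ^ 2)) (((z.1 : ℝ) + 1) / (2 * (N : ℝ) ^ 2))
      (by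
        gcongr
        have e1 : (3 : ℝ) / N = 3 * (1 / N) := by ring
        have e2 : (2 : ℝ) / N = 2 * (1 / N) := by ring
        rw [e1, e2]
        nlinarith) (by gcongr; linarith)
    refine ⟨C, fun x a1 a2 a3 a4 => h1 x a3 a4 a1 a2, h2.trans (le_of_eq ?_)⟩
    congr 1
    field_simp
    ring
  choose CV hCV1 hCV2 using hV
  choose CH hCH1 hCH2 using hH
  let C : (tilesV N) ⊕ (stripsH N) → Cylinder := Sum.elim (fun z => CV z.1) (fun z => CH z.1 z.2)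
  obtain ⟨m, C', hC', hsum⟩ := reindex tetra C
    (fun C => C.area / planarArea C.dir (shadow C.dir tetra)) (by
    intro x hx
    rcases cover N hN (x 0) (x 1) (x 2) hx.1 hx.2 with ⟨m, n, h0, h1, h2, h3, h4⟩ |
      ⟨k, n, h0, h0', h0'', h1, h2, h3, h4⟩
    · have hmem : (m, n) ∈ tilesV N := by
        simp only [tilesV, Finset.mem_filter, Finset.mem_product, Finset.mem_Icc]
        have hm := abs_nonneg m
        have hn := abs_nonneg n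
        have hNz : (10 : ℤ) ≤ N := by exact_mod_cast hN
        have hn3 : |n| ≤ N + 3 := by
          by_contra hcon
          push Not at hcon
          nlinarith
        refine ⟨⟨abs_le.1 (by nlinarith), abs_le.1 hn3⟩, h0⟩
      exact Set.mem_iUnion.2 ⟨Sum.inl ⟨(m, n), hmem⟩, hCV1 (m, n) x h1 h2 h3 h4⟩
    · have hmem : (k, n) ∈ stripsH N := by
        simp only [stripsH, Finset.mem_product, Finset.mem_Ico, Finset.mem_Icc]
        exact ⟨⟨h0, h0'⟩, abs_le.1 h0''⟩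
      exact Set.mem_iUnion.2 ⟨Sum.inr ⟨(k, n), hmem⟩, hCH1 (k, n) hmem x h1 h2 h3 h4⟩)
  refine ⟨m, C', hC', ?_⟩
  rw [hsum]
  rw [Fintype.sum_sum_type]
  have b1 : ∑ z : tilesV N, (C (Sum.inl z)).area / planarArea (C (Sum.inl z)).dir
      (shadow (C (Sum.inl z)).dir tetra) ≤ ENNReal.ofReal (3 / 8 + 5 / (N : ℝ)) := by
    calc _ ≤ ∑ z : tilesV N, ENNReal.ofReal
          ((1 / (N : ℝ) ^ 2) * ((3 / 4 + 1 / (N : ℝ)) / (N : ℝ)) / 4) :=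
          Finset.sum_le_sum (fun z _ => hCV2 z.1)
      _ = ENNReal.ofReal (∑ z : tilesV N,
          ((1 / (N : ℝ) ^ 2) * ((3 / 4 + 1 / (N : ℝ)) / (N : ℝ)) / 4)) :=
          (ENNReal.ofReal_sum_of_nonneg (fun z _ => by positivity)).symm
      _ ≤ _ := by
          apply ENNReal.ofReal_le_ofReal
          rw [Finset.sum_coe_sort (tilesV N)
            (fun _ => ((1 / (N : ℝ) ^ 2) * ((3 / 4 + 1 / (N : ℝ)) / (N : ℝ)) / 4))]
          exact cost_tiles N hN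
  have b2 : ∑ z : stripsH N, (C (Sum.inr z)).area / planarArea (C (Sum.inr z)).dir
      (shadow (C (Sum.inr z)).dir tetra) ≤ ENNReal.ofReal (1 / 12 + 5 / (N : ℝ)) := by
    have hnn : ∀ z ∈ stripsH N, 0 ≤ ((1 / (2 * (N : ℝ) ^ 2)) *
      ((1 / 4 - ((z.1 : ℝ) / (2 * (N : ℝ) ^ 2)) ^ 2 + 5 / (N : ℝ)) / (N : ℝ)) / 4) := by
      intro z hz
      have hz1 : |(z.1 : ℝ) / (2 * (N : ℝ) ^ 2)| ≤ 1 / 2 := by
        simp only [stripsH, Finset.mem_product, Finset.mem_Ico, Finset.mem_Icc] at hz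
        have h1 : -((N : ℝ) ^ 2) ≤ (z.1 : ℝ) := by exact_mod_cast hz.1.1
        have h2 : (z.1 : ℝ) ≤ (N : ℝ) ^ 2 := by exact_mod_cast hz.1.2.le
        rw [abs_div, abs_of_pos (show (0 : ℝ) < 2 * (N : ℝ) ^ 2 by positivity),
          div_le_iff₀ (by positivity)]
        rw [abs_le]
        constructor <;> linarith
      have hsq : ((z.1 : ℝ) / (2 * (N : ℝ) ^ 2)) ^ 2 ≤ 1 / 4 := by
        have := sq_le_sq' (by linarith [(abs_le.1 hz1).1]) (abs_le.1 hz1).2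
        calc _ ≤ (1 / 2 : ℝ) ^ 2 := this
          _ = 1 / 4 := by norm_num
      have h5 : 0 < 5 / (N : ℝ) := by positivity
      have : 0 ≤ 1 / 4 - ((z.1 : ℝ) / (2 * (N : ℝ) ^ 2)) ^ 2 + 5 / (N : ℝ) := by linarith
      positivity
    calc _ ≤ ∑ z : stripsH N, ENNReal.ofReal ((1 / (2 * (N : ℝ) ^ 2)) *
      ((1 / 4 - ((z.1.1 : ℝ) / (2 * (N : ℝ) ^ 2)) ^ 2 + 5 / (N : ℝ)) / (N : ℝ)) / 4) :=
          Finset.sum_le_sum (fun z _ => hCH2 z.1 z.2)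
      _ = ENNReal.ofReal (∑ z : stripsH N, ((1 / (2 * (N : ℝ) ^ 2)) *
      ((1 / 4 - ((z.1.1 : ℝ) / (2 * (N : ℝ) ^ 2)) ^ 2 + 5 / (N : ℝ)) / (N : ℝ)) / 4)) :=
          (ENNReal.ofReal_sum_of_nonneg (fun z _ => hnn z.1 z.2)).symm
      _ ≤ _ := by
          apply ENNReal.ofReal_le_ofReal
          rw [Finset.sum_coe_sort (stripsH N)
            (fun z => ((1 / (2 * (N : ℝ) ^ 2)) *
      ((1 / 4 - ((z.1 : ℝ) / (2 * (N : ℝ) ^ 2)) ^ 2 + 5 / (N : ℝ)) / (N : ℝ)) / 4))]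
          exact cost_strips N hN
  calc _ ≤ ENNReal.ofReal (3 / 8 + 5 / (N : ℝ)) + ENNReal.ofReal (1 / 12 + 5 / (N : ℝ)) :=
        add_le_add b1 b2
    _ = ENNReal.ofReal (11 / 24 + 10 / (N : ℝ)) := by
        rw [← ENNReal.ofReal_add (by positivity) (by positivity)]
        congr 1
        ring

end Vale.Agent.P243
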