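import Vale.Agent.P243.BangD
import Vale.Agent.P243.MainR

namespace Vale.Agent.P243

open MeasureTheory

theorem area_tube_eq (N : ℕ) (hN : 0 < N) (m h s p : ℝ) (hh0 : 0 ≤ h) :
    ENNReal.ofReal (1 / √(2 * (1 + s ^ 2 + 2 * p ^ 2))) *
      volume (wedge (m - 1 / N) (m + 1 / N) h) =
    ENNReal.ofReal (1 / √2 * ((1 / (N : ℝ)) * (h ^ 2 / √(1 + s ^ 2 + 2 * p ^ 2)))) := by
  have hN0 : (0 : ℝ) < N := by exact_mod_cast hN
  have h1 : 0 < 1 / (N : ℝ) := by positivity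
  rw [volume_wedge _ _ _ (by linarith) hh0, ← ENNReal.ofReal_mul (by positivity)]
  congr 1
  rw [Real.sqrt_mul (by norm_num)]
  have h2 : 0 < √(1 + s ^ 2 + 2 * p ^ 2) := Real.sqrt_pos.2 (by positivity)
  have h3 : 0 < √2 := by positivity
  field_simp
  ring

theorem wedge_ne_top (a b h : ℝ) (hab : a ≤ b) (hh : 0 ≤ h) : volume (wedge a b h) ≠ ⊤ := by
  rw [volume_wedge _ _ _ hab hh]; exact ENNReal.ofReal_ne_top

/-- The covering. -/
theorem main_A (N : ℕ) (hN : 0 < N) (r : ℝ) (hr : 0 < r) (hr1 : r ≤ 1 / 1000)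
    (hNr : 1 / (N : ℝ) ≤ r ^ 3) :
    ∃ (m : ℕ) (C : Fin m → Cylinder), tetra ⊆ ⋃ i, (C i).carrier ∧
      ∑ i, (C i).area ≤
        ENNReal.ofReal (1 / √2 * (2 - 13 / 45 * r ^ 2 + 1030 * r ^ 3)) := by
  classical
  have hN0 : (0 : ℝ) < N := by exact_mod_cast hN
  have hNi : 0 < 1 / (N : ℝ) := by positivity
  have hr3 : 0 < r ^ 3 := pow_pos hr 3
  obtain ⟨hs2, hs0, hs1, hs4, hs14⟩ := sqrt2_facts
  have hsi : 0 < 1 / √2 := by positivity
  have hs2' : √2 * √2 = 2 := by rw [← sq]; exact hs2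
  have hhpos : ∀ i : Fin N, 0 ≤ hh r (mm N i) := by
    intro i
    obtain ⟨_, _, _, _, c5, _⟩ := bounds r (mm N i) 0 hr hr1 (mm_abs' N i hN i.2) (by norm_num)
    linarith
  have hE : ∀ i : Fin N, ∃ C : Cylinder,
      (∀ x : E3, InTube N r i (x 0 + x 2) (x 2 - x 0) (-x 1) → x ∈ C.carrier) ∧
      C.area = ENNReal.ofReal (1 / √2 * ((1 / (N : ℝ)) * ((hh r (mm N i)) ^ 2 /
        √(1 + (sigN N r (mm N i)) ^ 2 + 2 * (rho r (mm N i)) ^ 2)))) := by
    intro i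
    obtain ⟨C, h1, h2⟩ := exists_tubeE (sigN N r (mm N i)) (rho r (mm N i))
      (wedge (mm N i - 1 / N) (mm N i + 1 / N) (hh r (mm N i))) (measurableSet_wedge _ _ _)
      (wedge_ne_top _ _ _ (by linarith) (hhpos i))
    refine ⟨C, fun x hx => (h1 x).2 hx, ?_⟩
    rw [h2, area_tube_eq N hN _ _ _ _ (hhpos i)]
  have hF : ∀ i : Fin N, ∃ C : Cylinder,
      (∀ x : E3, InTube N r i (x 2 - x 0) (x 0 + x 2) (x 1) → x ∈ C.carrier) ∧
      C.area = ENNReal.ofReal (1 / √2 * ((1 / (N : ℝ)) * ((hh r (mm N i)) ^ 2 /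
        √(1 + (sigN N r (mm N i)) ^ 2 + 2 * (rho r (mm N i)) ^ 2)))) := by
    intro i
    obtain ⟨C, h1, h2⟩ := exists_tubeF (sigN N r (mm N i)) (rho r (mm N i))
      (wedge (mm N i - 1 / N) (mm N i + 1 / N) (hh r (mm N i))) (measurableSet_wedge _ _ _)
      (wedge_ne_top _ _ _ (by linarith) (hhpos i))
    refine ⟨C, fun x hx => (h1 x).2 hx, ?_⟩
    rw [h2, area_tube_eq N hN _ _ _ _ (hhpos i)]
  have hG : ∀ j : Fin N, ∃ C : Cylinder,
      (∀ x : E3, √2 * (mm N j - 1 / N) ≤ 2 * x 2 → 2 * x 2 ≤ √2 * (mm N j + 1 / N) →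
        |-x 1 - cc r (√2 * mm N j) * (2 * x 0)| ≤
          r * (1 - (mm N j) ^ 2) + r ^ 2 / 3 * (mm N j) ^ 4 + 230 * r ^ 3 → x ∈ C.carrier) ∧
      C.area ≤ ENNReal.ofReal (1 / √2 * ((1 / (N : ℝ)) * (4 * (r * (1 - (mm N j) ^ 2) +
        r ^ 2 / 3 * (mm N j) ^ 4 + 230 * r ^ 3)))) := by
    intro j
    have hm := mm_abs' N j hN j.2
    have hm2 : (mm N j) ^ 2 ≤ 1 := by rw [← sq_abs]; nlinarith [abs_nonneg (mm N j)]
    have hz : 0 ≤ r * (1 - (mm N j) ^ 2) + r ^ 2 / 3 * (mm N j) ^ 4 + 230 * r ^ 3 := by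
      have : 0 ≤ 1 - (mm N j) ^ 2 := by linarith
      positivity
    obtain ⟨C, h1, h2⟩ := exists_strip (cc r (√2 * mm N j)) (√2 * (mm N j - 1 / N))
      (√2 * (mm N j + 1 / N)) _ (by gcongr; linarith) hz
    refine ⟨C, h1, h2.trans (le_of_eq ?_)⟩
    congr 1
    have e : √2 * (mm N j + 1 / N) - √2 * (mm N j - 1 / N) = 1 / √2 * (1 / N * 4) := by
      have : √2 * (mm N j + 1 / N) - √2 * (mm N j - 1 / N) = √2 * (2 / N) := by ring
      rw [this]
      field_simp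
      rw [hs2]
      norm_num
    rw [e]
    ring
  obtain ⟨C1, hC1, hC1a⟩ := exists_strip (cc r (√2)) (√2) (√2 * (1 + r)) (5 * r ^ 2)
    (by nlinarith) (by positivity)
  obtain ⟨C2, hC2, hC2a⟩ := exists_strip (cc r (-√2)) (-(√2 * (1 + r))) (-√2) (5 * r ^ 2)
    (by nlinarith) (by positivity)
  choose CE hCE1 hCE2 using hE
  choose CF hCF1 hCF2 using hF
  choose CG hCG1 hCG2 using hG
  let C : (Fin N ⊕ Fin N) ⊕ (Fin N ⊕ Bool) → Cylinder :=
    Sum.elim (Sum.elim CE CF) (Sum.elim CG (fun b => if b then C1 else C2))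
  have hcov : tetra ⊆ ⋃ i, (C i).carrier := by
    intro x hx
    set P : ℝ := x 0 + x 2 with hP
    set Q : ℝ := x 2 - x 0 with hQ
    have hxa := abs_le.1 hx.1
    have hxb := abs_le.1 hx.2
    have hPZ : |P| ≤ 1 - -x 1 := by
      rw [abs_le, hP]; constructor <;> linarith [hxa.1, hxa.2, hxb.1, hxb.2]
    have hQZ : |Q| ≤ 1 + -x 1 := by
      rw [abs_le, hQ]; constructor <;> linarith [hxa.1, hxa.2, hxb.1, hxb.2]
    by_cases h1 : ∃ i < N, InTube N r i P Q (-x 1)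
    · obtain ⟨i, hi, hin⟩ := h1
      exact Set.mem_iUnion.2 ⟨Sum.inl (Sum.inl ⟨i, hi⟩), hCE1 ⟨i, hi⟩ x hin⟩
    by_cases h2 : ∃ i < N, InTube N r i Q P (x 1)
    · obtain ⟨i, hi, hin⟩ := h2
      exact Set.mem_iUnion.2 ⟨Sum.inl (Sum.inr ⟨i, hi⟩), hCF1 ⟨i, hi⟩ x hin⟩
    push Not at h1 h2
    obtain ⟨b1, b2⟩ := uncovered N hN r P Q (-x 1) hr hr1 hNr hPZ hQZ h1
    obtain ⟨b3, b4⟩ := uncovered N hN r Q P (x 1) hr hr1 hNr (by linarith) (by linarith) h2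
    have hsym : cc r (Q + P) * (Q - P) = -(cc r (P + Q) * (P - Q)) := by
      rw [add_comm Q P]; ring
    rw [hsym, add_comm Q P] at b4
    have habs : |-x 1 - cc r (P + Q) * (P - Q)| ≤ zz r (P + Q) + 210 * r ^ 3 := by
      rw [abs_le]; constructor <;> linarith
    have e1 : P + Q = 2 * x 2 := by rw [hP, hQ]; ring
    have e2 : P - Q = 2 * x 0 := by rw [hP, hQ]; ring
    rcases strip_cases N hN r P Q (-x 1) hr hr1 hNr b1 b3 habs with ⟨j, hj, g1, g2, g3⟩ |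
      ⟨g1, g2, g3⟩ | ⟨g1, g2, g3⟩
    · rw [e1] at g1 g2
      rw [e2] at g3
      exact Set.mem_iUnion.2 ⟨Sum.inr (Sum.inl ⟨j, hj⟩), hCG1 ⟨j, hj⟩ x g1 g2 g3⟩
    · rw [e1] at g1 g2
      rw [e2] at g3
      exact Set.mem_iUnion.2 ⟨Sum.inr (Sum.inr true), hC1 x g1 g2 g3⟩
    · rw [e1] at g1 g2
      rw [e2] at g3
      exact Set.mem_iUnion.2 ⟨Sum.inr (Sum.inr false), hC2 x g1 g2 g3⟩
  obtain ⟨m, C', hC', hsum⟩ := reindex tetra C (fun C => C.area) hcov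
  refine ⟨m, C', hC', ?_⟩
  rw [hsum, Fintype.sum_sum_type, Fintype.sum_sum_type, Fintype.sum_sum_type]
  have hclose : ∀ i < N, |sigN N r (mm N i) - sig r (mm N i)| ≤ r ^ 3 := fun i hi =>
    sigN_close N hN r _ hr hr1 (mm_abs' N i hN hi) hNr
  set T : ℝ := ∑ i ∈ Finset.range N, (1 / (N : ℝ)) * ((hh r (mm N i)) ^ 2 /
    √(1 + (sigN N r (mm N i)) ^ 2 + 2 * (rho r (mm N i)) ^ 2)) with hT
  have hTb : T ≤ 1 - 4 / 3 * r - 5 / 18 * r ^ 2 + 40 * r ^ 3 :=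
    tubes_cost N hN r hr hr1 (fun i => sigN N r (mm N i)) hclose
  set S : ℝ := ∑ j ∈ Finset.range N, (1 / (N : ℝ)) * (4 * (r * (1 - (mm N j) ^ 2) +
      r ^ 2 / 3 * (mm N j) ^ 4 + 230 * r ^ 3)) with hS
  have hSb : S ≤ 8 / 3 * r + 4 / 15 * r ^ 2 + 930 * r ^ 3 := strips_cost N hN r hr hr1 hNr
  have hT0 : 0 ≤ T := Finset.sum_nonneg fun i _ => by positivity
  have hS0 : 0 ≤ S := Finset.sum_nonneg fun j hj => by
    have hm := mm_abs' N j hN (Finset.mem_range.1 hj)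
    have hm2 : (mm N j) ^ 2 ≤ 1 := by rw [← sq_abs]; nlinarith [abs_nonneg (mm N j)]
    have : 0 ≤ 1 - (mm N j) ^ 2 := by linarith
    positivity
  have sE : ∑ i : Fin N, (C (Sum.inl (Sum.inl i))).area = ENNReal.ofReal (1 / √2 * T) := by
    calc _ = ∑ i : Fin N, ENNReal.ofReal (1 / √2 * ((1 / (N : ℝ)) * ((hh r (mm N i)) ^ 2 /
        √(1 + (sigN N r (mm N i)) ^ 2 + 2 * (rho r (mm N i)) ^ 2)))) :=
          Finset.sum_congr rfl fun i _ => hCE2 i
      _ = ENNReal.ofReal (∑ i : Fin N, 1 / √2 * ((1 / (N : ℝ)) * ((hh r (mm N i)) ^ 2 /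
        √(1 + (sigN N r (mm N i)) ^ 2 + 2 * (rho r (mm N i)) ^ 2)))) :=
          (ENNReal.ofReal_sum_of_nonneg fun i _ => by positivity).symm
      _ = _ := by
          rw [← Finset.mul_sum, hT, Finset.sum_range]
  have sF : ∑ i : Fin N, (C (Sum.inl (Sum.inr i))).area = ENNReal.ofReal (1 / √2 * T) := by
    calc _ = ∑ i : Fin N, ENNReal.ofReal (1 / √2 * ((1 / (N : ℝ)) * ((hh r (mm N i)) ^ 2 /
        √(1 + (sigN N r (mm N i)) ^ 2 + 2 * (rho r (mm N i)) ^ 2)))) :=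
          Finset.sum_congr rfl fun i _ => hCF2 i
      _ = ENNReal.ofReal (∑ i : Fin N, 1 / √2 * ((1 / (N : ℝ)) * ((hh r (mm N i)) ^ 2 /
        √(1 + (sigN N r (mm N i)) ^ 2 + 2 * (rho r (mm N i)) ^ 2)))) :=
          (ENNReal.ofReal_sum_of_nonneg fun i _ => by positivity).symm
      _ = _ := by
          rw [← Finset.mul_sum, hT, Finset.sum_range]
  have sG : ∑ j : Fin N, (C (Sum.inr (Sum.inl j))).area ≤ ENNReal.ofReal (1 / √2 * S) := by
    calc _ ≤ ∑ j : Fin N, ENNReal.ofReal (1 / √2 * ((1 / (N : ℝ)) * (4 * (r * (1 - (mm N j) ^ 2) +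
        r ^ 2 / 3 * (mm N j) ^ 4 + 230 * r ^ 3)))) :=
          Finset.sum_le_sum fun j _ => hCG2 j
      _ = ENNReal.ofReal (∑ j : Fin N, 1 / √2 * ((1 / (N : ℝ)) * (4 * (r * (1 - (mm N j) ^ 2) +
        r ^ 2 / 3 * (mm N j) ^ 4 + 230 * r ^ 3)))) := by
          refine (ENNReal.ofReal_sum_of_nonneg fun j _ => ?_).symm
          have hm := mm_abs' N j hN j.2
          have hm2 : (mm N j) ^ 2 ≤ 1 := by rw [← sq_abs]; nlinarith [abs_nonneg (mm N j)]
          have : 0 ≤ 1 - (mm N j) ^ 2 := by linarith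
          positivity
      _ = _ := by
          rw [← Finset.mul_sum, hS, Finset.sum_range]
  have sB : ∑ b : Bool, (C (Sum.inr (Sum.inr b))).area ≤ ENNReal.ofReal (1 / √2 * (20 * r ^ 3)) := by
    rw [Fintype.sum_bool]
    have e5 : √2 * r * (5 * r ^ 2) = 1 / √2 * (10 * r ^ 3) := by
      field_simp
      rw [hs2]
      norm_num
    have f1 : (C (Sum.inr (Sum.inr true))).area ≤ ENNReal.ofReal (1 / √2 * (10 * r ^ 3)) := by
      refine hC1a.trans (le_of_eq ?_)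
      rw [← e5]
      congr 1
      ring
    have f2 : (C (Sum.inr (Sum.inr false))).area ≤ ENNReal.ofReal (1 / √2 * (10 * r ^ 3)) := by
      refine hC2a.trans (le_of_eq ?_)
      rw [← e5]
      congr 1
      ring
    calc _ ≤ ENNReal.ofReal (1 / √2 * (10 * r ^ 3)) + ENNReal.ofReal (1 / √2 * (10 * r ^ 3)) :=
          add_le_add f1 f2
      _ = _ := by
          rw [← ENNReal.ofReal_add (by positivity) (by positivity)]
          congr 1
          ring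
  rw [sE, sF]
  calc _ ≤ ENNReal.ofReal (1 / √2 * T) + ENNReal.ofReal (1 / √2 * T) +
        (ENNReal.ofReal (1 / √2 * S) + ENNReal.ofReal (1 / √2 * (20 * r ^ 3))) := by
        gcongr
    _ = ENNReal.ofReal (1 / √2 * T + 1 / √2 * T + (1 / √2 * S + 1 / √2 * (20 * r ^ 3))) := by
        rw [← ENNReal.ofReal_add (by positivity) (by positivity),
          ← ENNReal.ofReal_add (by positivity) (by positivity),
          ← ENNReal.ofReal_add (by positivity) (by positivity)]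
    _ ≤ _ := by
        apply ENNReal.ofReal_le_ofReal
        have : 1 / √2 * T + 1 / √2 * T + (1 / √2 * S + 1 / √2 * (20 * r ^ 3)) =
            1 / √2 * (2 * T + S + 20 * r ^ 3) := by ring
        rw [this]
        apply mul_le_mul_of_nonneg_left _ hsi.le
        linarith

end Vale.Agent.P243
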