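import Vale.Agent.P243.Cover

namespace Vale.Agent.P243

/-- half height of the slab of row `n` in which strips are used -/
noncomputable def ww (N : ℕ) (n : ℤ) : ℝ := max (1 - |(n : ℝ)| / N) 0

theorem ww_nonneg (N : ℕ) (n : ℤ) : 0 ≤ ww N n := le_max_right _ _

theorem ww_le_one (N : ℕ) (n : ℤ) : ww N n ≤ 1 := by
  unfold ww
  refine max_le ?_ zero_le_one
  have : 0 ≤ |(n : ℝ)| / N := by positivity
  linarith

theorem ww_sq_le (N : ℕ) (n : ℤ) : (ww N n) ^ 2 ≤ 1 := by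
  have h0 := ww_nonneg N n
  have h1 := ww_le_one N n
  nlinarith

/-- numerical estimate for one strip, bounds of the error terms -/
theorem strip_err (N : ℕ) (hN0 : (0 : ℝ) < N) (a s t c : ℝ) (ha : |a| ≤ 1) (hs1 : |s| ≤ 1)
    (ht1 : |t| ≤ 1) (ts : t ≤ s) (ts2 : s - t ≤ 1 / (2 * (N : ℝ) ^ 2)) (hc : |c| ≤ N + 1) :
    |N * ((s - t) * a)| ≤ 1 / 2 * (1 / N) ∧
      |c * (t ^ 2 - s ^ 2)| ≤ 1 / N + (1 / N) * (1 / N) := by
  have hs' := abs_le.1 hs1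
  have ht' := abs_le.1 ht1
  constructor
  · rw [abs_mul, abs_mul, abs_of_pos hN0, abs_of_nonneg (by linarith : 0 ≤ s - t)]
    calc (N : ℝ) * ((s - t) * |a|) ≤ N * ((1 / (2 * (N : ℝ) ^ 2)) * 1) := by gcongr
      _ = 1 / 2 * (1 / N) := by field_simp
  · have hd : |s ^ 2 - t ^ 2| ≤ 1 / (N : ℝ) ^ 2 := by
      have : s ^ 2 - t ^ 2 = (s - t) * (s + t) := by ring
      rw [this, abs_mul, abs_of_nonneg (by linarith : 0 ≤ s - t)]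
      have : |s + t| ≤ 2 := by rw [abs_le]; constructor <;> linarith
      calc (s - t) * |s + t| ≤ (1 / (2 * (N : ℝ) ^ 2)) * 2 := by gcongr
        _ = _ := by field_simp
    rw [abs_mul, abs_sub_comm (t ^ 2)]
    calc |c| * |s ^ 2 - t ^ 2| ≤ (N + 1) * (1 / (N : ℝ) ^ 2) := by gcongr
      _ = _ := by field_simp

/-- numerical estimate for one strip -/
theorem strip_est (N : ℕ) (hN1 : (10 : ℝ) ≤ N) (hN0 : (0 : ℝ) < N) (a b s t c q y : ℝ)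
    (ha : |a| ≤ 1) (hs1 : |s| ≤ 1) (ht1 : |t| ≤ 1) (ts : t ≤ s)
    (ts2 : s - t ≤ 1 / (2 * (N : ℝ) ^ 2)) (hyb : N * (b - s * a) = y)
    (n1 : -((N : ℝ) + 1) ≤ c) (n2 : c ≤ N)
    (y1 : q + c * (1 - s ^ 2) - 1 / N < y) (y2 : y < (c + 1) * (1 - s ^ 2)) :
    (c * (1 - t ^ 2) + q - 3 / N) / N ≤ b - t * a ∧
      b - t * a ≤ ((c + 1) * (1 - t ^ 2) + 2 / N) / N := by
  have hL : (b - t * a) * N = y + N * ((s - t) * a) := by rw [← hyb]; ring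
  obtain ⟨e1, e2⟩ := strip_err N hN0 a s t c ha hs1 ht1 ts ts2
    (by rw [abs_le]; constructor <;> linarith)
  obtain ⟨_, e3⟩ := strip_err N hN0 a s t (c + 1) ha hs1 ht1 ts ts2
    (by rw [abs_le]; constructor <;> linarith)
  have hNi : 1 / (N : ℝ) ≤ 1 / 10 := by
    rw [div_le_div_iff₀ hN0 (by norm_num)]; linarith
  have hNip : 0 < 1 / (N : ℝ) := by positivity
  have hq : (1 / (N : ℝ)) * (1 / (N : ℝ)) ≤ (1 / (N : ℝ)) * (1 / 10) := by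
    gcongr
  have e1' := abs_le.1 e1
  have e2' := abs_le.1 e2
  have e3' := abs_le.1 e3
  have d3 : (3 : ℝ) / N = 3 * (1 / N) := by ring
  have d2 : (2 : ℝ) / N = 2 * (1 / N) := by ring
  constructor
  · rw [div_le_iff₀ hN0, d3, hL]
    have hid : c * (1 - t ^ 2) = c * (1 - s ^ 2) - c * (t ^ 2 - s ^ 2) := by ring
    rw [hid]
    linarith [e1'.1, e2'.1]
  · rw [le_div_iff₀ hN0, d2, hL]
    have hid : (c + 1) * (1 - t ^ 2) = (c + 1) * (1 - s ^ 2) - (c + 1) * (t ^ 2 - s ^ 2) := by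
      ring
    rw [hid]
    linarith [e1'.2, e3'.2]

theorem floor_k (N : ℕ) (hN0 : (0 : ℝ) < N) (n : ℤ) (s : ℝ) (hsw : |s| < ww N n) :
    |n| ≤ (N : ℤ) ∧ -(2 * (N : ℤ) * (N - |n|)) ≤ ⌊2 * (N : ℝ) ^ 2 * s⌋ ∧
      ⌊2 * (N : ℝ) ^ 2 * s⌋ < 2 * (N : ℤ) * (N - |n|) := by
  have hwpos : 0 < ww N n := lt_of_le_of_lt (abs_nonneg s) hsw
  have hweq : ww N n = 1 - |(n : ℝ)| / N := by
    unfold ww at hwpos ⊢
    rcases max_choice (1 - |(n : ℝ)| / N) 0 with h | h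
    · exact h
    · rw [h] at hwpos; exact absurd hwpos (lt_irrefl _)
  have hsh' := abs_lt.1 hsw
  have hnw : 2 * (N : ℝ) ^ 2 * ww N n = 2 * N * (N - |(n : ℝ)|) := by
    rw [hweq]; field_simp
  have hNsq : (0 : ℝ) < 2 * (N : ℝ) ^ 2 := by positivity
  refine ⟨?_, ?_, ?_⟩
  · have h3 : |(n : ℝ)| / N < 1 := by linarith
    rw [div_lt_one hN0] at h3
    have h4 : (|n| : ℤ) < (N : ℤ) := by
      have : ((|n| : ℤ) : ℝ) < ((N : ℤ) : ℝ) := by push_cast; exact h3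
      exact_mod_cast this
    exact h4.le
  · rw [Int.le_floor]
    push_cast
    rw [← hnw]
    nlinarith
  · rw [Int.floor_lt]
    push_cast
    rw [← hnw]
    nlinarith

/-- the strip alternative, with row dependent heights. -/
theorem strip_of5 (N : ℕ) (hN1 : (10 : ℝ) ≤ N) (hN0 : (0 : ℝ) < N) (a b s v : ℝ) (ha : |a| ≤ 1)
    (hvv : |v| ≤ 1) (y : ℝ) (hyb : N * (b - s * a) = y) (n : ℤ) (hfl : (n : ℝ) ≤ N * v)
    (hlf : N * v < n + 1) (hs2 : s ^ 2 < (ww N n) ^ 2)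
    (y1 : 1 - (ww N n) ^ 2 + n * (1 - s ^ 2) - 1 / N < y) (y2 : y < (n + 1) * (1 - s ^ 2)) :
    (∃ k n : ℤ, |n| ≤ (N : ℤ) ∧ -(2 * (N : ℤ) * (N - |n|)) ≤ k ∧ k < 2 * (N : ℤ) * (N - |n|) ∧
      (k : ℝ) / (2 * (N : ℝ) ^ 2) ≤ s ∧ s ≤ ((k : ℝ) + 1) / (2 * (N : ℝ) ^ 2) ∧
      ((n : ℝ) * (1 - ((k : ℝ) / (2 * (N : ℝ) ^ 2)) ^ 2) + (1 - (ww N n) ^ 2) - 3 / N) / N
        ≤ b - (k : ℝ) / (2 * (N : ℝ) ^ 2) * a ∧
      b - (k : ℝ) / (2 * (N : ℝ) ^ 2) * a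
        ≤ (((n : ℝ) + 1) * (1 - ((k : ℝ) / (2 * (N : ℝ) ^ 2)) ^ 2) + 2 / N) / N) := by
  have hw0 := ww_nonneg N n
  have hw1 := ww_le_one N n
  have hsh : |s| < ww N n := by
    rw [← sq_abs] at hs2
    exact lt_of_pow_lt_pow_left₀ 2 hw0 hs2
  obtain ⟨n3, k1, k2⟩ := floor_k N hN0 n s hsh
  have kfl := Int.floor_le (2 * (N : ℝ) ^ 2 * s)
  have klf := Int.lt_floor_add_one (2 * (N : ℝ) ^ 2 * s)
  have k3 : -(2 * (N : ℤ) ^ 2) ≤ ⌊2 * (N : ℝ) ^ 2 * s⌋ := by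
    refine le_trans ?_ k1
    have := abs_nonneg n
    nlinarith
  generalize ⌊2 * (N : ℝ) ^ 2 * s⌋ = k at k1 k2 k3 kfl klf
  have hNsq : (0 : ℝ) < 2 * (N : ℝ) ^ 2 := by positivity
  have k3r : -(2 * (N : ℝ) ^ 2) ≤ (k : ℝ) := by exact_mod_cast k3
  have ts : (k : ℝ) / (2 * (N : ℝ) ^ 2) ≤ s := by rw [div_le_iff₀ hNsq]; linarith
  have ts' : s ≤ ((k : ℝ) + 1) / (2 * (N : ℝ) ^ 2) := by
    rw [le_div_iff₀ hNsq]; linarith
  have t1 : -1 ≤ (k : ℝ) / (2 * (N : ℝ) ^ 2) := by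
    rw [le_div_iff₀ hNsq]
    linarith
  have hs1 : |s| ≤ 1 := by linarith
  have hs1' := abs_le.1 hs1
  have hvl := (abs_le.1 hvv).1
  have hvu := (abs_le.1 hvv).2
  have n1 : -((N : ℝ) + 1) ≤ n := by nlinarith
  have n2 : (n : ℝ) ≤ N := by nlinarith
  have ts2 : s - (k : ℝ) / (2 * (N : ℝ) ^ 2) ≤ 1 / (2 * (N : ℝ) ^ 2) := by
    rw [add_div] at ts'
    linarith
  obtain ⟨r1, r2⟩ := strip_est N hN1 hN0 a b s ((k : ℝ) / (2 * (N : ℝ) ^ 2)) n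
    (1 - (ww N n) ^ 2) y ha hs1 (by rw [abs_le]; constructor <;> linarith) ts ts2 hyb n1 n2
    (by linarith) y2
  exact ⟨k, n, n3, k1, k2, ts, ts', r1, r2⟩

/-- The covering lemma with row dependent heights. -/
theorem cover5 (N : ℕ) (hN : 10 ≤ N) (a b s : ℝ) (h1 : |a - b| ≤ 1 - s) (h2 : |a + b| ≤ 1 + s) :
    (∃ m n : ℤ, |m| + N * |n| ≤ (N : ℤ) ^ 2 + 3 * N ∧
      (m : ℝ) / (N : ℝ) ^ 2 ≤ a - (n : ℝ) / N * s ∧
      a - (n : ℝ) / N * s ≤ ((m : ℝ) + 1) / (N : ℝ) ^ 2 ∧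
      ((n : ℝ) - 1 / N) / N ≤ b - (m : ℝ) / (N : ℝ) ^ 2 * s ∧
      b - (m : ℝ) / (N : ℝ) ^ 2 * s ≤ ((n : ℝ) + (1 - (ww N n) ^ 2 + 1 / N)) / N) ∨
    (∃ k n : ℤ, |n| ≤ (N : ℤ) ∧ -(2 * (N : ℤ) * (N - |n|)) ≤ k ∧ k < 2 * (N : ℤ) * (N - |n|) ∧
      (k : ℝ) / (2 * (N : ℝ) ^ 2) ≤ s ∧ s ≤ ((k : ℝ) + 1) / (2 * (N : ℝ) ^ 2) ∧
      ((n : ℝ) * (1 - ((k : ℝ) / (2 * (N : ℝ) ^ 2)) ^ 2) + (1 - (ww N n) ^ 2) - 3 / N) / N
        ≤ b - (k : ℝ) / (2 * (N : ℝ) ^ 2) * a ∧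
      b - (k : ℝ) / (2 * (N : ℝ) ^ 2) * a
        ≤ (((n : ℝ) + 1) * (1 - ((k : ℝ) / (2 * (N : ℝ) ^ 2)) ^ 2) + 2 / N) / N) := by
  have hN1 : (10 : ℝ) ≤ N := by exact_mod_cast hN
  have hN0 : (0 : ℝ) < N := by linarith
  have hs : |s| ≤ 1 := by
    rw [abs_le]
    constructor
    · have := abs_nonneg (a + b); linarith
    · have := abs_nonneg (a - b); linarith
  have ha : |a| ≤ 1 := by
    rw [abs_le] at *
    constructor <;> linarith [h1.1, h1.2, h2.1, h2.2]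
  obtain ⟨v, hv, hb⟩ := exists_v a b s h1 h2
  set n : ℤ := ⌊(N : ℝ) * v⌋ with hn
  have hfl := Int.floor_le ((N : ℝ) * v)
  have hlf := Int.lt_floor_add_one ((N : ℝ) * v)
  rw [← hn] at hfl hlf
  obtain ⟨m0, f0, hf0, hf0', hm0, c1, c2, c3⟩ := tile_of N hN a b s v hs hv hb n
    (by rw [abs_le]; constructor <;> linarith)
  obtain ⟨m1, f1, hf1, hf1', hm1, d1, d2, d3⟩ := tile_of N hN a b s v hs hv hb (n + 1)
    (by push_cast; rw [abs_le]; constructor <;> linarith)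
  have hss : s ^ 2 ≤ 1 := by
    have := sq_abs s
    nlinarith [abs_nonneg s]
  have hsl := (abs_le.1 hs).1
  have hsu := (abs_le.1 hs).2
  have hiN : 0 < 1 / (N : ℝ) := by positivity
  have g0 : |s * f0 / N| ≤ 1 / N := by
    rw [abs_div, abs_mul, abs_of_pos hN0, abs_of_nonneg hf0]
    gcongr
    nlinarith [abs_nonneg s]
  have g1 : |s * f1 / N| ≤ 1 / N := by
    rw [abs_div, abs_mul, abs_of_pos hN0, abs_of_nonneg hf1]
    gcongr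
    nlinarith [abs_nonneg s]
  have g0' := abs_le.1 g0
  have g1' := abs_le.1 g1
  have lo0 : -(1 / (N : ℝ)) ≤ N * (b - (m0 : ℝ) / (N : ℝ) ^ 2 * s) - n := by
    rw [c3]
    have : 0 ≤ (1 - s ^ 2) * (N * v - n) := mul_nonneg (by linarith) (by linarith)
    linarith
  have up1 : N * (b - (m1 : ℝ) / (N : ℝ) ^ 2 * s) - ((n + 1 : ℤ) : ℝ) ≤ 1 / N := by
    rw [d3]
    have : (1 - s ^ 2) * (N * v - ((n + 1 : ℤ) : ℝ)) ≤ 0 := by
      push_cast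
      exact mul_nonpos_of_nonneg_of_nonpos (by linarith) (by linarith)
    linarith
  by_cases q0 : N * (b - (m0 : ℝ) / (N : ℝ) ^ 2 * s) - n ≤ 1 - (ww N n) ^ 2 + 1 / N
  · left
    refine ⟨m0, n, hm0, c1, c2, ?_, ?_⟩
    · rw [div_le_iff₀ hN0]; linarith
    · rw [le_div_iff₀ hN0]; linarith
  by_cases q1 : -(1 / (N : ℝ)) ≤ N * (b - (m1 : ℝ) / (N : ℝ) ^ 2 * s) - ((n + 1 : ℤ) : ℝ)
  · left
    refine ⟨m1, n + 1, hm1, d1, d2, ?_, ?_⟩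
    · rw [div_le_iff₀ hN0]; linarith
    · rw [le_div_iff₀ hN0]
      have := ww_sq_le N (n + 1)
      linarith
  right
  push Not at q0 q1
  rw [c3] at q0
  rw [d3] at q1
  push_cast at q1
  set y : ℝ := (1 - s ^ 2) * (N * v) with hy
  have hyb : N * (b - s * a) = y := by rw [hb, hy]; ring
  have y1 : 1 - (ww N n) ^ 2 + n * (1 - s ^ 2) - 1 / N < y := by
    have : (1 - s ^ 2) * (N * v - n) = y - n * (1 - s ^ 2) := by rw [hy]; ring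
    rw [this] at q0
    linarith
  have y2 : y < (n + 1) * (1 - s ^ 2) := by
    have : (1 - s ^ 2) * (N * v - (n + 1)) = y - (n + 1) * (1 - s ^ 2) := by rw [hy]; ring
    rw [this] at q1
    linarith
  have hs2 : s ^ 2 < (ww N n) ^ 2 := by
    have e1 : (1 - s ^ 2) * (N * v - n) - (1 - s ^ 2) * (N * v - (n + 1)) = 1 - s ^ 2 := by ring
    linarith
  exact strip_of5 N hN1 hN0 a b s v ha (by have := abs_nonneg (a - s * v); linarith) y hyb n hfl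
    hlf hs2 y1 y2

end Vale.Agent.P243
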