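import Vale.Agent.P243.Cost
import Vale.Agent.P243.Cover5

namespace Vale.Agent.P243

open Finset

/-- Index set of the vertical tiles: row `n`, column `m`. -/
noncomputable def tiles5 (N : ℕ) : Finset (Σ _ : ℤ, ℤ) :=
  (Icc (-((N : ℤ) + 3)) ((N : ℤ) + 3)).sigma
    (fun n => Icc (-((N : ℤ) ^ 2 + 3 * N - N * |n|)) ((N : ℤ) ^ 2 + 3 * N - N * |n|))

/-- Index set of the horizontal strips. -/
noncomputable def strips5 (N : ℕ) : Finset (Σ _ : ℤ, ℤ) :=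
  (Icc (-(N : ℤ)) (N : ℤ)).sigma
    (fun n => Ico (-(2 * (N : ℤ) * (N - |n|))) (2 * (N : ℤ) * (N - |n|)))

theorem sum_Icc_pair (g : ℕ → ℝ) (f : ℤ → ℝ) (h0 : f 0 = g 0)
    (hs : ∀ K : ℕ, f (K + 1) + f (-(K + 1)) = g (K + 1) - g K) (K : ℕ) :
    ∑ n ∈ Icc (-(K : ℤ)) (K : ℤ), f n = g K := by
  induction K with
  | zero => simpa using h0
  | succ K ih =>
    have := sum_Icc_succ f K
    push_cast at this ⊢
    rw [this, ih]
    linarith [hs K]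

theorem ww_eq (N : ℕ) (hN : 0 < N) (n : ℤ) (hn : |n| ≤ N) : ww N n = 1 - |(n : ℝ)| / N := by
  unfold ww
  apply max_eq_left
  have hN0 : (0 : ℝ) < N := by exact_mod_cast hN
  have : |(n : ℝ)| ≤ N := by exact_mod_cast hn
  have : |(n : ℝ)| / N ≤ 1 := by rw [div_le_one hN0]; exact this
  linarith

theorem ww_zero (N : ℕ) (n : ℤ) (hn : (N : ℤ) < |n|) (hN : 0 < N) : ww N n = 0 := by
  unfold ww
  apply max_eq_right
  have hN0 : (0 : ℝ) < N := by exact_mod_cast hN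
  have : (N : ℝ) ≤ |(n : ℝ)| := by exact_mod_cast hn.le
  have : 1 ≤ |(n : ℝ)| / N := by rw [le_div_iff₀ hN0]; linarith
  linarith

theorem sum_ww (N : ℕ) (hN : 0 < N) : ∑ n ∈ Icc (-(N : ℤ)) (N : ℤ), ww N n = N := by
  have hN0 : (0 : ℝ) < N := by exact_mod_cast hN
  have h1 : ∑ n ∈ Icc (-(N : ℤ)) (N : ℤ), ww N n =
      ∑ n ∈ Icc (-(N : ℤ)) (N : ℤ), (1 - |(n : ℝ)| / N) := by
    refine sum_congr rfl fun n hn => ?_
    rw [mem_Icc] at hn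
    exact ww_eq N hN n (abs_le.2 hn)
  rw [h1, sum_Icc_pair (fun K => 2 * (K : ℝ) + 1 - K * (K + 1) / N)]
  · field_simp
    ring
  · simp
  · intro K
    push_cast
    have : (0 : ℝ) ≤ K := Nat.cast_nonneg K
    rw [abs_of_nonneg (by linarith : (0 : ℝ) ≤ (K : ℝ) + 1),
      abs_of_nonpos (by linarith : -((K : ℝ) + 1) ≤ 0)]
    field_simp
    ring

theorem sum_ww3 (N : ℕ) (hN : 0 < N) :
    ∑ n ∈ Icc (-(N : ℤ)) (N : ℤ), (ww N n) ^ 3 = N / 2 + 1 / (2 * N) := by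
  have hN0 : (0 : ℝ) < N := by exact_mod_cast hN
  have h1 : ∑ n ∈ Icc (-(N : ℤ)) (N : ℤ), (ww N n) ^ 3 =
      ∑ n ∈ Icc (-(N : ℤ)) (N : ℤ), (1 - |(n : ℝ)| / N) ^ 3 := by
    refine sum_congr rfl fun n hn => ?_
    rw [mem_Icc] at hn
    rw [ww_eq N hN n (abs_le.2 hn)]
  rw [h1, sum_Icc_pair (fun K => 2 * (K : ℝ) + 1 - 3 * (K * (K + 1)) / N +
    (K * (K + 1) * (2 * K + 1)) / (N : ℝ) ^ 2 - (K * (K + 1)) ^ 2 / (2 * (N : ℝ) ^ 3))]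
  · field_simp
    ring
  · simp
  · intro K
    push_cast
    have : (0 : ℝ) ≤ K := Nat.cast_nonneg K
    rw [abs_of_nonneg (by linarith : (0 : ℝ) ≤ (K : ℝ) + 1),
      abs_of_nonpos (by linarith : -((K : ℝ) + 1) ≤ 0)]
    field_simp
    ring

theorem sum_ext3 (N : ℕ) (f : ℤ → ℝ) (hf : ∀ n : ℤ, (N : ℤ) < |n| → f n = 0) :
    ∑ n ∈ Icc (-((N : ℤ) + 3)) ((N : ℤ) + 3), f n = ∑ n ∈ Icc (-(N : ℤ)) (N : ℤ), f n := by
  symm
  apply sum_subset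
  · intro n hn
    rw [mem_Icc] at hn ⊢
    constructor <;> omega
  · intro n _ hn
    apply hf
    rw [mem_Icc] at hn
    by_contra hcon
    push Not at hcon
    exact hn (abs_le.1 hcon)

/-- relative cost of the tiles. -/
theorem cost_tiles5 (N : ℕ) (hN : 10 ≤ N) :
    ∑ z ∈ tiles5 N, ((1 / (N : ℝ) ^ 2) * ((1 - (ww N z.1) ^ 2 + 2 / (N : ℝ)) / (N : ℝ)) / 4) ≤
      1 / 4 + 7 / (N : ℝ) := by
  have hN1 : (10 : ℝ) ≤ N := by exact_mod_cast hN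
  have hN0 : (0 : ℝ) < N := by linarith
  have hNn : 0 < N := by omega
  unfold tiles5
  rw [sum_sigma]
  have hrow : ∀ n ∈ Icc (-((N : ℤ) + 3)) ((N : ℤ) + 3),
      ∑ _m ∈ Icc (-((N : ℤ) ^ 2 + 3 * N - N * |n|)) ((N : ℤ) ^ 2 + 3 * N - N * |n|),
        ((1 / (N : ℝ) ^ 2) * ((1 - (ww N n) ^ 2 + 2 / (N : ℝ)) / (N : ℝ)) / 4) ≤
      (1 / (2 * (N : ℝ))) * (ww N n - (ww N n) ^ 3) + 1 / (N : ℝ) ^ 2 * ww N n +
        (6 * (N : ℝ) + 1) * (1 + 2 / (N : ℝ)) / (4 * (N : ℝ) ^ 3) := by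
    intro n hn
    rw [mem_Icc] at hn
    have habs : |n| ≤ (N : ℤ) + 3 := abs_le.2 hn
    have h3 : 0 ≤ (N : ℤ) ^ 2 + 3 * N - N * |n| := by
      have : (N : ℤ) * |n| ≤ N * (N + 3) := mul_le_mul_of_nonneg_left habs (by positivity)
      linarith
    rw [sum_const, nsmul_eq_mul, Int.card_Icc]
    have h4 : (((((N : ℤ) ^ 2 + 3 * N - N * |n| + 1 - -((N : ℤ) ^ 2 + 3 * N - N * |n|)).toNat : ℕ) : ℤ) : ℝ) =
        (2 * ((N : ℝ) ^ 2 + 3 * N - N * |(n : ℝ)|) + 1) := by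
      rw [Int.toNat_of_nonneg (by linarith)]
      push_cast
      ring
    have h4' : (((((N : ℤ) ^ 2 + 3 * N - N * |n| + 1 - -((N : ℤ) ^ 2 + 3 * N - N * |n|)).toNat : ℕ)) : ℝ) =
        (2 * ((N : ℝ) ^ 2 + 3 * N - N * |(n : ℝ)|) + 1) := by
      rw [← h4]; push_cast; rfl
    rw [h4']
    have hw0 := ww_nonneg N n
    have hw1 := ww_le_one N n
    have hw2 := ww_sq_le N n
    have hwl : (N : ℝ) - |(n : ℝ)| ≤ N * ww N n := by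
      have : 1 - |(n : ℝ)| / N ≤ ww N n := le_max_left _ _
      have h6 : (N : ℝ) * (1 - |(n : ℝ)| / N) ≤ N * ww N n := by gcongr
      have h7 : (N : ℝ) * (1 - |(n : ℝ)| / N) = N - |(n : ℝ)| := by field_simp
      linarith
    have hcount : (2 * ((N : ℝ) ^ 2 + 3 * N - N * |(n : ℝ)|) + 1) ≤
        2 * (N : ℝ) ^ 2 * ww N n + (6 * N + 1) := by
      nlinarith
    have h2N : 0 < 2 / (N : ℝ) := by positivity
    have hb0 : 0 ≤ ((1 / (N : ℝ) ^ 2) * ((1 - (ww N n) ^ 2 + 2 / (N : ℝ)) / (N : ℝ)) / 4) := by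
      have : 0 ≤ 1 - (ww N n) ^ 2 + 2 / (N : ℝ) := by linarith
      positivity
    calc _ ≤ (2 * (N : ℝ) ^ 2 * ww N n + (6 * N + 1)) *
          ((1 / (N : ℝ) ^ 2) * ((1 - (ww N n) ^ 2 + 2 / (N : ℝ)) / (N : ℝ)) / 4) := by gcongr
      _ = (1 / (2 * (N : ℝ))) * (ww N n - (ww N n) ^ 3) + 1 / (N : ℝ) ^ 2 * ww N n +
          (6 * (N : ℝ) + 1) * (1 - (ww N n) ^ 2 + 2 / (N : ℝ)) / (4 * (N : ℝ) ^ 3) := by
          field_simp
          ring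
      _ ≤ _ := by
          gcongr
          have : 0 ≤ (ww N n) ^ 2 := by positivity
          linarith
  refine (sum_le_sum hrow).trans ?_
  rw [sum_add_distrib, sum_add_distrib, ← mul_sum, ← mul_sum, sum_sub_distrib, sum_const,
    nsmul_eq_mul, Int.card_Icc,
    sum_ext3 N (fun n => ww N n) (fun n hn => ww_zero N n hn hNn),
    sum_ext3 N (fun n => (ww N n) ^ 3) (fun n hn => by
      simp only [ww_zero N n hn hNn]; norm_num), sum_ww N hNn, sum_ww3 N hNn]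
  have h7 : (((((N : ℤ) + 3 + 1 - -((N : ℤ) + 3)).toNat : ℕ) : ℤ) : ℝ) = 2 * N + 7 := by
    rw [Int.toNat_of_nonneg (by omega)]
    push_cast
    ring
  have h8 : ((((N : ℤ) + 3 + 1 - -((N : ℤ) + 3)).toNat : ℕ) : ℝ) = 2 * N + 7 := by
    rw [← h7]; push_cast; rfl
  rw [h8, ← sub_nonneg]
  have : 1 / 4 + 7 / (N : ℝ) - (1 / (2 * (N : ℝ)) * (N - (N / 2 + 1 / (2 * N))) +
      1 / (N : ℝ) ^ 2 * N + (2 * N + 7) *
        ((6 * (N : ℝ) + 1) * (1 + 2 / (N : ℝ)) / (4 * (N : ℝ) ^ 3))) =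
      (12 * N ^ 3 - 67 * N ^ 2 - 95 * N - 14) / (4 * (N : ℝ) ^ 4) := by
    field_simp
    ring
  rw [this]
  apply div_nonneg _ (by positivity)
  nlinarith [mul_nonneg (mul_nonneg hN0.le hN0.le) (by linarith : (0:ℝ) ≤ N - 10),
    mul_nonneg hN0.le (by linarith : (0:ℝ) ≤ N - 10)]

/-- relative cost of the strips. -/
theorem cost_strips5 (N : ℕ) (hN : 10 ≤ N) :
    ∑ z ∈ strips5 N, ((1 / (2 * (N : ℝ) ^ 2)) *
      (((ww N z.1) ^ 2 - ((z.2 : ℝ) / (2 * (N : ℝ) ^ 2)) ^ 2 + 5 / (N : ℝ)) / (N : ℝ)) / 4) ≤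
      1 / 6 + 3 / (N : ℝ) := by
  have hN1 : (10 : ℝ) ≤ N := by exact_mod_cast hN
  have hN0 : (0 : ℝ) < N := by linarith
  have hNn : 0 < N := by omega
  unfold strips5
  rw [sum_sigma]
  have hrow : ∀ n ∈ Icc (-(N : ℤ)) (N : ℤ),
      ∑ k ∈ Ico (-(2 * (N : ℤ) * (N - |n|))) (2 * (N : ℤ) * (N - |n|)),
        ((1 / (2 * (N : ℝ) ^ 2)) *
      (((ww N n) ^ 2 - ((k : ℝ) / (2 * (N : ℝ) ^ 2)) ^ 2 + 5 / (N : ℝ)) / (N : ℝ)) / 4) ≤
      (1 / (3 * (N : ℝ))) * (ww N n) ^ 3 + 5 / (2 * (N : ℝ) ^ 2) * ww N n := by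
    intro n hn
    rw [mem_Icc] at hn
    have habs : |n| ≤ (N : ℤ) := abs_le.2 hn
    obtain ⟨j, hj⟩ : ∃ j : ℕ, (j : ℤ) = 2 * (N : ℤ) * (N - |n|) :=
      ⟨(2 * (N : ℤ) * (N - |n|)).toNat, Int.toNat_of_nonneg (by
        apply mul_nonneg (by positivity); linarith)⟩
    have hw := ww_eq N hNn n habs
    have hjr : (j : ℝ) = 2 * (N : ℝ) ^ 2 * ww N n := by
      have : (j : ℝ) = 2 * (N : ℝ) * (N - |(n : ℝ)|) := by exact_mod_cast hj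
      rw [this, hw]
      field_simp
    rw [← hj]
    have hs := sum_sq j
    have h9 : ∑ k ∈ Ico (-(j : ℤ)) (j : ℤ), ((1 / (2 * (N : ℝ) ^ 2)) *
      (((ww N n) ^ 2 - ((k : ℝ) / (2 * (N : ℝ) ^ 2)) ^ 2 + 5 / (N : ℝ)) / (N : ℝ)) / 4) =
      (1 / (2 * (N : ℝ) ^ 2)) / N / 4 *
      (∑ k ∈ Ico (-(j : ℤ)) (j : ℤ), ((ww N n) ^ 2 + 5 / (N : ℝ)) -
        1 / (4 * (N : ℝ) ^ 4) * ∑ k ∈ Ico (-(j : ℤ)) (j : ℤ), ((k : ℝ)) ^ 2) := by
      rw [mul_sum (f := fun k : ℤ => ((k : ℝ)) ^ 2), ← sum_sub_distrib, mul_sum]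
      refine sum_congr rfl fun k _ => ?_
      field_simp
      ring
    rw [h9, hs, sum_const, nsmul_eq_mul, Int.card_Ico]
    have h10 : ((((j : ℤ) - -(j : ℤ)).toNat : ℕ) : ℝ) = 2 * (j : ℝ) := by
      have h7 : (((((j : ℤ) - -(j : ℤ)).toNat : ℕ) : ℤ) : ℝ) = 2 * (j : ℝ) := by
        rw [Int.toNat_of_nonneg (by omega)]
        push_cast
        ring
      rw [← h7]; push_cast; rfl
    rw [h10, hjr]
    have hw0 := ww_nonneg N n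
    have e : (1 / (2 * (N : ℝ) ^ 2)) / N / 4 *
      (2 * (2 * (N : ℝ) ^ 2 * ww N n) * ((ww N n) ^ 2 + 5 / (N : ℝ)) -
        1 / (4 * (N : ℝ) ^ 4) * ((2 * (2 * (N : ℝ) ^ 2 * ww N n) ^ 3 +
          2 * (N : ℝ) ^ 2 * ww N n) / 3)) =
      (1 / (3 * (N : ℝ))) * (ww N n) ^ 3 + 5 / (2 * (N : ℝ) ^ 2) * ww N n -
        ww N n / (48 * (N : ℝ) ^ 5) := by
      field_simp
      ring
    rw [e]
    have : 0 ≤ ww N n / (48 * (N : ℝ) ^ 5) := by positivity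
    linarith
  refine (sum_le_sum hrow).trans ?_
  rw [sum_add_distrib, ← mul_sum, ← mul_sum, sum_ww N hNn, sum_ww3 N hNn, ← sub_nonneg]
  have : 1 / 6 + 3 / (N : ℝ) - (1 / (3 * (N : ℝ)) * (N / 2 + 1 / (2 * N)) +
      5 / (2 * (N : ℝ) ^ 2) * N) = (3 * N - 1) / (6 * (N : ℝ) ^ 2) := by
    field_simp
    ring
  rw [this]
  apply div_nonneg _ (by positivity)
  linarith

end Vale.Agent.P243
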