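import Mathlib

namespace Vale.Agent.P243

open MeasureTheory

/-- Euclidean three-space. -/
abbrev E3 : Type := EuclideanSpace ℝ (Fin 3)

/-- The canonical Lebesgue measure of a linear subspace `F` of a finite-dimensional real inner
product space (`F` being a Euclidean space itself). -/
noncomputable def subspaceMeasure {E : Type} [NormedAddCommGroup E] [InnerProductSpace ℝ E]
    [FiniteDimensional ℝ E] [MeasurableSpace E] [BorelSpace E] (F : Submodule ℝ E) : Measure F :=
  @volume F measureSpaceOfInnerProductSpace

/-- The Lebesgue measure in the linear subspace `F` of a subset `B` (which will be contained in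
`F`). -/
noncomputable def subspaceVolume {E : Type} [NormedAddCommGroup E] [InnerProductSpace ℝ E]
    [FiniteDimensional ℝ E] [MeasurableSpace E] [BorelSpace E] (F : Submodule ℝ E) (B : Set E) :
    ENNReal :=
  subspaceMeasure F ((fun y : F => (y : E)) ⁻¹' B)

/-- The linear subspace `u^⊥`, the orthogonal complement of the vector `u`. -/
noncomputable def perp (u : E3) : Submodule ℝ E3 := (Submodule.span ℝ {u})ᗮ

/-- Lebesgue area on the plane `u^⊥` of three-space (the Lebesgue measure of the two-dimensional
Euclidean space `u^⊥`), evaluated at a subset of three-space (which will be contained in `u^⊥`). -/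
noncomputable def planarArea (u : E3) (B : Set E3) : ENNReal := subspaceVolume (perp u) B

/-- The orthogonal projection of `K` onto the plane `u^⊥`, for a unit vector `u`. -/
def shadow (u : E3) (K : Set E3) : Set E3 := (fun x : E3 => x - inner ℝ u x • u) '' K

/-- A convex body: a compact convex set with nonempty interior. -/
def IsConvexBody (K : Set E3) : Prop := IsCompact K ∧ Convex ℝ K ∧ (interior K).Nonempty

/-- A cylinder `B + ℝ u`: a unit vector `u` together with a Lebesgue measurable base `B`
contained in the plane `u^⊥` and of finite planar area. -/
structure Cylinder where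
  /-- the direction -/
  dir : E3
  /-- the base -/
  base : Set E3
  norm_dir : ‖dir‖ = 1
  base_sub : ∀ x ∈ base, inner ℝ dir x = 0
  base_meas : MeasurableSet base
  area_ne_top : planarArea dir base ≠ ⊤

/-- The point set `B + ℝ u` of a cylinder. -/
def Cylinder.carrier (C : Cylinder) : Set E3 :=
  {x | ∃ b ∈ C.base, ∃ t : ℝ, x = b + t • C.dir}

/-- The base area `|B|` of a cylinder. -/
noncomputable def Cylinder.area (C : Cylinder) : ENNReal := planarArea C.dir C.base

/-- The smallest area of an orthogonal projection of `K` onto a plane. -/
noncomputable def Amin (K : Set E3) : ENNReal :=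
  ⨅ (u : E3) (_ : ‖u‖ = 1), planarArea u (shadow u K)

/-- The directionwise relative area of a finite family of cylinders with respect to `K`. -/
noncomputable def relArea {m : ℕ} (C : Fin m → Cylinder) (K : Set E3) : ENNReal :=
  ∑ i, (C i).area / planarArea (C i).dir (shadow (C i).dir K)

/-- The total base area of a finite family of cylinders. -/
noncomputable def totalArea {m : ℕ} (C : Fin m → Cylinder) : ENNReal := ∑ i, (C i).area

/-- The family of cylinders covers `K`. -/
def Covers {m : ℕ} (C : Fin m → Cylinder) (K : Set E3) : Prop := K ⊆ ⋃ i, (C i).carrier

/-- The constant `r_3`: the infimum of the directionwise relative area over all convex bodies and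
all their finite cylinder coverings. -/
noncomputable def r3 : ENNReal :=
  ⨅ (K : Set E3) (_ : IsConvexBody K) (m : ℕ) (C : Fin m → Cylinder) (_ : Covers C K), relArea C K

/-- The constant `c_3`: the infimum of the total base area divided by the smallest projection area,
over all convex bodies and all their finite cylinder coverings. -/
noncomputable def c3 : ENNReal :=
  ⨅ (K : Set E3) (_ : IsConvexBody K) (m : ℕ) (C : Fin m → Cylinder) (_ : Covers C K),
    totalArea C / Amin K

end Vale.Agent.P243
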