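import Vale.Agent.P243.MainR
import Vale.Agent.P243.Cost5

namespace Vale.Agent.P243

open MeasureTheory

theorem tile5_exists (N : ℕ) (hN : 10 ≤ N) (z : Σ _ : ℤ, ℤ) : ∃ C : Cylinder,
      (∀ x : E3, (z.2 : ℝ) / (N : ℝ) ^ 2 ≤ x 0 - (z.1 : ℝ) / N * x 2 →
        x 0 - (z.1 : ℝ) / N * x 2 ≤ ((z.2 : ℝ) + 1) / (N : ℝ) ^ 2 →
        ((z.1 : ℝ) - 1 / N) / N ≤ x 1 - (z.2 : ℝ) / (N : ℝ) ^ 2 * x 2 →
        x 1 - (z.2 : ℝ) / (N : ℝ) ^ 2 * x 2 ≤ ((z.1 : ℝ) + (1 - (ww N z.1) ^ 2 + 1 / N)) / N →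
          x ∈ C.carrier) ∧
      C.area / planarArea C.dir (shadow C.dir tetra) ≤
        ENNReal.ofReal ((1 / (N : ℝ) ^ 2) *
          ((1 - (ww N z.1) ^ 2 + 2 / (N : ℝ)) / (N : ℝ)) / 4) := by
  have hN0 : (0 : ℝ) < N := by
    have : (10 : ℝ) ≤ N := by exact_mod_cast hN
    linarith
  have hw := ww_sq_le N z.1
  have hi : 0 < 1 / (N : ℝ) := by positivity
  obtain ⟨C, h1, h2⟩ := exists_tileV ((z.1 : ℝ) / N) ((z.2 : ℝ) / (N : ℝ) ^ 2)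
    ((z.2 : ℝ) / (N : ℝ) ^ 2) (((z.2 : ℝ) + 1) / (N : ℝ) ^ 2)
    (((z.1 : ℝ) - 1 / N) / N) (((z.1 : ℝ) + (1 - (ww N z.1) ^ 2 + 1 / N)) / N)
    (by gcongr; linarith) (by
      gcongr
      linarith)
  refine ⟨C, h1, h2.trans (le_of_eq ?_)⟩
  congr 1
  field_simp
  ring

theorem strip5_sq (N : ℕ) (hN : 10 ≤ N) (z : Σ _ : ℤ, ℤ) (hz : z ∈ strips5 N) :
    ((z.2 : ℝ) / (2 * (N : ℝ) ^ 2)) ^ 2 ≤ (ww N z.1) ^ 2 := by
  have hN0 : (0 : ℝ) < N := by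
    have : (10 : ℝ) ≤ N := by exact_mod_cast hN
    linarith
  simp only [strips5, Finset.mem_sigma, Finset.mem_Ico, Finset.mem_Icc] at hz
  have habs : |z.1| ≤ (N : ℤ) := abs_le.2 hz.1
  have hw := ww_eq N (by omega) z.1 habs
  have hnw : ww N z.1 * (2 * (N : ℝ) ^ 2) = 2 * N * (N - |(z.1 : ℝ)|) := by
    rw [hw]; field_simp
  have h1 : -(2 * (N : ℝ) * (N - |(z.1 : ℝ)|)) ≤ (z.2 : ℝ) := by exact_mod_cast hz.2.1
  have h2 : (z.2 : ℝ) ≤ 2 * (N : ℝ) * (N - |(z.1 : ℝ)|) := by exact_mod_cast hz.2.2.le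
  apply sq_le_sq'
  · rw [le_div_iff₀ (by positivity)]
    linarith
  · rw [div_le_iff₀ (by positivity)]
    linarith

theorem strip5_exists (N : ℕ) (hN : 10 ≤ N) (z : Σ _ : ℤ, ℤ) (hz : z ∈ strips5 N) :
    ∃ C : Cylinder,
      (∀ x : E3, (z.2 : ℝ) / (2 * (N : ℝ) ^ 2) ≤ x 2 →
        x 2 ≤ ((z.2 : ℝ) + 1) / (2 * (N : ℝ) ^ 2) →
        ((z.1 : ℝ) * (1 - ((z.2 : ℝ) / (2 * (N : ℝ) ^ 2)) ^ 2) + (1 - (ww N z.1) ^ 2) - 3 / N) / N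
          ≤ x 1 - (z.2 : ℝ) / (2 * (N : ℝ) ^ 2) * x 0 →
        x 1 - (z.2 : ℝ) / (2 * (N : ℝ) ^ 2) * x 0
          ≤ (((z.1 : ℝ) + 1) * (1 - ((z.2 : ℝ) / (2 * (N : ℝ) ^ 2)) ^ 2) + 2 / N) / N →
        x ∈ C.carrier) ∧
      C.area / planarArea C.dir (shadow C.dir tetra) ≤
        ENNReal.ofReal ((1 / (2 * (N : ℝ) ^ 2)) *
      (((ww N z.1) ^ 2 - ((z.2 : ℝ) / (2 * (N : ℝ) ^ 2)) ^ 2 + 5 / (N : ℝ)) / (N : ℝ)) / 4) := by
  have hN0 : (0 : ℝ) < N := by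
    have : (10 : ℝ) ≤ N := by exact_mod_cast hN
    linarith
  have hsq := strip5_sq N hN z hz
  have h5 : 0 < 1 / (N : ℝ) := by positivity
  obtain ⟨C, h1, h2⟩ := exists_tileH ((z.2 : ℝ) / (2 * (N : ℝ) ^ 2))
    (((z.1 : ℝ) * (1 - ((z.2 : ℝ) / (2 * (N : ℝ) ^ 2)) ^ 2) + (1 - (ww N z.1) ^ 2) - 3 / N) / N)
    ((((z.1 : ℝ) + 1) * (1 - ((z.2 : ℝ) / (2 * (N : ℝ) ^ 2)) ^ 2) + 2 / N) / N)
    ((z.2 : ℝ) / (2 * (N : ℝ) ^ 2)) (((z.2 : ℝ) + 1) / (2 * (N : ℝ) ^ 2))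
    (by
      gcongr
      have e1 : (3 : ℝ) / N = 3 * (1 / N) := by ring
      have e2 : (2 : ℝ) / N = 2 * (1 / N) := by ring
      rw [e1, e2]
      nlinarith) (by gcongr; linarith)
  refine ⟨C, fun x a1 a2 a3 a4 => h1 x a3 a4 a1 a2, h2.trans (le_of_eq ?_)⟩
  congr 1
  field_simp
  ring

theorem main_R5 (N : ℕ) (hN : 10 ≤ N) :
    ∃ (m : ℕ) (C : Fin m → Cylinder), tetra ⊆ ⋃ i, (C i).carrier ∧
      ∑ i, (C i).area / planarArea (C i).dir (shadow (C i).dir tetra) ≤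
        ENNReal.ofReal (5 / 12 + 10 / (N : ℝ)) := by
  classical
  have hN0 : (0 : ℝ) < N := by
    have : (10 : ℝ) ≤ N := by exact_mod_cast hN
    linarith
  have hV := tile5_exists N hN
  have hH := strip5_exists N hN
  choose CV hCV1 hCV2 using hV
  choose CH hCH1 hCH2 using hH
  let C : (tiles5 N) ⊕ (strips5 N) → Cylinder := Sum.elim (fun z => CV z.1) (fun z => CH z.1 z.2)
  obtain ⟨m, C', hC', hsum⟩ := reindex tetra C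
    (fun C => C.area / planarArea C.dir (shadow C.dir tetra)) (by
    intro x hx
    rcases cover5 N hN (x 0) (x 1) (x 2) hx.1 hx.2 with ⟨m, n, h0, h1, h2, h3, h4⟩ |
      ⟨k, n, h0, h0', h0'', h1, h2, h3, h4⟩
    · have hmem : (⟨n, m⟩ : Σ _ : ℤ, ℤ) ∈ tiles5 N := by
        simp only [tiles5, Finset.mem_sigma, Finset.mem_Icc]
        have hm := abs_nonneg m
        have hn := abs_nonneg n
        have hNz : (10 : ℤ) ≤ N := by exact_mod_cast hN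
        have hn3 : |n| ≤ N + 3 := by
          by_contra hcon
          push Not at hcon
          nlinarith
        exact ⟨abs_le.1 hn3, abs_le.1 (by linarith)⟩
      exact Set.mem_iUnion.2 ⟨Sum.inl ⟨⟨n, m⟩, hmem⟩, hCV1 ⟨n, m⟩ x h1 h2 h3 h4⟩
    · have hmem : (⟨n, k⟩ : Σ _ : ℤ, ℤ) ∈ strips5 N := by
        simp only [strips5, Finset.mem_sigma, Finset.mem_Ico, Finset.mem_Icc]
        exact ⟨abs_le.1 h0, h0', h0''⟩
      exact Set.mem_iUnion.2 ⟨Sum.inr ⟨⟨n, k⟩, hmem⟩, hCH1 ⟨n, k⟩ hmem x h1 h2 h3 h4⟩)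
  refine ⟨m, C', hC', ?_⟩
  rw [hsum]
  rw [Fintype.sum_sum_type]
  have b1 : ∑ z : tiles5 N, (C (Sum.inl z)).area / planarArea (C (Sum.inl z)).dir
      (shadow (C (Sum.inl z)).dir tetra) ≤ ENNReal.ofReal (1 / 4 + 7 / (N : ℝ)) := by
    have hnn : ∀ z : Σ _ : ℤ, ℤ, 0 ≤ (1 / (N : ℝ) ^ 2) *
        ((1 - (ww N z.1) ^ 2 + 2 / (N : ℝ)) / (N : ℝ)) / 4 := by
      intro z
      have h1 := ww_sq_le N z.1
      have h2 : 0 < 2 / (N : ℝ) := by positivity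
      have : 0 ≤ 1 - (ww N z.1) ^ 2 + 2 / (N : ℝ) := by linarith
      positivity
    calc _ ≤ ∑ z : tiles5 N, ENNReal.ofReal
          ((1 / (N : ℝ) ^ 2) * ((1 - (ww N z.1.1) ^ 2 + 2 / (N : ℝ)) / (N : ℝ)) / 4) :=
          Finset.sum_le_sum (fun z _ => hCV2 z.1)
      _ = ENNReal.ofReal (∑ z : tiles5 N,
          ((1 / (N : ℝ) ^ 2) * ((1 - (ww N z.1.1) ^ 2 + 2 / (N : ℝ)) / (N : ℝ)) / 4)) :=
          (ENNReal.ofReal_sum_of_nonneg (fun z _ => hnn z.1)).symm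
      _ ≤ _ := by
          apply ENNReal.ofReal_le_ofReal
          rw [Finset.sum_coe_sort (tiles5 N)
            (fun z => ((1 / (N : ℝ) ^ 2) * ((1 - (ww N z.1) ^ 2 + 2 / (N : ℝ)) / (N : ℝ)) / 4))]
          exact cost_tiles5 N hN
  have b2 : ∑ z : strips5 N, (C (Sum.inr z)).area / planarArea (C (Sum.inr z)).dir
      (shadow (C (Sum.inr z)).dir tetra) ≤ ENNReal.ofReal (1 / 6 + 3 / (N : ℝ)) := by
    have hnn : ∀ z ∈ strips5 N, 0 ≤ ((1 / (2 * (N : ℝ) ^ 2)) *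
      (((ww N z.1) ^ 2 - ((z.2 : ℝ) / (2 * (N : ℝ) ^ 2)) ^ 2 + 5 / (N : ℝ)) / (N : ℝ)) / 4) := by
      intro z hz
      have hsq := strip5_sq N hN z hz
      have h5 : 0 < 5 / (N : ℝ) := by positivity
      have : 0 ≤ (ww N z.1) ^ 2 - ((z.2 : ℝ) / (2 * (N : ℝ) ^ 2)) ^ 2 + 5 / (N : ℝ) := by linarith
      positivity
    calc _ ≤ ∑ z : strips5 N, ENNReal.ofReal ((1 / (2 * (N : ℝ) ^ 2)) *
      (((ww N z.1.1) ^ 2 - ((z.1.2 : ℝ) / (2 * (N : ℝ) ^ 2)) ^ 2 + 5 / (N : ℝ)) / (N : ℝ)) / 4) :=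
          Finset.sum_le_sum (fun z _ => hCH2 z.1 z.2)
      _ = ENNReal.ofReal (∑ z : strips5 N, ((1 / (2 * (N : ℝ) ^ 2)) *
      (((ww N z.1.1) ^ 2 - ((z.1.2 : ℝ) / (2 * (N : ℝ) ^ 2)) ^ 2 + 5 / (N : ℝ)) / (N : ℝ)) / 4)) :=
          (ENNReal.ofReal_sum_of_nonneg (fun z _ => hnn z.1 z.2)).symm
      _ ≤ _ := by
          apply ENNReal.ofReal_le_ofReal
          rw [Finset.sum_coe_sort (strips5 N)
            (fun z => ((1 / (2 * (N : ℝ) ^ 2)) *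
      (((ww N z.1) ^ 2 - ((z.2 : ℝ) / (2 * (N : ℝ) ^ 2)) ^ 2 + 5 / (N : ℝ)) / (N : ℝ)) / 4))]
          exact cost_strips5 N hN
  calc _ ≤ ENNReal.ofReal (1 / 4 + 7 / (N : ℝ)) + ENNReal.ofReal (1 / 6 + 3 / (N : ℝ)) :=
        add_le_add b1 b2
    _ = ENNReal.ofReal (5 / 12 + 10 / (N : ℝ)) := by
        rw [← ENNReal.ofReal_add (by positivity) (by positivity)]
        congr 1
        ring

/-- `r_3 ≤ 5/12`. -/
theorem r3_le5 : r3 ≤ 5 / 12 := by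
  have h3 : (5 / 12 : ENNReal) = ENNReal.ofReal (5 / 12) := by
    rw [ENNReal.ofReal_div_of_pos (by norm_num)]; norm_num
  rw [h3]
  apply ENNReal.le_of_forall_pos_le_add
  intro ε hε _
  obtain ⟨N, hN⟩ := exists_nat_gt (10 / (ε : ℝ))
  have hε' : (0 : ℝ) < ε := by exact_mod_cast hε
  set M : ℕ := max N 10 with hM
  have hM10 : 10 ≤ M := le_max_right _ _
  have hMN : (N : ℝ) ≤ M := by exact_mod_cast le_max_left N 10
  have hM0 : (0 : ℝ) < M := by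
    have : (10 : ℝ) ≤ M := by exact_mod_cast hM10
    linarith
  obtain ⟨m, C, hC, hle⟩ := main_R5 M hM10
  have h4 : r3 ≤ ENNReal.ofReal (5 / 12 + 10 / (M : ℝ)) := by
    unfold r3
    exact iInf_le_of_le tetra (iInf_le_of_le tetra_convexBody (iInf_le_of_le m
      (iInf_le_of_le C (iInf_le_of_le hC hle))))
  refine h4.trans ?_
  rw [ENNReal.ofReal_add (by norm_num) (by positivity)]
  gcongr
  rw [← ENNReal.ofReal_coe_nnreal]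
  apply ENNReal.ofReal_le_ofReal
  rw [div_le_iff₀ hM0]
  rw [div_lt_iff₀ hε'] at hN
  nlinarith

end Vale.Agent.P243
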