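import Vale.Agent.P243.BangE

namespace Vale.Agent.P243

open MeasureTheory

/-- Numerical instance of `main_A`. -/
theorem main_A_num : ∃ (m : ℕ) (C : Fin m → Cylinder), Covers C tetra ∧
    totalArea C ≤ ENNReal.ofReal (2 * √2 * (1 / 2 - 1 / 10 ^ 10)) := by
  obtain ⟨m, C, h1, h2⟩ := main_A (10 ^ 13) (by norm_num) (1 / 10000) (by norm_num)
    (by norm_num) (by norm_num)
  refine ⟨m, C, h1, h2.trans (ENNReal.ofReal_le_ofReal ?_)⟩
  have hs0 : 0 < √2 := by positivity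
  have hs2 : √2 ^ 2 = 2 := Real.sq_sqrt (by norm_num)
  have h3 : (1 : ℝ) / √2 = √2 / 2 := by
    field_simp
    exact hs2.symm
  rw [h3]
  have h4 : (2 : ℝ) - 13 / 45 * (1 / 10000) ^ 2 + 1030 * (1 / 10000) ^ 3 ≤
      4 * (1 / 2 - 1 / 10 ^ 10) := by norm_num
  calc √2 / 2 * (2 - 13 / 45 * (1 / 10000) ^ 2 + 1030 * (1 / 10000) ^ 3) ≤
        √2 / 2 * (4 * (1 / 2 - 1 / 10 ^ 10)) := by gcongr
    _ = 2 * √2 * (1 / 2 - 1 / 10 ^ 10) := by ring

theorem bang_lt : ∃ (m : ℕ) (C : Fin m → Cylinder), Covers C tetra ∧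
    totalArea C < Amin tetra / 2 := by
  obtain ⟨m, C, h1, h2⟩ := main_A_num
  refine ⟨m, C, h1, lt_of_le_of_lt h2 ?_⟩
  have h3 : ENNReal.ofReal (2 * √2 * (1 / 2)) = ENNReal.ofReal (2 * √2) / 2 := by
    rw [show (2 * √2 * (1 / 2) : ℝ) = (2 * √2) / 2 by ring, ENNReal.ofReal_div_of_pos (by norm_num)]
    norm_num
  have h4 : ENNReal.ofReal (2 * √2 * (1 / 2 - 1 / 10 ^ 10)) < ENNReal.ofReal (2 * √2 * (1 / 2)) := by
    apply (ENNReal.ofReal_lt_ofReal_iff (by positivity)).2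
    have hs0 : 0 < √2 := by positivity
    apply mul_lt_mul_of_pos_left _ (by positivity)
    norm_num
  refine lt_of_lt_of_le h4 ?_
  rw [h3]
  exact ENNReal.div_le_div_right Amin_tetra 2

theorem c3_le : c3 ≤ ENNReal.ofReal (1 / 2 - 1 / 10 ^ 10) := by
  obtain ⟨m, C, h1, h2⟩ := main_A_num
  have h3 : c3 ≤ totalArea C / Amin tetra := by
    unfold c3
    exact iInf_le_of_le tetra (iInf_le_of_le tetra_convexBody (iInf_le_of_le m
      (iInf_le_of_le C (iInf_le_of_le h1 le_rfl))))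
  refine h3.trans ?_
  have hpos : (0 : ℝ) < 2 * √2 := by positivity
  calc totalArea C / Amin tetra ≤
        ENNReal.ofReal (2 * √2 * (1 / 2 - 1 / 10 ^ 10)) / ENNReal.ofReal (2 * √2) :=
        ENNReal.div_le_div h2 Amin_tetra
    _ = ENNReal.ofReal (1 / 2 - 1 / 10 ^ 10) := by
        rw [← ENNReal.ofReal_div_of_pos hpos]
        congr 1
        field_simp

end Vale.Agent.P243
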