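import Vale.Agent.P243.MainA

namespace Vale.Agent.P243

open MeasureTheory

/-- `c_3 ≤ 1/2 - 8 * 10^(-10)`. -/
theorem c3_le8 : c3 ≤ ENNReal.ofReal (1 / 2 - 8 / 10 ^ 10) := by
  obtain ⟨m, C, h1, h2⟩ := main_A (10 ^ 13) (by norm_num) (187 / 1000000) (by norm_num)
    (by norm_num) (by norm_num)
  have hs2 : √2 ^ 2 = 2 := Real.sq_sqrt (by norm_num)
  have h2' : totalArea C ≤ ENNReal.ofReal (2 * √2 * (1 / 2 - 8 / 10 ^ 10)) := by
    refine h2.trans (ENNReal.ofReal_le_ofReal ?_)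
    have hs0 : 0 < √2 := by positivity
    have h3 : (1 : ℝ) / √2 = √2 / 2 := by
      field_simp
      exact hs2.symm
    rw [h3]
    have h4 : (2 : ℝ) - 13 / 45 * (187 / 1000000) ^ 2 + 1030 * (187 / 1000000) ^ 3 ≤
        4 * (1 / 2 - 8 / 10 ^ 10) := by norm_num
    calc √2 / 2 * (2 - 13 / 45 * (187 / 1000000) ^ 2 + 1030 * (187 / 1000000) ^ 3) ≤
          √2 / 2 * (4 * (1 / 2 - 8 / 10 ^ 10)) := by gcongr
      _ = 2 * √2 * (1 / 2 - 8 / 10 ^ 10) := by ring
  have h3 : c3 ≤ totalArea C / Amin tetra := by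
    unfold c3
    exact iInf_le_of_le tetra (iInf_le_of_le tetra_convexBody (iInf_le_of_le m
      (iInf_le_of_le C (iInf_le_of_le h1 le_rfl))))
  refine h3.trans ?_
  have hpos : (0 : ℝ) < 2 * √2 := by positivity
  calc totalArea C / Amin tetra ≤
        ENNReal.ofReal (2 * √2 * (1 / 2 - 8 / 10 ^ 10)) / ENNReal.ofReal (2 * √2) :=
        ENNReal.div_le_div h2' Amin_tetra
    _ = ENNReal.ofReal (1 / 2 - 8 / 10 ^ 10) := by
        rw [← ENNReal.ofReal_div_of_pos hpos]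
        congr 1
        field_simp

end Vale.Agent.P243
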